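import Vale.Agent.P371.Full.Base

/-!
# P371 (full): derivative of the matrix logarithm tested against a matrix
-/

open scoped Matrix.Norms.L2Operator ComplexOrder
open Matrix MeasureTheory Set Filter Topology

namespace Vale.Agent.P371.Full

variable {N : ℕ}

namespace LD

section order
open scoped MatrixOrder

lemma spec_iff {δ : ℝ} {p : Mat N} (hp : p.IsHermitian) :
    (∀ x ∈ spectrum ℝ p, δ ≤ x) ↔ (p - δ • (1 : Mat N)).PosSemidef := by
  rw [← algebraMap_le_iff_le_spectrum (r := δ) (a := p) (by exact hp), Matrix.le_iff,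
    Algebra.algebraMap_eq_smul_one]

lemma spec_near {δ : ℝ} {p q : Mat N} (hp : p.IsHermitian) (hq : q.IsHermitian)
    (h : ∀ x ∈ spectrum ℝ p, 2 * δ ≤ x) (hn : ‖q - p‖ ≤ δ) : ∀ x ∈ spectrum ℝ q, δ ≤ x := by
  rw [spec_iff hq]
  rw [spec_iff hp] at h
  have h1 : IsSelfAdjoint (q - p) := hq.sub hp
  have h2 := IsSelfAdjoint.neg_algebraMap_norm_le_self (a := q - p) h1
  rw [Matrix.le_iff, Algebra.algebraMap_eq_smul_one] at h2
  have h3 : ((δ - ‖q - p‖) • (1 : Mat N)).PosSemidef := by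
    exact Matrix.PosSemidef.one.smul (by linarith : (0:ℝ) ≤ δ - ‖q - p‖)
  have h4 := (h.add h2).add h3
  convert h4 using 1
  module

end order

lemma cfc_inv_add {p : Mat N} (hp : p.IsHermitian) {δ r : ℝ} (hδ : ∀ x ∈ spectrum ℝ p, δ ≤ x)
    (hr : 0 < δ + r) : (p + r • (1 : Mat N))⁻¹ = cfc (fun x : ℝ => (x + r)⁻¹) p := by
  have hp' : IsSelfAdjoint p := hp
  rw [Matrix.nonsing_inv_eq_ringInverse, cfc_inv (fun x : ℝ => x + r) p (fun x hx => ?_) (by fun_prop) hp']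
  · congr 1
    rw [cfc_add_const r (fun x => x) p (by fun_prop) hp', cfc_id' ℝ p hp', Algebra.algebraMap_eq_smul_one]
  · have := hδ x hx
    linarith

lemma norm_inv_add_le {p : Mat N} (hp : p.IsHermitian) {δ r : ℝ} (hδ : ∀ x ∈ spectrum ℝ p, δ ≤ x)
    (hr : 0 < δ + r) : ‖(p + r • (1 : Mat N))⁻¹‖ ≤ (δ + r)⁻¹ := by
  rw [cfc_inv_add hp hδ hr]
  refine norm_cfc_le (by positivity) fun x hx => ?_
  have h1 := hδ x hx
  have h2 : 0 < x + r := by linarith
  rw [Real.norm_eq_abs, abs_of_pos (by positivity)]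
  exact inv_anti₀ hr (by linarith)

lemma exists_delta {p : Mat N} (hp : p.PosDef) : ∃ δ > 0, ∀ x ∈ spectrum ℝ p, δ ≤ x := by
  rw [hp.1.spectrum_real_eq_range_eigenvalues]
  rcases isEmpty_or_nonempty (Fin N) with h | h
  · refine ⟨1, one_pos, ?_⟩
    rintro x ⟨i, rfl⟩
    exact (h.false i).elim
  · obtain ⟨i, hi⟩ := Finite.exists_min hp.1.eigenvalues
    refine ⟨hp.1.eigenvalues i, hp.eigenvalues_pos i, ?_⟩
    rintro x ⟨j, rfl⟩
    exact hi j

lemma isUnit_add {p : Mat N} {δ r : ℝ} (hδ : ∀ x ∈ spectrum ℝ p, δ ≤ x)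
    (hr : 0 < δ + r) : IsUnit (p + r • (1 : Mat N)) := by
  have h1 : (-r) ∉ spectrum ℝ p := by
    intro h
    have := hδ _ h
    linarith
  rw [spectrum.notMem_iff] at h1
  have h2 : p + r • (1 : Mat N) = - (algebraMap ℝ (Mat N) (-r) - p) := by
    rw [Algebra.algebraMap_eq_smul_one]; simp
  rw [h2]
  exact h1.neg

lemma abs_rtr_le (Z : Mat N) : |rtr Z| ≤ ‖rtrL N‖ * ‖Z‖ := by
  have := (rtrL N).le_opNorm Z
  simpa [Real.norm_eq_abs] using this

lemma continuousOn_inv {p : Mat N} {δ : ℝ} (hδ0 : 0 < δ) (hδ : ∀ x ∈ spectrum ℝ p, δ ≤ x) :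
    ContinuousOn (fun r : ℝ => (p + r • (1 : Mat N))⁻¹) (Ioi 0) := by
  intro r hr
  have hr' : (0:ℝ) < r := hr
  apply ContinuousAt.continuousWithinAt
  obtain ⟨u, hu⟩ := isUnit_add hδ (by linarith : 0 < δ + r)
  have h1 : ContinuousAt (Ring.inverse : Mat N → Mat N) (p + r • (1 : Mat N)) := by
    rw [← hu]; exact NormedRing.inverse_continuousAt u
  have h2 : ContinuousAt (fun r : ℝ => p + r • (1 : Mat N)) r := by fun_prop
  have h3 : (fun r : ℝ => (p + r • (1 : Mat N))⁻¹) = Ring.inverse ∘ fun r : ℝ => p + r • (1 : Mat N) := by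
    funext r; simp [Matrix.nonsing_inv_eq_ringInverse]
  rw [h3]
  exact ContinuousAt.comp h1 h2

lemma integrableOn_sq {δ : ℝ} (hδ0 : 0 < δ) (C : ℝ) :
    IntegrableOn (fun r : ℝ => C * ((δ + r)⁻¹ * (δ + r)⁻¹)) (Ioi 0) := by
  apply Integrable.const_mul
  have h1 : ∀ x ∈ Ici (0:ℝ), HasDerivAt (fun r : ℝ => -(δ + r)⁻¹) ((δ + x)⁻¹ * (δ + x)⁻¹) x := by
    intro x hx
    have hx' : (0:ℝ) ≤ x := hx
    have h0 : δ + x ≠ 0 := by positivity
    have h2 : HasDerivAt (fun r : ℝ => δ + r) 1 x := by simpa using (hasDerivAt_id x).const_add δ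
    have h3 := (h2.inv h0).neg
    have e : -(-1 / (δ + x) ^ 2) = (δ + x)⁻¹ * (δ + x)⁻¹ := by field_simp
    rw [e] at h3
    exact h3
  refine integrableOn_Ioi_deriv_of_nonneg' (l := 0) h1 (fun x hx => ?_) ?_
  · have hx' : (0:ℝ) < x := hx
    positivity
  · rw [← neg_zero]
    apply Tendsto.neg
    apply Tendsto.inv_tendsto_atTop
    exact tendsto_atTop_add_const_left _ _ tendsto_id

/-- integrability of the two-resolvent trace -/
lemma integrableOn_two (B X : Mat N) {p q : Mat N} (hp : p.IsHermitian) (hq : q.IsHermitian) {δ : ℝ}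
    (hδ0 : 0 < δ) (hpδ : ∀ x ∈ spectrum ℝ p, δ ≤ x) (hqδ : ∀ x ∈ spectrum ℝ q, δ ≤ x) :
    ContinuousOn (fun r : ℝ => rtr (B * (p + r • (1 : Mat N))⁻¹ * X * (q + r • (1 : Mat N))⁻¹))
      (Ioi 0) ∧
    (∀ r ∈ Ioi (0:ℝ), |rtr (B * (p + r • (1 : Mat N))⁻¹ * X * (q + r • (1 : Mat N))⁻¹)| ≤
      (‖rtrL N‖ * ‖B‖ * ‖X‖) * ((δ + r)⁻¹ * (δ + r)⁻¹)) := by
  constructor
  · have h1 := continuousOn_inv hδ0 hpδ
    have h2 := continuousOn_inv hδ0 hqδ
    exact continuous_rtr.comp_continuousOn (((continuousOn_const.mul h1).mul continuousOn_const).mul h2)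
  · intro r hr
    have hr' : (0:ℝ) < r := hr
    have h1 := norm_inv_add_le hp hpδ (by linarith : 0 < δ + r)
    have h2 := norm_inv_add_le hq hqδ (by linarith : 0 < δ + r)
    have h3 := norm_mul_le (B * (p + r • (1 : Mat N))⁻¹ * X) ((q + r • (1 : Mat N))⁻¹)
    have h4 := norm_mul_le (B * (p + r • (1 : Mat N))⁻¹) X
    have h5 := norm_mul_le B ((p + r • (1 : Mat N))⁻¹)
    calc |rtr (B * (p + r • (1 : Mat N))⁻¹ * X * (q + r • (1 : Mat N))⁻¹)|
        ≤ ‖rtrL N‖ * ‖B * (p + r • (1 : Mat N))⁻¹ * X * (q + r • (1 : Mat N))⁻¹‖ := abs_rtr_le _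
      _ ≤ ‖rtrL N‖ * (((‖B‖ * (δ + r)⁻¹) * ‖X‖) * (δ + r)⁻¹) := by
          gcongr
          refine h3.trans ?_
          gcongr
          refine h4.trans ?_
          gcongr
          refine h5.trans ?_
          gcongr
      _ = _ := by ring

lemma integrableOn_two' (B X : Mat N) {p q : Mat N} (hp : p.IsHermitian) (hq : q.IsHermitian) {δ : ℝ}
    (hδ0 : 0 < δ) (hpδ : ∀ x ∈ spectrum ℝ p, δ ≤ x) (hqδ : ∀ x ∈ spectrum ℝ q, δ ≤ x) :
    IntegrableOn (fun r : ℝ => rtr (B * (p + r • (1 : Mat N))⁻¹ * X * (q + r • (1 : Mat N))⁻¹))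
      (Ioi 0) := by
  obtain ⟨h1, h2⟩ := integrableOn_two B X hp hq hδ0 hpδ hqδ
  refine Integrable.mono' (integrableOn_sq hδ0 (‖rtrL N‖ * ‖B‖ * ‖X‖))
    (h1.aestronglyMeasurable measurableSet_Ioi) ?_
  filter_upwards [self_mem_ae_restrict measurableSet_Ioi] with r hr
  exact h2 r hr

lemma scalar_log {x : ℝ} (hx : 0 < x) :
    IntegrableOn (fun r : ℝ => 1 / (1 + r) - (x + r)⁻¹) (Ioi 0) ∧
    Real.log x = ∫ r in Ioi (0 : ℝ), (1 / (1 + r) - (x + r)⁻¹) := by
  have hd : ∀ r ∈ Ici (0:ℝ), HasDerivAt (fun r : ℝ => Real.log (1 + r) - Real.log (x + r))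
      (1 / (1 + r) - (x + r)⁻¹) r := by
    intro r hr
    have hr' : (0:ℝ) ≤ r := hr
    have h1 : HasDerivAt (fun r : ℝ => 1 + r) 1 r := by simpa using (hasDerivAt_id r).const_add (1:ℝ)
    have h2 : HasDerivAt (fun r : ℝ => x + r) 1 r := by simpa using (hasDerivAt_id r).const_add x
    have h3 := (h1.log (by positivity)).sub (h2.log (by positivity))
    rw [one_div (x + r)] at h3
    exact h3
  have ht : Tendsto (fun r : ℝ => Real.log (1 + r) - Real.log (x + r)) atTop (𝓝 0) := by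
    have h1 : Tendsto (fun r : ℝ => 1 + (1 - x) * (x + r)⁻¹) atTop (𝓝 (1 + (1 - x) * 0)) := by
      apply Tendsto.const_add
      apply Tendsto.const_mul
      apply Tendsto.inv_tendsto_atTop
      exact tendsto_atTop_add_const_left _ _ tendsto_id
    rw [mul_zero, add_zero] at h1
    have h2 := (Real.continuousAt_log one_ne_zero).tendsto.comp h1
    rw [Real.log_one] at h2
    refine h2.congr' ?_
    filter_upwards [eventually_gt_atTop (0:ℝ)] with r hr
    have h3 : 0 < x + r := by positivity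
    rw [← Real.log_div (by positivity) (by positivity), Function.comp]
    congr 1
    field_simp
    ring
  have h0 : Real.log x = 0 - (Real.log (1 + 0) - Real.log (x + 0)) := by simp
  rcases le_total 1 x with h | h
  · have hs : ∀ r ∈ Ioi (0:ℝ), 0 ≤ 1 / (1 + r) - (x + r)⁻¹ := by
      intro r hr
      have hr' : (0:ℝ) < r := hr
      have : (x + r)⁻¹ ≤ (1 + r)⁻¹ := inv_anti₀ (by linarith) (by linarith)
      rw [one_div]; linarith
    refine ⟨integrableOn_Ioi_deriv_of_nonneg' hd hs ht, ?_⟩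
    rw [integral_Ioi_of_hasDerivAt_of_nonneg' hd hs ht]
    exact h0
  · have hs : ∀ r ∈ Ioi (0:ℝ), 1 / (1 + r) - (x + r)⁻¹ ≤ 0 := by
      intro r hr
      have hr' : (0:ℝ) < r := hr
      have : (1 + r)⁻¹ ≤ (x + r)⁻¹ := inv_anti₀ (by linarith) (by linarith)
      rw [one_div]; linarith
    refine ⟨integrableOn_Ioi_deriv_of_nonpos' hd hs ht, ?_⟩
    rw [integral_Ioi_of_hasDerivAt_of_nonpos' hd hs ht]
    exact h0

/-- The spectral weights. -/
lemma rtr_mul_cfc_eq (B : Mat N) {p : Mat N} (hp : p.IsHermitian) :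
    ∃ c : Fin N → ℝ, ∀ f : ℝ → ℝ, rtr (B * cfc f p) = ∑ i, c i * f (hp.eigenvalues i) := by
  refine ⟨fun i => (((hp.eigenvectorUnitary : Mat N)ᴴ * B * (hp.eigenvectorUnitary : Mat N)) i i).re, fun f => ?_⟩
  rw [hp.cfc_eq, Matrix.IsHermitian.cfc, Unitary.conjStarAlgAut_apply]
  set U : Mat N := (hp.eigenvectorUnitary : Mat N)
  have h1 : rtr (B * (U * Matrix.diagonal (RCLike.ofReal ∘ f ∘ hp.eigenvalues) * star U)) =
      rtr ((Uᴴ * B * U) * Matrix.diagonal (RCLike.ofReal ∘ f ∘ hp.eigenvalues)) := by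
    rw [rtr_mul_comm B, Matrix.mul_assoc (U * _), rtr_mul_comm (U * _), ← Matrix.mul_assoc]
    rfl
  rw [h1]
  simp only [rtr, Matrix.trace, Matrix.diag, Matrix.mul_diagonal, Complex.re_sum]
  refine Finset.sum_congr rfl fun i _ => ?_
  simp

end LD

open LD

theorem integrableOn_resolvent (B X : Mat N) {p : Mat N} (hp : p.PosDef) :
    IntegrableOn (fun r : ℝ => rtr (B * (p + r • (1 : Mat N))⁻¹ * X * (p + r • (1 : Mat N))⁻¹))
      (Ioi 0) := by
  obtain ⟨δ, hδ0, hδ⟩ := exists_delta hp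
  exact integrableOn_two' B X hp.1 hp.1 hδ0 hδ hδ

/-- `tr (B log p) = ∫_0^∞ (tr B / (1+r) - tr (B (p+r)⁻¹)) dr`. -/
theorem rtr_mul_mlog (B : Mat N) {p : Mat N} (hp : p.PosDef) :
    IntegrableOn (fun r : ℝ => rtr B * (1 / (1 + r)) - rtr (B * (p + r • (1 : Mat N))⁻¹)) (Ioi 0) ∧
    rtr (B * mlog p) =
      ∫ r in Ioi (0 : ℝ), (rtr B * (1 / (1 + r)) - rtr (B * (p + r • (1 : Mat N))⁻¹)) := by
  obtain ⟨δ, hδ0, hδ⟩ := exists_delta hp
  obtain ⟨c, hc⟩ := rtr_mul_cfc_eq B hp.1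
  have hB : rtr B = ∑ i, c i := by
    have := hc (fun _ => 1)
    have h1 : cfc (fun _ : ℝ => (1:ℝ)) p = 1 := cfc_const_one ℝ p (ha := hp.1)
    rw [h1] at this
    simpa using this
  have hfun : ∀ r ∈ Ioi (0:ℝ), rtr B * (1 / (1 + r)) - rtr (B * (p + r • (1 : Mat N))⁻¹) =
      ∑ i, c i * (1 / (1 + r) - (hp.1.eigenvalues i + r)⁻¹) := by
    intro r hr
    have hr' : (0:ℝ) < r := hr
    rw [cfc_inv_add hp.1 hδ (by linarith : 0 < δ + r), hc, hB, Finset.sum_mul, ← Finset.sum_sub_distrib]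
    refine Finset.sum_congr rfl fun i _ => ?_
    ring
  have hint : ∀ i, IntegrableOn (fun r : ℝ => c i * (1 / (1 + r) - (hp.1.eigenvalues i + r)⁻¹)) (Ioi 0) :=
    fun i => Integrable.const_mul (scalar_log (hp.eigenvalues_pos i)).1 (c i)
  constructor
  · rw [integrableOn_congr_fun hfun measurableSet_Ioi]
    exact integrable_finsetSum _ fun i _ => hint i
  · rw [setIntegral_congr_fun measurableSet_Ioi hfun, integral_finsetSum _ fun i _ => hint i, mlog, hc]
    refine Finset.sum_congr rfl fun i _ => ?_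
    rw [integral_const_mul, ← (scalar_log (hp.eigenvalues_pos i)).2]

/-- Derivative of `s ↦ tr (B log p(s))` along a `C¹` path of Hermitian matrices. -/
theorem hasDerivAt_rtr_mul_mlog (B : Mat N) {p p' : ℝ → Mat N} {t : ℝ}
    (hp : ∀ᶠ s in 𝓝 t, HasDerivAt p (p' s) s) (hc : ContinuousAt p' t)
    (hh : ∀ᶠ s in 𝓝 t, (p s).IsHermitian) (hpd : (p t).PosDef) :
    HasDerivAt (fun s => rtr (B * mlog (p s))) (Tint B (p t) (p' t)) t := by
  have hd : HasDerivAt p (p' t) t := hp.self_of_nhds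
  obtain ⟨δ', hδ'0, hδ'⟩ := exists_delta hpd
  obtain ⟨δ, hδ0, hδδ⟩ : ∃ δ > 0, δ' = 2 * δ := ⟨δ' / 2, by positivity, by ring⟩
  rw [hδδ] at hδ'
  have hcont : ContinuousAt p t := hd.continuousAt
  have hnear : ∀ᶠ s in 𝓝 t, ‖p s - p t‖ ≤ δ := by
    have h1 : Tendsto (fun s => ‖p s - p t‖) (𝓝 t) (𝓝 0) := by
      have h2 : Tendsto (fun s => p s - p t) (𝓝 t) (𝓝 (p t - p t)) := hcont.tendsto.sub tendsto_const_nhds
      rw [sub_self] at h2
      simpa using h2.norm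
    exact (h1.eventually (gt_mem_nhds hδ0)).mono fun s hs => le_of_lt hs
  have hspec : ∀ᶠ s in 𝓝 t, (p s).IsHermitian ∧ ∀ x ∈ spectrum ℝ (p s), δ ≤ x := by
    filter_upwards [hnear, hh] with s h1 h2
    exact ⟨h2, spec_near hpd.1 h2 hδ' h1⟩
  have htδ : ∀ x ∈ spectrum ℝ (p t), δ ≤ x := fun x hx => by have := hδ' x hx; linarith
  rw [hasDerivAt_iff_tendsto_slope]
  have hslope : Tendsto (slope p t) (𝓝[≠] t) (𝓝 (p' t)) := hasDerivAt_iff_tendsto_slope.1 hd
  have hspec' := hspec.filter_mono (nhdsWithin_le_nhds (s := {t}ᶜ))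
  have hbdd : ∀ᶠ s in 𝓝[≠] t, ‖slope p t s‖ ≤ ‖p' t‖ + 1 := by
    have := hslope.norm
    exact (this.eventually (gt_mem_nhds (by linarith : ‖p' t‖ < ‖p' t‖ + 1))).mono fun s hs => le_of_lt hs
  -- formula for the slope
  have hform : ∀ᶠ s in 𝓝[≠] t, slope (fun s => rtr (B * mlog (p s))) t s =
      ∫ r in Ioi (0:ℝ), rtr (B * (p t + r • (1 : Mat N))⁻¹ * slope p t s * (p s + r • (1 : Mat N))⁻¹) := by
    filter_upwards [hspec', self_mem_nhdsWithin] with s ⟨hs1, hs2⟩ hst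
    have hps : (p s).PosDef := by
      refine (Matrix.IsHermitian.posDef_iff_eigenvalues_pos hs1).2 fun i => ?_
      have := hs2 (hs1.eigenvalues i) (by rw [hs1.spectrum_real_eq_range_eigenvalues]; exact ⟨i, rfl⟩)
      linarith
    obtain ⟨i1, e1⟩ := rtr_mul_mlog B hps
    obtain ⟨i2, e2⟩ := rtr_mul_mlog B hpd
    rw [slope_def_module, e1, e2, ← integral_sub i1 i2, smul_eq_mul, ← integral_const_mul]
    refine setIntegral_congr_fun measurableSet_Ioi fun r hr => ?_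
    have hr' : (0:ℝ) < r := hr
    have hu1 := isUnit_add hs2 (by linarith : 0 < δ + r)
    have hu2 := isUnit_add htδ (by linarith : 0 < δ + r)
    have hres : (p t + r • (1 : Mat N))⁻¹ - (p s + r • (1 : Mat N))⁻¹ =
        (p t + r • (1 : Mat N))⁻¹ * (p s - p t) * (p s + r • (1 : Mat N))⁻¹ := by
      have d1 : IsUnit (p s + r • (1 : Mat N)).det := (Matrix.isUnit_iff_isUnit_det _).1 hu1
      have d2 : IsUnit (p t + r • (1 : Mat N)).det := (Matrix.isUnit_iff_isUnit_det _).1 hu2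
      have : p s - p t = (p s + r • (1 : Mat N)) - (p t + r • (1 : Mat N)) := by abel
      rw [this, Matrix.mul_sub, Matrix.sub_mul, Matrix.nonsing_inv_mul _ d2, Matrix.one_mul, Matrix.mul_assoc,
        Matrix.mul_nonsing_inv _ d1, Matrix.mul_one]
    rw [slope_def_module, Matrix.mul_smul, Matrix.smul_mul, rtr_smul]
    congr 1
    have : rtr B * (1 / (1 + r)) - rtr (B * (p s + r • (1 : Mat N))⁻¹) -
        (rtr B * (1 / (1 + r)) - rtr (B * (p t + r • (1 : Mat N))⁻¹)) =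
        rtr (B * ((p t + r • (1 : Mat N))⁻¹ - (p s + r • (1 : Mat N))⁻¹)) := by
      rw [Matrix.mul_sub, rtr_sub]; ring
    rw [this, hres]
    simp only [Matrix.mul_assoc]
  refine Tendsto.congr' (hform.mono fun s hs => hs.symm) ?_
  rw [Tint]
  refine tendsto_integral_filter_of_dominated_convergence
    (fun r => (‖rtrL N‖ * ‖B‖ * (‖p' t‖ + 1)) * ((δ + r)⁻¹ * (δ + r)⁻¹)) ?_ ?_ (integrableOn_sq hδ0 _) ?_
  · filter_upwards [hspec'] with s ⟨hs1, hs2⟩
    exact (integrableOn_two B (slope p t s) hpd.1 hs1 hδ0 htδ hs2).1.aestronglyMeasurable measurableSet_Ioi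
  · filter_upwards [hspec', hbdd] with s ⟨hs1, hs2⟩ hb
    filter_upwards [self_mem_ae_restrict measurableSet_Ioi] with r hr
    have hr' : (0:ℝ) < r := hr
    refine ((integrableOn_two B (slope p t s) hpd.1 hs1 hδ0 htδ hs2).2 r hr).trans ?_
    gcongr
  · filter_upwards [self_mem_ae_restrict measurableSet_Ioi] with r hr
    have hr' : (0:ℝ) < r := hr
    have h1 : Tendsto (fun s => (p s + r • (1 : Mat N))⁻¹) (𝓝[≠] t) (𝓝 (p t + r • (1 : Mat N))⁻¹) := by
      obtain ⟨u, hu⟩ := isUnit_add htδ (by linarith : 0 < δ + r)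
      have h1 : ContinuousAt (Ring.inverse : Mat N → Mat N) (p t + r • (1 : Mat N)) := by
        rw [← hu]; exact NormedRing.inverse_continuousAt u
      have h2 : ContinuousAt (fun s : ℝ => p s + r • (1 : Mat N)) t := hcont.add continuousAt_const
      have h3 : (fun s : ℝ => (p s + r • (1 : Mat N))⁻¹) = Ring.inverse ∘ fun s : ℝ => p s + r • (1 : Mat N) := by
        funext r; simp [Matrix.nonsing_inv_eq_ringInverse]
      rw [h3, Matrix.nonsing_inv_eq_ringInverse]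
      exact (ContinuousAt.comp (f := fun s : ℝ => p s + r • (1 : Mat N)) h1 h2).tendsto.mono_left nhdsWithin_le_nhds
    exact (continuous_rtr.tendsto _).comp ((tendsto_const_nhds.mul hslope).mul h1)

end Vale.Agent.P371.Full
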