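import Vale.Agent.P371.Full.TraceConv
import Vale.Agent.P371.Full.LogDeriv

/-!
# P371 (full): asymptotics of H_t
-/

open scoped Matrix.Norms.L2Operator ComplexOrder
open Matrix MeasureTheory Set Filter Topology

namespace Vale.Agent.P371.Full

variable {N : ℕ}

namespace AS
open LD

lemma norm_dg_le {v : Fin N → ℝ} {c : ℝ} (hc : 0 ≤ c) (h : ∀ j, |v j| ≤ c) : ‖dg v‖ ≤ c := by
  rw [dg, Matrix.l2_opNorm_diagonal, pi_norm_le_iff_of_nonneg hc]
  intro j
  simpa using h j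

lemma norm_le_of_spec {A : Mat N} (hA : A.IsHermitian) {c : ℝ} (hc : 0 ≤ c)
    (h : ∀ x ∈ spectrum ℝ A, |x| ≤ c) : ‖A‖ ≤ c := by
  have hA' : IsSelfAdjoint A := hA
  rw [← cfc_id' ℝ A hA']
  exact norm_cfc_le hc fun x hx => by simpa using h x hx

lemma abs_le_norm_of_spec {A : Mat N} (hA : A.IsHermitian) {x : ℝ} (hx : x ∈ spectrum ℝ A) :
    |x| ≤ ‖A‖ := by
  have hA' : IsSelfAdjoint A := hA
  have h1 := (norm_cfc_le_iff (fun x : ℝ => x) A (c := ‖A‖) (norm_nonneg _) (by fun_prop) hA').1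
    (by rw [cfc_id' ℝ A hA'])
  simpa using h1 x hx

lemma scalar_exp {x : ℝ} (hx : |x| ≤ 1 / 2) :
    |Real.log (1 + x) - x + x ^ 2 / 2| ≤ 2 * |x| ^ 3 := by
  have h1 := Real.abs_log_sub_add_sum_range_le (x := -x) (by rw [abs_neg]; linarith) 2
  simp only [Finset.sum_range_succ, Finset.sum_range_zero, abs_neg] at h1
  have h2 : |x| ^ (2 + 1) / (1 - |x|) ≤ 2 * |x| ^ 3 := by
    rw [div_le_iff₀ (by linarith)]
    have := abs_nonneg x
    have h3 : 0 ≤ |x| ^ 3 := by positivity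
    have h4 := mul_nonneg h3 (by linarith : 0 ≤ 1 / 2 - |x|)
    norm_num
    nlinarith
  refine le_trans (le_of_eq ?_) (h1.trans h2)
  congr 1
  push_cast
  ring_nf

lemma mlog_expand {D : Mat N} (hD : D.IsHermitian) (hn : ‖D‖ ≤ 1 / 2) {t : ℝ} (ht : 0 < t) :
    ‖mlog ((√t) • (1 + D)) - ((1 / 2) * Real.log t) • (1 : Mat N) - D + (1 / 2 : ℝ) • (D * D)‖ ≤
      2 * ‖D‖ ^ 3 := by
  have hD' : IsSelfAdjoint D := hD
  have hsp : ∀ x ∈ spectrum ℝ D, |x| ≤ ‖D‖ := fun x hx => abs_le_norm_of_spec hD hx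
  have hst : 0 < √t := Real.sqrt_pos.2 ht
  have hc1 : cfc (fun x : ℝ => √t * (1 + x)) D = (√t) • (1 + D) := by
    rw [cfc_const_mul (√t) (fun x => 1 + x) D (by fun_prop),
      cfc_const_add 1 (fun x => x) D (by fun_prop) hD', cfc_id' ℝ D hD']
    simp
  have hpos : ∀ x ∈ spectrum ℝ D, 0 < 1 + x := by
    intro x hx
    have := (abs_le.1 (hsp x hx)).1
    linarith
  have hlogc : ContinuousOn (fun x : ℝ => Real.log (1 + x)) (spectrum ℝ D) := by
    intro x hx
    apply ContinuousAt.continuousWithinAt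
    exact ContinuousAt.log (by fun_prop) (hpos x hx).ne'
  have hm : mlog ((√t) • (1 + D)) = ((1 / 2) * Real.log t) • (1 : Mat N) + cfc (fun x : ℝ => Real.log (1 + x)) D := by
    rw [mlog, ← hc1, ← cfc_comp' Real.log (fun x : ℝ => √t * (1 + x)) D ?_ (by fun_prop) hD']
    · rw [cfc_congr (g := fun x : ℝ => (1 / 2) * Real.log t + Real.log (1 + x))]
      · rw [cfc_const_add _ _ D hlogc hD', Algebra.algebraMap_eq_smul_one]
      · intro x hx
        have := hpos x hx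
        simp only
        rw [Real.log_mul hst.ne' this.ne', Real.log_sqrt ht.le]
        ring
    · rintro y ⟨x, hx, rfl⟩
      have := hpos x hx
      exact (Real.continuousAt_log (by positivity)).continuousWithinAt
  have h2 : mlog ((√t) • (1 + D)) - ((1 / 2) * Real.log t) • (1 : Mat N) - D + (1 / 2 : ℝ) • (D * D) =
      cfc (fun x : ℝ => Real.log (1 + x) - x + (1 / 2) * x ^ 2) D := by
    rw [cfc_add (a := D) (fun x : ℝ => Real.log (1 + x) - x) (fun x : ℝ => (1 / 2) * x ^ 2)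
      (hlogc.sub continuousOn_id) (by fun_prop), cfc_sub (fun x : ℝ => Real.log (1 + x)) (fun x : ℝ => x) D hlogc (by fun_prop),
      cfc_const_mul (1/2 : ℝ) (fun x => x ^ 2) D (by fun_prop), cfc_pow (fun x => x) 2 D (by fun_prop) hD',
      cfc_id' ℝ D hD', hm, pow_two]
    abel
  rw [h2]
  refine norm_cfc_le (by positivity) fun x hx => ?_
  have h3 := hsp x hx
  have h4 := scalar_exp (h3.trans hn)
  rw [Real.norm_eq_abs, show (1/2 : ℝ) * x ^ 2 = x ^ 2 / 2 by ring]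
  refine h4.trans ?_
  gcongr

/-- `κ_t = K_t/√t - 1`. -/
lemma kappa_bound {e : Fin N → ℝ} (he : ∀ j, 0 ≤ e j) {M : ℝ} (hM : ∀ j, e j ≤ M) (hM0 : 0 ≤ M) {t : ℝ} (ht : 0 < t) :
    Kt e t = (√t) • (1 + dg fun j => (√(1 + e j / t) - 1)) ∧
    ‖(dg fun j => (√(1 + e j / t) - 1) : Mat N)‖ ≤ M / t ∧
    (2:ℝ) • (dg fun j => (√(1 + e j / t) - 1) : Mat N) +
      (dg fun j => (√(1 + e j / t) - 1) : Mat N) * (dg fun j => (√(1 + e j / t) - 1) : Mat N) =
      (1 / t) • dg e := by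
  refine ⟨?_, norm_dg_le (by positivity) fun j => ?_, ?_⟩
  · unfold Kt dg
    ext i j
    by_cases hij : i = j
    · subst hij
      have := he i
      have h1 : √(e i + t) = √t * √(1 + e i / t) := by
        rw [← Real.sqrt_mul ht.le]
        congr 1
        field_simp
        ring
      simp [h1]
    · simp [hij]
  · have h0 : 0 ≤ e j / t := div_nonneg (he j) ht.le
    have h1 : 1 ≤ √(1 + e j / t) := by
      rw [Real.one_le_sqrt]; linarith
    have h2 : √(1 + e j / t) ≤ 1 + e j / t := by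
      rw [Real.sqrt_le_left (by linarith)]
      nlinarith
    rw [abs_of_nonneg (by linarith)]
    have h3 : e j / t ≤ M / t := by gcongr; exact hM j
    linarith
  · unfold dg
    rw [Matrix.diagonal_mul_diagonal]
    ext i j
    by_cases hij : i = j
    · subst hij
      have := he i
      have h0 : 0 ≤ e i / t := div_nonneg (he i) ht.le
      have h1 : √(1 + e i / t) * √(1 + e i / t) = 1 + e i / t := Real.mul_self_sqrt (by linarith)
      simp only [Matrix.add_apply, Matrix.smul_apply, Matrix.diagonal_apply_eq]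
      apply Complex.ext
      · simp
        rw [inv_mul_eq_div]
        nlinarith
      · simp
    · simp [hij]

end AS

open LD AS

/-- Expansion of `H_t` with explicit error. -/
lemma AS.H_expand {e : Fin N → ℝ} {Y : Mat N} (h : Adm e Y) {C : ℝ} (hC1 : 1 ≤ C) (hC : ∀ j, e j ≤ C)
    (hY : ‖Y‖ ≤ C) {t : ℝ} (ht : 16 * C ^ 2 ≤ t) :
    ‖t • Ht e t Y - Am e Y‖ ≤ 2 * C ^ 2 / t + 32 * C ^ 3 / √t := by
  have ht1 : 1 ≤ t := by nlinarith
  have ht0 : 0 < t := by linarith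
  have hst : 0 < √t := Real.sqrt_pos.2 ht0
  have hst4 : 4 * C ≤ √t := by
    rw [Real.le_sqrt (by positivity) ht0.le]; nlinarith
  have hss : √t * √t = t := Real.mul_self_sqrt ht0.le
  obtain ⟨hK, hκ, hκ2⟩ := kappa_bound h.nonneg hC (by linarith) ht0
  set κ : Mat N := dg fun j => (√(1 + e j / t) - 1) with hκdef
  have hκh : κ.IsHermitian := isHermitian_dg _
  set Z : Mat N := (√t)⁻¹ • Y with hZ
  have hZh : Z.IsHermitian := by
    rw [hZ, Matrix.IsHermitian, Matrix.conjTranspose_smul, h.herm]; simp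
  have hZn : ‖Z‖ ≤ C / √t := by
    rw [hZ, norm_smul, Real.norm_eq_abs, abs_of_pos (by positivity), inv_mul_eq_div]
    gcongr
  have hκn : ‖κ‖ ≤ C / √t := by
    refine hκ.trans ?_
    rw [div_le_div_iff₀ ht0 hst]
    nlinarith
  have hp : Kt e t + Y = (√t) • (1 + (κ + Z)) := by
    rw [hK, hZ]
    simp only [smul_add, smul_smul]
    rw [mul_inv_cancel₀ hst.ne', one_smul]; abel
  have hq : Kt e t - Y = (√t) • (1 + (κ - Z)) := by
    rw [hK, hZ]
    simp only [smul_add, smul_sub, smul_smul]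
    rw [mul_inv_cancel₀ hst.ne', one_smul]; abel
  have hDp : ‖κ + Z‖ ≤ 2 * C / √t := by
    refine (norm_add_le _ _).trans ?_
    have : 2 * C / √t = C / √t + C / √t := by ring
    linarith
  have hDq : ‖κ - Z‖ ≤ 2 * C / √t := by
    refine (norm_sub_le _ _).trans ?_
    have : 2 * C / √t = C / √t + C / √t := by ring
    linarith
  have hhalf : 2 * C / √t ≤ 1 / 2 := by
    rw [div_le_iff₀ hst]; linarith
  have e1 := mlog_expand (hκh.add hZh) (hDp.trans hhalf) ht0
  have e2 := mlog_expand (hκh.sub hZh) (hDq.trans hhalf) ht0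
  rw [← hp] at e1
  rw [← hq] at e2
  set R1 : Mat N := mlog (Kt e t + Y) - ((1 / 2) * Real.log t) • (1 : Mat N) - (κ + Z) +
    (1 / 2 : ℝ) • ((κ + Z) * (κ + Z)) with hR1
  set R2 : Mat N := mlog (Kt e t - Y) - ((1 / 2) * Real.log t) • (1 : Mat N) - (κ - Z) +
    (1 / 2 : ℝ) • ((κ - Z) * (κ - Z)) with hR2
  have e1' : ‖R1‖ ≤ 2 * (2 * C / √t) ^ 3 := e1.trans (by gcongr)
  have e2' : ‖R2‖ ≤ 2 * (2 * C / √t) ^ 3 := e2.trans (by gcongr)
  have hZZ : Z * Z = (1 / t) • (Y * Y) := by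
    rw [hZ, Matrix.smul_mul, Matrix.mul_smul, smul_smul, ← mul_inv, hss, one_div]
  have hH : Ht e t Y = (1 / t) • Am e Y - (2:ℝ) • (κ * κ) + R1 + R2 := by
    have h3 : (κ + Z) * (κ + Z) + (κ - Z) * (κ - Z) = (2:ℝ) • (κ * κ) + (2:ℝ) • (Z * Z) := by
      simp only [two_smul]
      noncomm_ring
    have h4 : Ht e t Y = R1 + R2 + (2:ℝ) • κ - (1 / 2 : ℝ) • ((κ + Z) * (κ + Z) + (κ - Z) * (κ - Z)) := by
      rw [Ht, hR1, hR2]
      module
    rw [h4, h3, hZZ, Am, smul_sub, ← hκ2]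
    module
  have hdiff : t • Ht e t Y - Am e Y = t • (R1 + R2) - (2 * t) • (κ * κ) := by
    rw [hH]
    simp only [smul_add, smul_sub, smul_smul]
    rw [mul_one_div_cancel ht0.ne', one_smul]
    module
  rw [hdiff]
  have n1 : ‖t • (R1 + R2)‖ ≤ 32 * C ^ 3 / √t := by
    rw [norm_smul, Real.norm_eq_abs, abs_of_pos ht0]
    have : ‖R1 + R2‖ ≤ 4 * (2 * C / √t) ^ 3 := by
      refine (norm_add_le _ _).trans ?_
      linarith
    calc t * ‖R1 + R2‖ ≤ t * (4 * (2 * C / √t) ^ 3) := by gcongr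
      _ = 32 * C ^ 3 / √t := by
        have : (√t) ^ 2 = t := by rw [pow_two, hss]
        field_simp
        rw [this]; ring
  have n2 : ‖(2 * t) • (κ * κ)‖ ≤ 2 * C ^ 2 / t := by
    rw [norm_smul, Real.norm_eq_abs, abs_of_pos (by positivity)]
    have : ‖κ * κ‖ ≤ (C / t) * (C / t) := (norm_mul_le _ _).trans (by gcongr)
    calc 2 * t * ‖κ * κ‖ ≤ 2 * t * ((C / t) * (C / t)) := by gcongr
      _ = 2 * C ^ 2 / t := by field_simp
  refine (norm_sub_le _ _).trans ?_
  linarith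

/-- `z(t) → 0` as `t → ∞`. -/
theorem tendsto_zf {e : Fin N → ℝ} {Y : Mat N} (h : Adm e Y) :
    Tendsto (zf e Y) atTop (𝓝 0) := by
  obtain ⟨C, hC1, hC, hY⟩ : ∃ C : ℝ, 1 ≤ C ∧ (∀ j, e j ≤ C) ∧ ‖Y‖ ≤ C := by
    refine ⟨1 + ∑ j, e j + ‖Y‖, ?_, fun j => ?_, ?_⟩
    · have := Finset.sum_nonneg (s := Finset.univ) fun j (_ : j ∈ Finset.univ) => h.nonneg j
      have := norm_nonneg Y
      linarith
    · have := Finset.single_le_sum (fun j (_ : j ∈ Finset.univ) => h.nonneg j) (Finset.mem_univ j)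
      have := norm_nonneg Y
      linarith
    · have := Finset.sum_nonneg (s := Finset.univ) fun j (_ : j ∈ Finset.univ) => h.nonneg j
      linarith
  have hsq : Tendsto (fun t : ℝ => √t) atTop atTop := Real.tendsto_sqrt_atTop
  have h1 : Tendsto (fun t : ℝ => t • Ht e t Y - Am e Y) atTop (𝓝 0) := by
    refine squeeze_zero_norm' (a := fun t : ℝ => 2 * C ^ 2 / t + 32 * C ^ 3 / √t) ?_ ?_
    · filter_upwards [eventually_ge_atTop (16 * C ^ 2)] with t ht
      exact AS.H_expand h hC1 hC hY ht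
    · have a1 : Tendsto (fun t : ℝ => 2 * C ^ 2 / t) atTop (𝓝 0) := tendsto_const_nhds.div_atTop tendsto_id
      have a2 : Tendsto (fun t : ℝ => 32 * C ^ 3 / √t) atTop (𝓝 0) := tendsto_const_nhds.div_atTop hsq
      simpa using a1.add a2
  have h2 : Tendsto (fun t : ℝ => Ht e t Y) atTop (𝓝 0) := by
    have a1 : Tendsto (fun t : ℝ => t⁻¹ • ((t • Ht e t Y - Am e Y) + Am e Y)) atTop (𝓝 ((0:ℝ) • ((0 : Mat N) + Am e Y))) :=
      tendsto_inv_atTop_zero.smul (h1.add tendsto_const_nhds)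
    rw [zero_smul] at a1
    refine a1.congr' ?_
    filter_upwards [eventually_gt_atTop (0:ℝ)] with t ht
    rw [sub_add_cancel, smul_smul, inv_mul_cancel₀ ht.ne', one_smul]
  have h3 : Tendsto (fun t : ℝ => rtr (Am e Y * Ht e t Y) + rtr (t • Ht e t Y - Am e Y)) atTop (𝓝 (rtr (Am e Y * 0) + rtr (0 : Mat N))) :=
    ((continuous_rtr.tendsto _).comp (tendsto_const_nhds.mul h2)).add ((continuous_rtr.tendsto _).comp h1)
  simp only [Matrix.mul_zero, rtr_zero, add_zero] at h3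
  refine h3.congr fun t => ?_
  rw [zf, Matrix.add_mul, rtr_add, Matrix.smul_mul, Matrix.one_mul, rtr_sub]
  ring

lemma AS.Adm.neg {e : Fin N → ℝ} {Y : Mat N} (h : Adm e Y) : Adm e (-Y) where
  nonneg := h.nonneg
  herm := h.herm.neg
  lo := by simpa [sub_eq_add_neg] using h.hi
  hi := by simpa [sub_eq_add_neg] using h.lo

lemma AS.spec_Y_ge {e : Fin N → ℝ} {Y : Mat N} (h : Adm e Y) {m : ℝ} (hm : ∀ j, √(e j) ≤ m) :
    ∀ x ∈ spectrum ℝ Y, -m ≤ x := by
  rw [spec_iff h.herm]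
  have h1 : Y - (-m) • (1 : Mat N) = (dg fun j => m - √(e j)) + (Kt e 0 + Y) := by
    unfold Kt dg; ext i j; by_cases hij : i = j
    · subst hij; simp; ring
    · simp [hij]
  rw [h1]
  exact (posSemidef_dg fun j => sub_nonneg.2 (hm j)).add h.lo

lemma AS.norm_Y_le {e : Fin N → ℝ} {Y : Mat N} (h : Adm e Y) {m : ℝ} (hm0 : 0 ≤ m) (hm : ∀ j, √(e j) ≤ m) :
    ‖Y‖ ≤ m := by
  refine norm_le_of_spec h.herm hm0 fun x hx => ?_
  rw [abs_le]
  refine ⟨AS.spec_Y_ge h hm x hx, ?_⟩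
  have h1 : -x ∈ spectrum ℝ (-Y) := by
    rw [← spectrum.neg_eq]; simpa using hx
  have := AS.spec_Y_ge (AS.Adm.neg h) hm (-x) h1
  linarith

lemma AS.norm_mlog_le {e : Fin N → ℝ} {Y : Mat N} (h : Adm e Y) {m : ℝ} (hm1 : 1 ≤ m) {t : ℝ} (ht : 0 < t)
    (hm : ∀ j, √(e j + t) ≤ m) : ‖mlog (Kt e t + Y)‖ ≤ Real.log (2 * m) + |Real.log t| := by
  have hm' : ∀ j, √(e j) ≤ m := fun j => (Real.sqrt_le_sqrt (by linarith)).trans (hm j)
  have hY := AS.norm_Y_le h (by linarith) hm'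
  have hpd := h.posDef_add ht
  have hK : ‖Kt e t‖ ≤ m := norm_dg_le (by linarith) fun j => by
    rw [abs_of_nonneg (Real.sqrt_nonneg _)]; exact hm j
  have hn : ‖Kt e t + Y‖ ≤ 2 * m := (norm_add_le _ _).trans (by linarith)
  have hlo : ∀ x ∈ spectrum ℝ (Kt e t + Y), t / (2 * m) ≤ x := by
    rw [spec_iff hpd.1]
    have h1 : Kt e t + Y - (t / (2 * m)) • (1 : Mat N) =
        (dg fun j => √(e j + t) - √(e j) - t / (2 * m)) + (Kt e 0 + Y) := by
      unfold Kt dg; ext i j; by_cases hij : i = j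
      · subst hij; simp; ring
      · simp [hij]
    rw [h1]
    refine (posSemidef_dg fun j => ?_).add h.lo
    have h0 := h.nonneg j
    have s1 : √(e j + t) * √(e j + t) = e j + t := Real.mul_self_sqrt (by linarith)
    have s2 : √(e j) * √(e j) = e j := Real.mul_self_sqrt h0
    have p1 : 0 < √(e j + t) := Real.sqrt_pos.2 (by linarith)
    have p2 : 0 ≤ √(e j) := Real.sqrt_nonneg _
    have h2 : (√(e j + t) - √(e j)) * (√(e j + t) + √(e j)) = t := by nlinarith
    have h3 : √(e j + t) - √(e j) = t / (√(e j + t) + √(e j)) := by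
      rw [eq_div_iff (by positivity)]; exact h2
    have h4 : t / (2 * m) ≤ t / (√(e j + t) + √(e j)) := by
      apply div_le_div_of_nonneg_left ht.le (by positivity)
      have := hm j; have := hm' j; linarith
    linarith
  refine norm_cfc_le (by have := Real.log_nonneg (by linarith : 1 ≤ 2 * m); positivity) fun x hx => ?_
  have x1 := hlo x hx
  have x2 := (abs_le.1 ((abs_le_norm_of_spec hpd.1 hx).trans hn)).2
  have hx0 : 0 < x := lt_of_lt_of_le (by positivity) x1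
  have l1 : Real.log t - Real.log (2 * m) ≤ Real.log x := by
    rw [← Real.log_div ht.ne' (by positivity)]
    exact Real.log_le_log (by positivity) x1
  have l2 : Real.log x ≤ Real.log (2 * m) := Real.log_le_log hx0 x2
  rw [Real.norm_eq_abs, abs_le]
  constructor
  · have := neg_abs_le (Real.log t); linarith
  · have := abs_nonneg (Real.log t); linarith

/-- `|z(t)| ≤ C (1 + |log t|)` for `0 < t ≤ 1`, uniformly in `Y`. -/
theorem abs_zf_le (e : Fin N → ℝ) (he : ∀ j, 0 ≤ e j) :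
    ∃ C : ℝ, 0 ≤ C ∧ ∀ Y : Mat N, Adm e Y → ∀ t : ℝ, 0 < t → t ≤ 1 →
      |zf e Y t| ≤ C * (1 + |Real.log t|) := by
  obtain ⟨M, hM0, hM⟩ : ∃ M : ℝ, 0 ≤ M ∧ ∀ j, e j ≤ M :=
    ⟨∑ j, e j, Finset.sum_nonneg fun j _ => he j,
      fun j => Finset.single_le_sum (fun j (_ : j ∈ Finset.univ) => he j) (Finset.mem_univ j)⟩
  set m : ℝ := √(M + 1) with hm
  have hm1 : 1 ≤ m := by rw [hm, Real.one_le_sqrt]; linarith
  have hlm : 0 ≤ Real.log (2 * m) := Real.log_nonneg (by linarith)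
  set L := ‖rtrL N‖ with hL
  have hL0 : 0 ≤ L := norm_nonneg _
  set n1 := ‖(1 : Mat N)‖ with hn1
  have hn10 : 0 ≤ n1 := norm_nonneg _
  refine ⟨L * (M + m * m + n1) * (2 * Real.log (2 * m) + 2 + n1) + L * (M + m * m), by positivity, ?_⟩
  intro Y hY t ht ht1
  have hmt : ∀ j, √(e j + t) ≤ m := fun j => Real.sqrt_le_sqrt (by have := hM j; linarith)
  have hm' : ∀ j, √(e j) ≤ m := fun j => (Real.sqrt_le_sqrt (by linarith)).trans (hmt j)
  have hYn := AS.norm_Y_le hY (by linarith) hm'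
  have hA : ‖Am e Y‖ ≤ M + m * m := by
    refine (norm_sub_le _ _).trans (add_le_add ?_ ((norm_mul_le _ _).trans (by gcongr)))
    exact norm_dg_le hM0 fun j => by rw [abs_of_nonneg (he j)]; exact hM j
  have hlt := abs_nonneg (Real.log t)
  have hH : ‖Ht e t Y‖ ≤ 2 * Real.log (2 * m) + 2 * |Real.log t| + |Real.log t| * n1 := by
    have a1 := AS.norm_mlog_le hY hm1 ht hmt
    have a2 := AS.norm_mlog_le (AS.Adm.neg hY) hm1 ht hmt
    rw [← sub_eq_add_neg] at a2
    have a3 : ‖(Real.log t) • (1 : Mat N)‖ = |Real.log t| * n1 := by rw [norm_smul, Real.norm_eq_abs]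
    have a4 := norm_sub_le (mlog (Kt e t + Y) + mlog (Kt e t - Y)) ((Real.log t) • (1 : Mat N))
    have a5 := norm_add_le (mlog (Kt e t + Y)) (mlog (Kt e t - Y))
    rw [Ht]; linarith
  have hB : ‖Am e Y + t • (1 : Mat N)‖ ≤ M + m * m + n1 := by
    refine (norm_add_le _ _).trans (add_le_add hA ?_)
    rw [norm_smul, Real.norm_eq_abs, abs_of_pos ht]
    nlinarith
  have hH' : ‖Ht e t Y‖ ≤ (2 * Real.log (2 * m) + 2 + n1) * (1 + |Real.log t|) := by
    refine hH.trans ?_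
    nlinarith [mul_nonneg hlm hlt]
  have b1 : |rtr ((Am e Y + t • (1 : Mat N)) * Ht e t Y)| ≤
      L * ((M + m * m + n1) * ((2 * Real.log (2 * m) + 2 + n1) * (1 + |Real.log t|))) := by
    refine (abs_rtr_le _).trans ?_
    gcongr
    refine (norm_mul_le _ _).trans ?_
    gcongr
  have b2 : |rtr (Am e Y)| ≤ L * (M + m * m) := (abs_rtr_le _).trans (by gcongr)
  have b3 : L * (M + m * m) ≤ L * (M + m * m) * (1 + |Real.log t|) := by
    have : 0 ≤ L * (M + m * m) := by positivity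
    nlinarith [mul_nonneg this hlt]
  rw [zf]
  refine (abs_sub _ _).trans ?_
  calc _ ≤ L * ((M + m * m + n1) * ((2 * Real.log (2 * m) + 2 + n1) * (1 + |Real.log t|))) +
        L * (M + m * m) * (1 + |Real.log t|) := by linarith
    _ = _ := by ring

end Vale.Agent.P371.Full
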