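import Vale.Agent.P371.Defs

/-!
# P371 (full problem) : basic notation

`Mat N` : complex `N × N` matrices with the `L²` operator norm (scoped `Matrix.Norms.L2Operator`).
`rtr` : real part of the trace.  `dg v` : real diagonal matrix.
-/

open scoped Matrix.Norms.L2Operator ComplexOrder
open Matrix MeasureTheory Set Filter Topology

namespace Vale.Agent.P371.Full

/-- Complex square matrices. -/
abbrev Mat (N : ℕ) := Matrix (Fin N) (Fin N) ℂ

variable {N : ℕ}

/-- Real part of the (unnormalised) trace. -/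
noncomputable def rtr (A : Mat N) : ℝ := A.trace.re

@[simp] lemma rtr_add (A B : Mat N) : rtr (A + B) = rtr A + rtr B := by simp [rtr]
@[simp] lemma rtr_sub (A B : Mat N) : rtr (A - B) = rtr A - rtr B := by simp [rtr]
@[simp] lemma rtr_neg (A : Mat N) : rtr (-A) = -rtr A := by simp [rtr]
@[simp] lemma rtr_zero : rtr (0 : Mat N) = 0 := by simp [rtr]
@[simp] lemma rtr_one : rtr (1 : Mat N) = N := by simp [rtr]
@[simp] lemma rtr_smul (c : ℝ) (A : Mat N) : rtr (c • A) = c * rtr A := by simp [rtr]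
lemma rtr_mul_comm (A B : Mat N) : rtr (A * B) = rtr (B * A) := by
  simp [rtr, Matrix.trace_mul_comm A B]
lemma rtr_sum {ι : Type*} (s : Finset ι) (f : ι → Mat N) : rtr (∑ i ∈ s, f i) = ∑ i ∈ s, rtr (f i) := by
  simp [rtr, Matrix.trace_sum]

/-- The trace as a continuous real linear functional. -/
noncomputable def rtrL (N : ℕ) : Mat N →L[ℝ] ℝ :=
  LinearMap.toContinuousLinearMap
    { toFun := rtr
      map_add' := rtr_add
      map_smul' := fun c A => by simp [rtr_smul] }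

@[simp] lemma rtrL_apply (A : Mat N) : rtrL N A = rtr A := rfl

lemma continuous_rtr : Continuous (rtr : Mat N → ℝ) := (rtrL N).continuous

/-- Real diagonal matrix. -/
noncomputable def dg (v : Fin N → ℝ) : Mat N := Matrix.diagonal fun j => ((v j : ℝ) : ℂ)

/-- Matrix logarithm of a positive definite matrix. -/
noncomputable def mlog (A : Mat N) : Mat N := cfc Real.log A

/-- `K_t = (E + t)^{1/2}`, `E = diag e`. -/
noncomputable def Kt (e : Fin N → ℝ) (t : ℝ) : Mat N := dg fun j => √(e j + t)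

/-- `A = E - Y²`. -/
noncomputable def Am (e : Fin N → ℝ) (Y : Mat N) : Mat N := dg e - Y * Y

/-- `H_t = log (K_t + Y) + log (K_t - Y) - log t`. -/
noncomputable def Ht (e : Fin N → ℝ) (t : ℝ) (Y : Mat N) : Mat N :=
  mlog (Kt e t + Y) + mlog (Kt e t - Y) - (Real.log t) • (1 : Mat N)

/-- Admissible pairs: `e ≥ 0`, `Y` Hermitian and `-√E ≤ Y ≤ √E`. -/
structure Adm (e : Fin N → ℝ) (Y : Mat N) : Prop where
  nonneg : ∀ j, 0 ≤ e j
  herm : Y.IsHermitian
  lo : (Kt e 0 + Y).PosSemidef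
  hi : (Kt e 0 - Y).PosSemidef

/-- `z(t) = tr ((A + t) H_t - A)`. -/
noncomputable def zf (e : Fin N → ℝ) (Y : Mat N) (t : ℝ) : ℝ :=
  rtr ((Am e Y + t • (1 : Mat N)) * Ht e t Y) - rtr (Am e Y)

/-- `w(t) = tr (A - t H_t)`. -/
noncomputable def wf (e : Fin N → ℝ) (Y : Mat N) (t : ℝ) : ℝ :=
  rtr (Am e Y) - t * rtr (Ht e t Y)

/-- `Ψ_t(ζ) = (t+ζ) log (1 + ζ/t) - ζ`. -/
noncomputable def Psi (t ζ : ℝ) : ℝ := (t + ζ) * Real.log (1 + ζ / t) - ζ

/-- `η(x) = x log x - x`. -/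
noncomputable def eta (x : ℝ) : ℝ := x * Real.log x - x

/-- `s_t(Y) = tr η(K_t + Y) - tr η(K_t - Y) - (log t) tr Y`. -/
noncomputable def sf (e : Fin N → ℝ) (t : ℝ) (Y : Mat N) : ℝ :=
  rtr (cfc eta (Kt e t + Y)) - rtr (cfc eta (Kt e t - Y)) - Real.log t * rtr Y

/-- `J_ν = ∫_0^∞ t^{ν-1} log (1 + 1/t) dt`. -/
noncomputable def Jn (ν : ℝ) : ℝ := ∫ t in Ioi (0 : ℝ), t ^ (ν - 1) * Real.log (1 + 1 / t)

/-- `σ_t(e) = η(√(e+t) + √e) - η(√(e+t) - √e) - √e log t`. -/
noncomputable def sig (t e : ℝ) : ℝ := eta (√(e + t) + √e) - eta (√(e + t) - √e) - √e * Real.log t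

/-- `∫_0^∞ tr (B (p+r)⁻¹ X (p+r)⁻¹) dr`. -/
noncomputable def Tint (B p X : Mat N) : ℝ :=
  ∫ r in Ioi (0 : ℝ), rtr (B * (p + r • (1 : Mat N))⁻¹ * X * (p + r • (1 : Mat N))⁻¹)

/-- `G(Y) = ∫_ε^T t^{ν-1} s_t(Y) dt`. -/
noncomputable def Gf (e : Fin N → ℝ) (ν ε T : ℝ) (Y : Mat N) : ℝ :=
  ∫ t in ε..T, t ^ (ν - 1) * sf e t Y

lemma isHermitian_dg (v : Fin N → ℝ) : (dg v).IsHermitian := by
  unfold dg; rw [Matrix.IsHermitian]; simp [Matrix.diagonal_conjTranspose]

lemma posSemidef_dg {v : Fin N → ℝ} (hv : ∀ j, 0 ≤ v j) : (dg v).PosSemidef := by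
  apply Matrix.PosSemidef.diagonal; intro j; simpa using hv j

lemma posDef_dg {v : Fin N → ℝ} (hv : ∀ j, 0 < v j) : (dg v).PosDef := by
  apply Matrix.PosDef.diagonal; intro j; simpa using hv j

lemma isHermitian_Kt (e : Fin N → ℝ) (t : ℝ) : (Kt e t).IsHermitian := isHermitian_dg _

/-- `K_t ± Y` is positive definite for `t > 0`. -/
lemma Adm.posDef_add {e : Fin N → ℝ} {Y : Mat N} (h : Adm e Y) {t : ℝ} (ht : 0 < t) :
    (Kt e t + Y).PosDef := by
  have h1 : Kt e t + Y = (dg fun j => √(e j + t) - √(e j + 0)) + (Kt e 0 + Y) := by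
    unfold Kt dg; ext i j; by_cases hij : i = j
    · subst hij; simp; ring
    · simp [Matrix.diagonal_apply_ne _ hij]
  rw [h1]
  refine Matrix.PosDef.add_posSemidef (posDef_dg fun j => ?_) h.lo
  have := h.nonneg j
  have := Real.sqrt_lt_sqrt (by linarith : (0:ℝ) ≤ e j + 0) (by linarith : e j + 0 < e j + t)
  linarith

lemma Adm.posDef_sub {e : Fin N → ℝ} {Y : Mat N} (h : Adm e Y) {t : ℝ} (ht : 0 < t) :
    (Kt e t - Y).PosDef := by
  have h1 : Kt e t - Y = (dg fun j => √(e j + t) - √(e j + 0)) + (Kt e 0 - Y) := by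
    unfold Kt dg; ext i j; by_cases hij : i = j
    · subst hij; simp
    · simp [Matrix.diagonal_apply_ne _ hij]
  rw [h1]
  refine Matrix.PosDef.add_posSemidef (posDef_dg fun j => ?_) h.hi
  have := h.nonneg j
  have := Real.sqrt_lt_sqrt (by linarith : (0:ℝ) ≤ e j + 0) (by linarith : e j + 0 < e j + t)
  linarith

end Vale.Agent.P371.Full
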