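import Mathlib

/-!
# Brouwer's theorem in outward pointing form
-/

open Set Metric MeasureTheory

namespace Vale.Agent.P371.Full

section det

variable {V : Type*} [NormedAddCommGroup V] [InnerProductSpace ℝ V] [FiniteDimensional ℝ V]

open Polynomial in
/-- `det (1 + t A)` is a polynomial in `t` of degree at most the dimension. -/
theorem brouwer_det_poly (A : V →L[ℝ] V) : ∃ p : ℝ[X], p.natDegree ≤ Module.finrank ℝ V ∧
    ∀ t : ℝ, p.eval t = ((1 : V →L[ℝ] V) + t • A).det := by
  classical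
  let b := Module.finBasis ℝ V
  let M : Matrix (Fin (Module.finrank ℝ V)) (Fin (Module.finrank ℝ V)) ℝ :=
    LinearMap.toMatrix b b (A : V →ₗ[ℝ] V)
  refine ⟨Matrix.det ((X : ℝ[X]) • M.map C +
    (1 : Matrix (Fin (Module.finrank ℝ V)) (Fin (Module.finrank ℝ V)) ℝ).map C), ?_, ?_⟩
  · refine (Polynomial.natDegree_det_X_add_C_le M 1).trans ?_
    simp
  · intro t
    rw [← Polynomial.coe_evalRingHom, RingHom.map_det]
    have h1 : (evalRingHom t).mapMatrix ((X : ℝ[X]) • M.map C +
        (1 : Matrix (Fin (Module.finrank ℝ V)) (Fin (Module.finrank ℝ V)) ℝ).map C) =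
          t • M + 1 := by
      ext i j
      simp only [RingHom.mapMatrix_apply, Matrix.map_apply, Matrix.add_apply, Matrix.smul_apply,
        smul_eq_mul, coe_evalRingHom, eval_add, eval_mul, eval_X, eval_C]
    have h2 : t • M + 1 = LinearMap.toMatrix b b
        (((1 : V →L[ℝ] V) + t • A : V →L[ℝ] V) : V →ₗ[ℝ] V) := by
      have h3 : (((1 : V →L[ℝ] V) + t • A : V →L[ℝ] V) : V →ₗ[ℝ] V) =
          LinearMap.id + t • (A : V →ₗ[ℝ] V) := rfl
      rw [h3, map_add, map_smul, LinearMap.toMatrix_id, add_comm]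
    rw [h1, h2, LinearMap.det_toMatrix]

theorem brouwer_det_interp (s : Finset ℝ) (hs : Module.finrank ℝ V < s.card) (A : V →L[ℝ] V)
    (t : ℝ) : ((1 : V →L[ℝ] V) + t • A).det =
      ∑ i ∈ s, (Lagrange.basis s id i).eval t * ((1 : V →L[ℝ] V) + i • A).det := by
  obtain ⟨p, hp, hpe⟩ := brouwer_det_poly A
  have h1 : p.degree < (s.card : WithBot ℕ) := by
    refine lt_of_le_of_lt Polynomial.degree_le_natDegree ?_
    exact_mod_cast lt_of_le_of_lt hp hs
  have h2 := Lagrange.eq_interpolate (s := s) (v := id) (f := p) Function.injective_id.injOn h1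
  have h3 : p.eval t = ∑ i ∈ s, (Lagrange.basis s id i).eval t * p.eval i := by
    conv_lhs => rw [h2]
    rw [Lagrange.interpolate_apply, Polynomial.eval_finsetSum]
    refine Finset.sum_congr rfl fun i _ => ?_
    rw [Polynomial.eval_mul, Polynomial.eval_C, mul_comm]
    rfl
  rw [← hpe, h3]
  refine Finset.sum_congr rfl fun i _ => ?_
  rw [hpe]

theorem brouwer_basis_sum (s : Finset ℝ) (hs : s.Nonempty) (t : ℝ) :
    ∑ i ∈ s, (Lagrange.basis s id i).eval t = 1 := by
  have h := Lagrange.sum_basis (F := ℝ) (s := s) (v := id) Function.injective_id.injOn hs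
  have h2 := congrArg (Polynomial.eval t) h
  rwa [Polynomial.eval_finsetSum, Polynomial.eval_one] at h2

theorem brouwer_det_pos (A : V →L[ℝ] V) {L t : ℝ} (hA : ‖A‖ ≤ L) (ht : 0 ≤ t) (htL : t * L < 1) :
    0 < ((1 : V →L[ℝ] V) + t • A).det := by
  have hne : ∀ s : ℝ, 0 ≤ s → s ≤ t → ((1 : V →L[ℝ] V) + s • A).det ≠ 0 := by
    intro s hs0 hst h0
    have h1 : LinearMap.det (((1 : V →L[ℝ] V) + s • A : V →L[ℝ] V) : V →ₗ[ℝ] V) = 0 := h0
    have h2 := LinearMap.bot_lt_ker_of_det_eq_zero h1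
    obtain ⟨v, hv, hv0⟩ := Submodule.exists_mem_ne_zero_of_ne_bot (bot_lt_iff_ne_bot.1 h2)
    have h3 : v + s • A v = 0 := hv
    have h4 : ‖v‖ = s * ‖A v‖ := by
      have : v = -(s • A v) := eq_neg_of_add_eq_zero_left h3
      calc ‖v‖ = ‖-(s • A v)‖ := by rw [← this]
        _ = s * ‖A v‖ := by rw [norm_neg, norm_smul, Real.norm_of_nonneg hs0]
    have h5 : ‖A v‖ ≤ L * ‖v‖ := (A.le_opNorm v).trans
      (mul_le_mul_of_nonneg_right hA (norm_nonneg v))
    have h6 : 0 < ‖v‖ := norm_pos_iff.2 hv0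
    have h7 : s * ‖A v‖ ≤ s * (L * ‖v‖) := mul_le_mul_of_nonneg_left h5 hs0
    have hL : 0 ≤ L := (norm_nonneg A).trans hA
    have h8 : s * L ≤ t * L := mul_le_mul_of_nonneg_right hst hL
    nlinarith
  by_contra hcon
  have hcon' : ((1 : V →L[ℝ] V) + t • A).det ≤ 0 := not_lt.1 hcon
  have hcont : Continuous fun s : ℝ => ((1 : V →L[ℝ] V) + s • A).det :=
    ContinuousLinearMap.continuous_det.comp
      (continuous_const.add (continuous_id.smul continuous_const))
  have h0 : ((1 : V →L[ℝ] V) + (0 : ℝ) • A).det = 1 := by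
    rw [zero_smul, add_zero]
    exact LinearMap.det_id
  have h1 := intermediate_value_Icc' ht hcont.continuousOn
  have h2 : (0 : ℝ) ∈ (fun s : ℝ => ((1 : V →L[ℝ] V) + s • A).det) '' Icc 0 t := by
    apply h1
    refine ⟨hcon', ?_⟩
    change 0 ≤ ((1 : V →L[ℝ] V) + (0 : ℝ) • A).det
    rw [h0]
    norm_num
  obtain ⟨s, hs, hs2⟩ := h2
  exact hne s hs.1 hs.2 hs2

end det

section retraction

variable {V : Type*} [NormedAddCommGroup V] [InnerProductSpace ℝ V]

/-- extension by zero of a Lipschitz function vanishing on the sphere -/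
theorem brouwer_lip_ext [Nontrivial V] {ρ L : ℝ} (hρ : 0 < ρ) (hL : 0 ≤ L) (g : V → V)
    (hlip : ∀ x ∈ closedBall (0 : V) ρ, ∀ y ∈ closedBall (0 : V) ρ, ‖g x - g y‖ ≤ L * ‖x - y‖)
    (hg0 : ∀ x, ‖x‖ = ρ → g x = 0) (g' : V → V) (hin : ∀ x, ‖x‖ ≤ ρ → g' x = g x)
    (hout : ∀ x, ρ < ‖x‖ → g' x = 0) (x y : V) : ‖g' x - g' y‖ ≤ L * ‖x - y‖ := by
  have key : ∀ x : V, ‖x‖ ≤ ρ → ‖g x‖ ≤ L * (ρ - ‖x‖) := by
    intro x hx
    by_cases hx0 : x = 0
    · obtain ⟨z, hz⟩ := NormedSpace.exists_lt_norm ℝ V 0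
      have hz' : ‖(ρ / ‖z‖) • z‖ = ρ := by
        rw [norm_smul, norm_div, norm_norm, Real.norm_of_nonneg hρ.le, div_mul_cancel₀ _ hz.ne']
      have h1 := hlip x (by simpa using hx) ((ρ / ‖z‖) • z) (by simp [hz'])
      rw [hg0 _ hz', sub_zero] at h1
      rw [hx0, zero_sub, norm_neg, hz'] at h1
      rw [hx0, norm_zero, sub_zero]
      exact h1
    · have hx1 : 0 < ‖x‖ := norm_pos_iff.2 hx0
      have hz' : ‖(ρ / ‖x‖) • x‖ = ρ := by
        rw [norm_smul, norm_div, norm_norm, Real.norm_of_nonneg hρ.le, div_mul_cancel₀ _ hx1.ne']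
      have h1 := hlip x (by simpa using hx) ((ρ / ‖x‖) • x) (by simp [hz'])
      rw [hg0 _ hz', sub_zero] at h1
      have h2 : x - (ρ / ‖x‖) • x = (1 - ρ / ‖x‖) • x := by rw [sub_smul, one_smul]
      have h3 : ‖x - (ρ / ‖x‖) • x‖ = ρ - ‖x‖ := by
        rw [h2, norm_smul, Real.norm_of_nonpos, neg_mul, sub_mul, div_mul_cancel₀ _ hx1.ne']
        · ring
        · have : 1 ≤ ρ / ‖x‖ := by rwa [one_le_div hx1]
          linarith
      rwa [h3] at h1
  rcases le_or_gt ‖x‖ ρ with hx | hx <;> rcases le_or_gt ‖y‖ ρ with hy | hy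
  · rw [hin x hx, hin y hy]
    exact hlip x (by simpa using hx) y (by simpa using hy)
  · rw [hin x hx, hout y hy, sub_zero]
    refine (key x hx).trans (mul_le_mul_of_nonneg_left ?_ hL)
    have := norm_sub_norm_le y x
    rw [norm_sub_rev] at this
    linarith
  · rw [hout x hx, hin y hy, zero_sub, norm_neg]
    refine (key y hy).trans (mul_le_mul_of_nonneg_left ?_ hL)
    have := norm_sub_norm_le x y
    linarith
  · rw [hout x hx, hout y hy, sub_zero, norm_zero]
    positivity

variable [FiniteDimensional ℝ V]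

/-- small Lipschitz perturbations of the identity supported in a ball map the ball bijectively -/
theorem brouwer_small [Nontrivial V] {ρ L t : ℝ} (hρ : 0 < ρ) (hL : 0 ≤ L) (g : V → V)
    (hlip : ∀ x ∈ closedBall (0 : V) ρ, ∀ y ∈ closedBall (0 : V) ρ, ‖g x - g y‖ ≤ L * ‖x - y‖)
    (hg0 : ∀ x, ‖x‖ = ρ → g x = 0) (ht : 0 ≤ t) (htL : t * L < 1) :
    InjOn (fun x => x + t • g x) (ball (0 : V) ρ) ∧
      (fun x => x + t • g x) '' (ball (0 : V) ρ) = ball (0 : V) ρ := by
  classical
  have : CompleteSpace V := FiniteDimensional.complete ℝ V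
  obtain ⟨g', hin, hout⟩ : ∃ g' : V → V, (∀ x, ‖x‖ ≤ ρ → g' x = g x) ∧
      (∀ x, ρ < ‖x‖ → g' x = 0) :=
    ⟨fun x => if ‖x‖ ≤ ρ then g x else 0, fun x hx => if_pos hx,
      fun x hx => if_neg (not_le.2 hx)⟩
  have hl := brouwer_lip_ext hρ hL g hlip hg0 g' hin hout
  have hout' : ∀ x, x ∉ ball (0 : V) ρ → g' x = 0 := by
    intro x hx
    have hx' : ρ ≤ ‖x‖ := by simpa using hx
    rcases hx'.eq_or_lt with h | h
    · rw [hin x h.symm.le, hg0 x h.symm]
    · exact hout x h
  have hin' : ∀ x, x ∈ ball (0 : V) ρ → g' x = g x := by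
    intro x hx
    have hx' : ‖x‖ < ρ := by simpa using hx
    exact hin x hx'.le
  have hinj : ∀ x y : V, x + t • g' x = y + t • g' y → x = y := by
    intro x y hxy
    have h1 : x - y = -(t • (g' x - g' y)) := by
      have e : x - y - (-(t • (g' x - g' y))) = (x + t • g' x) - (y + t • g' y) := by module
      rw [hxy, sub_self] at e
      exact sub_eq_zero.1 e
    have h2 : ‖x - y‖ ≤ t * (L * ‖x - y‖) := by
      calc ‖x - y‖ = t * ‖g' x - g' y‖ := by
            rw [h1, norm_neg, norm_smul, Real.norm_of_nonneg ht]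
        _ ≤ t * (L * ‖x - y‖) := mul_le_mul_of_nonneg_left (hl x y) ht
    have h3 : 0 ≤ ‖x - y‖ := norm_nonneg _
    have h4 : ‖x - y‖ = 0 := by nlinarith
    exact sub_eq_zero.1 (norm_eq_zero.1 h4)
  have hsurj : ∀ y : V, ∃ x : V, x + t • g' x = y := by
    intro y
    have hK : ContractingWith ⟨t * L, mul_nonneg ht hL⟩ (fun x => y - t • g' x) := by
      refine ⟨by exact_mod_cast htL, LipschitzWith.of_dist_le_mul fun x z => ?_⟩
      rw [dist_eq_norm, dist_eq_norm]
      have e : y - t • g' x - (y - t • g' z) = -(t • (g' x - g' z)) := by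
        rw [smul_sub]; abel
      rw [e, norm_neg, norm_smul, Real.norm_of_nonneg ht]
      change t * ‖g' x - g' z‖ ≤ t * L * ‖x - z‖
      rw [mul_assoc]
      exact mul_le_mul_of_nonneg_left (hl x z) ht
    have hfix := hK.fixedPoint_isFixedPt
    refine ⟨ContractingWith.fixedPoint _ hK, ?_⟩
    have h2 : y - t • g' (ContractingWith.fixedPoint _ hK) = ContractingWith.fixedPoint _ hK :=
      hfix
    exact (sub_eq_iff_eq_add.1 h2).symm
  constructor
  · intro x hx y hy hxy
    apply hinj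
    rw [hin' x hx, hin' y hy]
    exact hxy
  · ext y
    constructor
    · rintro ⟨x, hx, rfl⟩
      change x + t • g x ∈ ball (0 : V) ρ
      by_contra hy
      have h1 := hout' _ hy
      have h2 := hinj x (x + t • g x) (by rw [h1, smul_zero, add_zero, hin' x hx])
      exact hy (by rw [← h2]; exact hx)
    · intro hy
      obtain ⟨x, hx⟩ := hsurj y
      have hxb : x ∈ ball (0 : V) ρ := by
        by_contra hxb
        rw [hout' x hxb, smul_zero, add_zero] at hx
        exact hxb (by rw [hx]; exact hy)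
      refine ⟨x, hxb, ?_⟩
      rw [hin' x hxb] at hx
      exact hx

/-- there is no `C¹` retraction onto the sphere -/
theorem brouwer_no_retraction [Nontrivial V] {ρ : ℝ} (hρ : 0 < ρ) (r : V → V)
    (hr : ContDiff ℝ 1 r) (hn : ∀ x, ‖r x‖ = ρ) (hid : ∀ x, ‖x‖ = ρ → r x = x) : False := by
  let _ : MeasurableSpace V := borel V
  have : BorelSpace V := ⟨rfl⟩
  set μ : Measure V := Measure.addHaar with hμ
  obtain ⟨g, hgdef⟩ : ∃ g : V → V, ∀ x, g x = r x - x := ⟨fun x => r x - x, fun _ => rfl⟩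
  have hg : ContDiff ℝ 1 g := by
    have : g = fun x => r x - x := funext hgdef
    rw [this]
    exact hr.sub contDiff_id
  have hgd : Differentiable ℝ g := hg.differentiable one_ne_zero
  have hgc : Continuous (fderiv ℝ g) := hg.continuous_fderiv one_ne_zero
  obtain ⟨L, hL1, hL⟩ : ∃ L : ℝ, 1 ≤ L ∧ ∀ x ∈ closedBall (0 : V) ρ, ‖fderiv ℝ g x‖ ≤ L := by
    obtain ⟨C, hC⟩ := (isCompact_closedBall (0 : V) ρ).exists_bound_of_continuousOn
      hgc.continuousOn
    exact ⟨max C 1, le_max_right _ _, fun x hx => (hC x hx).trans (le_max_left _ _)⟩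
  have hL0 : 0 ≤ L := by linarith
  have hLpos : 0 < L := by linarith
  have hlip : ∀ x ∈ closedBall (0 : V) ρ, ∀ y ∈ closedBall (0 : V) ρ,
      ‖g x - g y‖ ≤ L * ‖x - y‖ := by
    intro x hx y hy
    exact (convex_closedBall (0 : V) ρ).norm_image_sub_le_of_norm_fderiv_le
      (fun z _ => hgd z) hL hy hx
  have hg0 : ∀ x, ‖x‖ = ρ → g x = 0 := fun x hx => by rw [hgdef, hid x hx, sub_self]
  -- the volume identity for small times
  have hvol : ∀ t : ℝ, 0 ≤ t → t * L < 1 →
      ∫ x in ball (0 : V) ρ, ((1 : V →L[ℝ] V) + t • fderiv ℝ g x).det ∂μ =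
        ∫ x in ball (0 : V) ρ, (1 : ℝ) ∂μ := by
    intro t ht htL
    obtain ⟨hinj, himg⟩ := brouwer_small hρ hL0 g hlip hg0 ht htL
    have hder : ∀ x ∈ ball (0 : V) ρ, HasFDerivWithinAt (fun x => x + t • g x)
        ((1 : V →L[ℝ] V) + t • fderiv ℝ g x) (ball (0 : V) ρ) x := by
      intro x _
      exact ((hasFDerivAt_id x).add ((hgd x).hasFDerivAt.const_smul t)).hasFDerivWithinAt
    have h1 := integral_image_eq_integral_abs_det_fderiv_smul μ measurableSet_ball hder hinj
      (fun _ => (1 : ℝ))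
    rw [himg] at h1
    rw [h1]
    refine setIntegral_congr_fun measurableSet_ball fun x hx => ?_
    have hpos := brouwer_det_pos (fderiv ℝ g x) (hL x (ball_subset_closedBall hx)) ht htL
    simp only [smul_eq_mul, mul_one]
    exact (abs_of_pos hpos).symm
  -- interpolation
  set n := Module.finrank ℝ V
  set s : Finset ℝ := (Finset.range (n + 1)).image (fun i : ℕ => (i : ℝ) / ((n + 1) * L)) with hs
  have hden : (0 : ℝ) < (n + 1) * L := by positivity
  have hscard : s.card = n + 1 := by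
    rw [hs, Finset.card_image_of_injective, Finset.card_range]
    intro i j hij
    have hij' : (i : ℝ) / ((n + 1) * L) = (j : ℝ) / ((n + 1) * L) := hij
    rw [div_left_inj' hden.ne'] at hij'
    exact_mod_cast hij'
  have hsmem : ∀ t ∈ s, 0 ≤ t ∧ t * L < 1 := by
    intro t ht
    rw [hs, Finset.mem_image] at ht
    obtain ⟨i, hi, rfl⟩ := ht
    have hi' : (i : ℝ) < n + 1 := by exact_mod_cast Finset.mem_range.1 hi
    constructor
    · positivity
    · rw [div_mul_eq_mul_div, div_lt_one hden]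
      exact mul_lt_mul_of_pos_right hi' hLpos
  have hsne : s.Nonempty := Finset.card_pos.1 (by rw [hscard]; omega)
  have hint : ∀ t : ℝ, IntegrableOn (fun x => ((1 : V →L[ℝ] V) + t • fderiv ℝ g x).det)
      (ball (0 : V) ρ) μ := by
    intro t
    have hc : Continuous fun x => ((1 : V →L[ℝ] V) + t • fderiv ℝ g x).det :=
      ContinuousLinearMap.continuous_det.comp (continuous_const.add (hgc.const_smul t))
    exact (hc.continuousOn.integrableOn_compact (isCompact_closedBall (0 : V) ρ)).mono_set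
      ball_subset_closedBall
  have h1 : ∫ x in ball (0 : V) ρ, ((1 : V →L[ℝ] V) + (1 : ℝ) • fderiv ℝ g x).det ∂μ =
      ∫ x in ball (0 : V) ρ, (1 : ℝ) ∂μ := by
    have e1 : ∀ x, ((1 : V →L[ℝ] V) + (1 : ℝ) • fderiv ℝ g x).det =
        ∑ i ∈ s, (Lagrange.basis s id i).eval 1 * ((1 : V →L[ℝ] V) + i • fderiv ℝ g x).det :=
      fun x => brouwer_det_interp s (by rw [hscard]; exact Nat.lt_succ_self n) _ 1
    simp only [e1]
    rw [integral_finsetSum _ fun i _ => (hint i).const_mul _]
    simp only [integral_const_mul]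
    rw [Finset.sum_congr rfl fun i hi => by rw [hvol i (hsmem i hi).1 (hsmem i hi).2],
      ← Finset.sum_mul, brouwer_basis_sum s hsne 1, one_mul]
  -- the determinant vanishes at time one
  have h2 : ∀ x, ((1 : V →L[ℝ] V) + (1 : ℝ) • fderiv ℝ g x).det = 0 := by
    intro x
    by_contra hne
    have hder : HasFDerivAt r ((1 : V →L[ℝ] V) + (1 : ℝ) • fderiv ℝ g x) x := by
      have h3 := (hasFDerivAt_id x).add ((hgd x).hasFDerivAt.const_smul (1 : ℝ))
      have h4 : r = fun x => id x + (1 : ℝ) • g x := by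
        funext y
        rw [one_smul, hgdef, id, add_sub_cancel]
      rw [h4]
      exact h3
    set T : V →L[ℝ] V := (1 : V →L[ℝ] V) + (1 : ℝ) • fderiv ℝ g x with hT
    have h5 : HasFDerivAt (fun y => ‖r y‖ ^ 2) (2 • (innerSL ℝ (r x)).comp T) x := hder.norm_sq
    have h6 : HasFDerivAt (fun y => ‖r y‖ ^ 2) (0 : V →L[ℝ] ℝ) x := by
      have : (fun y => ‖r y‖ ^ 2) = fun _ => ρ ^ 2 := by
        funext y
        rw [hn]
      rw [this]
      exact hasFDerivAt_const _ _
    have h7 := h5.unique h6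
    have hunit : IsUnit (LinearMap.det (T : V →ₗ[ℝ] V)) := isUnit_iff_ne_zero.2 hne
    have hsurj : Function.Surjective (T : V →ₗ[ℝ] V) := by
      have := (LinearMap.isUnit_iff_isUnit_det (T : V →ₗ[ℝ] V)).2 hunit
      exact ((Module.End.isUnit_iff _).1 this).2
    obtain ⟨h, hh⟩ := hsurj (r x)
    have h8 := congrArg (fun ℓ : V →L[ℝ] ℝ => ℓ h) h7
    have hh' : T h = r x := hh
    simp only [smul_apply, ContinuousLinearMap.comp_apply, innerSL_apply_apply,
      hh', zero_apply, real_inner_self_eq_norm_sq, hn] at h8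
    have : ρ ^ 2 = 0 := by simpa using h8
    nlinarith
  simp only [h2, integral_zero] at h1
  have h3 : (0 : ℝ) < ∫ x in ball (0 : V) ρ, (1 : ℝ) ∂μ := by
    rw [setIntegral_const, smul_eq_mul, mul_one]
    exact ENNReal.toReal_pos (measure_ball_pos μ (0 : V) hρ).ne' measure_ball_lt_top.ne
  linarith

/-- smoothing a nowhere vanishing field which is the identity far away -/
theorem brouwer_smooth {G : V → V} (hG : Continuous G) (hG0 : ∀ x, G x ≠ 0) {ρ : ℝ} (hρ : 0 < ρ)
    (hGid : ∀ x, ρ ≤ ‖x‖ → G x = x) :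
    ∃ P : V → V, ContDiff ℝ 1 P ∧ (∀ x, P x ≠ 0) ∧ ∀ x, 2 * ρ ≤ ‖x‖ → P x = x := by
  classical
  have : ProperSpace V := FiniteDimensional.proper ℝ V
  obtain ⟨t, ht1, ht2⟩ : ∃ t : V → Set V, (∀ x, ‖x‖ < 2 * ρ → t x = ball (G x) ‖G x‖) ∧
      (∀ x, 2 * ρ ≤ ‖x‖ → t x = {x}) :=
    ⟨fun x => if ‖x‖ < 2 * ρ then ball (G x) ‖G x‖ else {x}, fun x hx => if_pos hx,
      fun x hx => if_neg (not_lt.2 hx)⟩
  have hconv : ∀ x, Convex ℝ (t x) := by
    intro x
    rcases lt_or_ge ‖x‖ (2 * ρ) with h | h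
    · rw [ht1 x h]
      exact convex_ball _ _
    · rw [ht2 x h]
      exact convex_singleton _
  obtain ⟨g, hg⟩ := exists_contMDiffMap_forall_mem_convex_of_local (n := 1)
    (modelWithCornersSelf ℝ V) (t := t) hconv (by
    intro x
    rcases lt_or_ge ‖x‖ (2 * ρ) with h | h
    · refine ⟨{y | ‖y‖ < 2 * ρ ∧ dist (G x) (G y) < ‖G y‖}, ?_, fun _ => G x,
        contMDiffOn_const, ?_⟩
      · have ho : IsOpen {y : V | ‖y‖ < 2 * ρ ∧ dist (G x) (G y) < ‖G y‖} :=
          (isOpen_lt continuous_norm continuous_const).inter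
            (isOpen_lt (continuous_const.dist hG) hG.norm)
        refine ho.mem_nhds ⟨h, ?_⟩
        rw [dist_self]
        exact norm_pos_iff.2 (hG0 x)
      · intro y hy
        rw [ht1 y hy.1]
        exact hy.2
    · refine ⟨{y | ρ < ‖y‖}, ?_, fun y => y, contMDiffOn_id, ?_⟩
      · have ho : IsOpen {y : V | ρ < ‖y‖} := isOpen_lt continuous_const continuous_norm
        refine ho.mem_nhds ?_
        change ρ < ‖x‖
        linarith
      · intro y hy
        have hy' : ρ < ‖y‖ := hy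
        rcases lt_or_ge ‖y‖ (2 * ρ) with h2 | h2
        · rw [ht1 y h2, hGid y hy'.le]
          exact mem_ball_self (by linarith)
        · rw [ht2 y h2]
          exact mem_singleton _)
  refine ⟨g, contMDiff_iff_contDiff.1 g.contMDiff, ?_, ?_⟩
  · intro x hx
    rcases lt_or_ge ‖x‖ (2 * ρ) with h | h
    · have h1 := hg x
      rw [ht1 x h, hx, mem_ball, dist_zero_left] at h1
      exact lt_irrefl _ h1
    · have h1 := hg x
      rw [ht2 x h, mem_singleton_iff, hx] at h1
      rw [← h1, norm_zero] at h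
      linarith
  · intro x h
    have h1 := hg x
    rwa [ht2 x h, mem_singleton_iff] at h1

end retraction

/-- A continuous vector field on a closed ball of a finite dimensional Euclidean space which points
(weakly) outward on the sphere has a zero. -/
theorem exists_zero_of_outward {V : Type*} [NormedAddCommGroup V] [InnerProductSpace ℝ V]
    [FiniteDimensional ℝ V] {R : ℝ} (hR : 0 < R) {F : V → V}
    (hF : ContinuousOn F (closedBall 0 R))
    (hout : ∀ x : V, ‖x‖ = R → 0 ≤ inner ℝ (F x) x) :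
    ∃ x ∈ closedBall (0 : V) R, F x = 0 := by
  rcases subsingleton_or_nontrivial V with hV | hV
  · exact ⟨0, by simpa using hR.le, Subsingleton.elim _ _⟩
  by_contra hcon
  push Not at hcon
  -- the projection and the cutoff
  obtain ⟨π, hπ⟩ : ∃ π : V → V, ∀ x, π x = (R / max R ‖x‖) • x := ⟨_, fun _ => rfl⟩
  obtain ⟨lam, hlam⟩ : ∃ lam : V → ℝ, ∀ x, lam x = min 1 (max 0 ((‖x‖ - R) / R)) :=
    ⟨_, fun _ => rfl⟩
  have hmax : ∀ x : V, 0 < max R ‖x‖ := fun x => lt_max_of_lt_left hR
  have hπc : Continuous π := by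
    have : π = fun x => (R / max R ‖x‖) • x := funext hπ
    rw [this]
    exact (continuous_const.div (continuous_const.max continuous_norm)
      (fun x => (hmax x).ne')).smul continuous_id
  have hπn : ∀ x, ‖π x‖ = R / max R ‖x‖ * ‖x‖ := by
    intro x
    rw [hπ, norm_smul, Real.norm_of_nonneg (div_nonneg hR.le (hmax x).le)]
  have hπb : ∀ x, π x ∈ closedBall (0 : V) R := by
    intro x
    rw [mem_closedBall, dist_zero_right, hπn, div_mul_eq_mul_div, div_le_iff₀ (hmax x)]
    exact mul_le_mul_of_nonneg_left (le_max_right _ _) hR.le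
  have hlamc : Continuous lam := by
    have : lam = fun x => min 1 (max 0 ((‖x‖ - R) / R)) := funext hlam
    rw [this]
    exact continuous_const.min (continuous_const.max
      ((continuous_norm.sub continuous_const).div_const R))
  have hlam0 : ∀ x, 0 ≤ lam x := fun x => by
    rw [hlam]
    exact le_min zero_le_one (le_max_left _ _)
  have hlam1 : ∀ x, lam x ≤ 1 := fun x => by
    rw [hlam]
    exact min_le_left _ _
  obtain ⟨G, hGdef⟩ : ∃ G : V → V, ∀ x, G x = (1 - lam x) • F (π x) + lam x • x :=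
    ⟨_, fun _ => rfl⟩
  have hG : Continuous G := by
    have : G = fun x => (1 - lam x) • F (π x) + lam x • x := funext hGdef
    rw [this]
    exact ((continuous_const.sub hlamc).smul (hF.comp_continuous hπc hπb)).add
      (hlamc.smul continuous_id)
  have hG0 : ∀ x, G x ≠ 0 := by
    intro x
    rcases le_or_gt ‖x‖ R with h | h
    · have e1 : π x = x := by
        rw [hπ, max_eq_left h, div_self hR.ne', one_smul]
      have e2 : lam x = 0 := by
        rw [hlam, max_eq_left, min_eq_right zero_le_one]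
        exact div_nonpos_of_nonpos_of_nonneg (by linarith) hR.le
      rw [hGdef, e1, e2, sub_zero, one_smul, zero_smul, add_zero]
      exact hcon x (by simpa using h)
    · intro h0
      have e1 : 0 < lam x := by
        rw [hlam]
        refine lt_min one_pos (lt_max_of_lt_right (div_pos (by linarith) hR))
      have hx0 : 0 < ‖x‖ := hR.trans h
      have e2 : ‖π x‖ = R := by
        rw [hπn, max_eq_right h.le, div_mul_cancel₀ _ hx0.ne']
      have e3 : x = (‖x‖ / R) • π x := by
        rw [hπ, max_eq_right h.le, smul_smul, div_mul_div_cancel₀ hR.ne', div_self hx0.ne',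
          one_smul]
      have e4 : 0 ≤ inner ℝ (F (π x)) x := by
        have h3 : 0 ≤ ‖x‖ / R := by positivity
        calc 0 ≤ (‖x‖ / R) * inner ℝ (F (π x)) (π x) := mul_nonneg h3 (hout (π x) e2)
          _ = inner ℝ (F (π x)) ((‖x‖ / R) • π x) := (real_inner_smul_right _ _ _).symm
          _ = inner ℝ (F (π x)) x := by rw [← e3]
      have e5 : inner ℝ (G x) x = (1 - lam x) * inner ℝ (F (π x)) x + lam x * ‖x‖ ^ 2 := by
        rw [hGdef, inner_add_left, real_inner_smul_left, real_inner_smul_left,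
          real_inner_self_eq_norm_sq]
      rw [h0, inner_zero_left] at e5
      have h4 : 0 ≤ (1 - lam x) * inner ℝ (F (π x)) x :=
        mul_nonneg (by linarith [hlam1 x]) e4
      have h5 : 0 < lam x * ‖x‖ ^ 2 := by positivity
      linarith
  have hGid : ∀ x, 2 * R ≤ ‖x‖ → G x = x := by
    intro x hx
    have e1 : lam x = 1 := by
      rw [hlam, min_eq_left]
      refine le_max_of_le_right ?_
      rw [one_le_div hR]
      linarith
    rw [hGdef, e1, sub_self, zero_smul, one_smul, zero_add]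
  obtain ⟨P, hP, hP0, hPid⟩ := brouwer_smooth hG hG0 (ρ := 2 * R) (by positivity) hGid
  -- the retraction
  set ρ : ℝ := 2 * (2 * R) with hρ
  have hρ0 : 0 < ρ := by positivity
  refine brouwer_no_retraction hρ0 (fun x => (ρ / ‖P x‖) • P x) ?_ ?_ ?_
  · exact (contDiff_const.div (hP.norm ℝ hP0) (fun x => norm_ne_zero_iff.2 (hP0 x))).smul hP
  · intro x
    have h1 : ‖P x‖ ≠ 0 := norm_ne_zero_iff.2 (hP0 x)
    rw [norm_smul, norm_div, norm_norm, Real.norm_of_nonneg hρ0.le, div_mul_cancel₀ _ h1]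
  · intro x hx
    have h1 : P x = x := hPid x hx.ge
    change (ρ / ‖P x‖) • P x = x
    rw [h1, hx, div_self hρ0.ne', one_smul]

end Vale.Agent.P371.Full
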