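import Vale.Agent.P371.Full.ExBox

/-!
# Existence of a constant matrix `K` and a Riccati path from `K` to `-K`
-/

open Set Metric Filter Topology Matrix MeasureTheory
open scoped NNReal Matrix.Norms.L2Operator ComplexOrder

namespace Vale.Agent.P371.Full

variable {N : ℕ}

/-- Cut-off function: `1` for `s ≤ M`, `0` for `s ≥ M + 1/M`. -/
noncomputable def cutf (M s : ℝ) : ℝ := max 0 (min 1 (1 - M * (s - M)))

lemma cutf_nonneg (M s : ℝ) : 0 ≤ cutf M s := le_max_left _ _
lemma cutf_le_one (M s : ℝ) : cutf M s ≤ 1 := max_le zero_le_one (min_le_left _ _)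
lemma cutf_eq_one {M s : ℝ} (hM : 0 ≤ M) (h : s ≤ M) : cutf M s = 1 := by
  unfold cutf
  rw [min_eq_left (by nlinarith), max_eq_right zero_le_one]
lemma cutf_eq_zero {M s : ℝ} (hM : 0 < M) (h : M + 1 / M ≤ s) : cutf M s = 0 := by
  unfold cutf
  apply max_eq_left
  refine (min_le_right _ _).trans ?_
  have h1 : 1 / M ≤ s - M := by linarith
  have h2 : M * (1 / M) ≤ M * (s - M) := mul_le_mul_of_nonneg_left h1 hM.le
  rw [mul_one_div_cancel hM.ne'] at h2
  linarith
lemma cutf_lip {M : ℝ} (hM : 0 ≤ M) (s t : ℝ) : |cutf M s - cutf M t| ≤ M * |s - t| := by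
  unfold cutf
  have h1 := abs_max_sub_max_le_abs (min 1 (1 - M * (s - M))) (min 1 (1 - M * (t - M))) 0
  rw [max_comm _ 0, max_comm _ 0] at h1
  refine h1.trans ?_
  have h2 := abs_min_sub_min_le_max 1 (1 - M * (s - M)) 1 (1 - M * (t - M))
  refine h2.trans ?_
  rw [sub_self, abs_zero, max_eq_right (abs_nonneg _)]
  have : 1 - M * (s - M) - (1 - M * (t - M)) = -(M * (s - t)) := by ring
  rw [this, abs_neg, abs_mul, abs_of_nonneg hM]
lemma continuous_cutf (M : ℝ) : Continuous (cutf M) := by unfold cutf; fun_prop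

/-- The cut-off Riccati field. -/
noncomputable def fld (M : ℝ) (Q Y : Mat N) : Mat N := cutf M ‖Y‖ • (Q - Y * Y)

lemma fld_norm {M B : ℝ} (hM : 0 < M) {Q : Mat N} (hQ : ‖Q‖ ≤ B) (Y : Mat N) :
    ‖fld M Q Y‖ ≤ B + (M + 1 / M) ^ 2 := by
  unfold fld
  rw [norm_smul, Real.norm_of_nonneg (cutf_nonneg _ _)]
  have hB : 0 ≤ B := (norm_nonneg _).trans hQ
  by_cases h : M + 1 / M ≤ ‖Y‖
  · rw [cutf_eq_zero hM h, zero_mul]; positivity
  · push Not at h
    have h1 : ‖Q - Y * Y‖ ≤ B + (M + 1 / M) ^ 2 := by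
      refine (norm_sub_le _ _).trans (add_le_add hQ ((norm_mul_le _ _).trans ?_))
      nlinarith [norm_nonneg Y]
    have := cutf_le_one M ‖Y‖
    have := cutf_nonneg M ‖Y‖
    nlinarith [norm_nonneg (Q - Y * Y)]

lemma fld_lip_aux {M B : ℝ} (hM : 0 < M) {Q : Mat N} (hQ : ‖Q‖ ≤ B) (Y Z : Mat N)
    (hY : ‖Y‖ < M + 1 / M) :
    ‖fld M Q Y - fld M Q Z‖ ≤ (M * (B + (M + 1 / M) ^ 2) + 2 * (M + 1 / M)) * ‖Y - Z‖ := by
  set ρ := M + 1 / M with hρ
  have hρ0 : 0 < ρ := by positivity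
  have e : fld M Q Y - fld M Q Z = (cutf M ‖Y‖ - cutf M ‖Z‖) • (Q - Y * Y)
      + cutf M ‖Z‖ • (Z * Z - Y * Y) := by
    unfold fld
    rw [sub_smul, smul_sub, smul_sub, smul_sub, smul_sub]
    abel
  rw [e]
  have h1 : ‖(cutf M ‖Y‖ - cutf M ‖Z‖) • (Q - Y * Y)‖ ≤ (M * (B + ρ ^ 2)) * ‖Y - Z‖ := by
    rw [norm_smul, Real.norm_eq_abs]
    have a1 := cutf_lip hM.le ‖Y‖ ‖Z‖
    have a2 : |‖Y‖ - ‖Z‖| ≤ ‖Y - Z‖ := abs_norm_sub_norm_le Y Z
    have a3 : ‖Q - Y * Y‖ ≤ B + ρ ^ 2 := by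
      refine (norm_sub_le _ _).trans (add_le_add hQ ((norm_mul_le _ _).trans ?_))
      nlinarith [norm_nonneg Y]
    calc |cutf M ‖Y‖ - cutf M ‖Z‖| * ‖Q - Y * Y‖ ≤ (M * ‖Y - Z‖) * (B + ρ ^ 2) :=
          mul_le_mul (a1.trans (mul_le_mul_of_nonneg_left a2 hM.le)) a3 (norm_nonneg _)
            (by positivity)
      _ = _ := by ring
  have h2 : ‖cutf M ‖Z‖ • (Z * Z - Y * Y)‖ ≤ (2 * ρ) * ‖Y - Z‖ := by
    rw [norm_smul, Real.norm_of_nonneg (cutf_nonneg _ _)]
    by_cases hZ : ρ ≤ ‖Z‖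
    · rw [cutf_eq_zero hM hZ, zero_mul]; positivity
    · push Not at hZ
      have e2 : Z * Z - Y * Y = Z * (Z - Y) + (Z - Y) * Y := by noncomm_ring
      have a1 : ‖Z * Z - Y * Y‖ ≤ (2 * ρ) * ‖Y - Z‖ := by
        rw [e2]
        refine (norm_add_le _ _).trans ?_
        have b1 := norm_mul_le Z (Z - Y)
        have b2 := norm_mul_le (Z - Y) Y
        rw [norm_sub_rev Z Y] at b1 b2
        nlinarith [norm_nonneg (Y - Z), norm_nonneg Y, norm_nonneg Z]
      have c1 := cutf_le_one M ‖Z‖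
      have c2 := cutf_nonneg M ‖Z‖
      nlinarith [norm_nonneg (Z * Z - Y * Y)]
  refine (norm_add_le _ _).trans ?_
  linarith

lemma fld_lip {M B : ℝ} (hM : 0 < M) {Q : Mat N} (hQ : ‖Q‖ ≤ B) (Y Z : Mat N) :
    ‖fld M Q Y - fld M Q Z‖ ≤ (M * (B + (M + 1 / M) ^ 2) + 2 * (M + 1 / M)) * ‖Y - Z‖ := by
  have hB : 0 ≤ B := (norm_nonneg _).trans hQ
  by_cases hY : ‖Y‖ < M + 1 / M
  · exact fld_lip_aux hM hQ Y Z hY
  · by_cases hZ : ‖Z‖ < M + 1 / M
    · have := fld_lip_aux hM hQ Z Y hZ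
      rwa [norm_sub_rev, norm_sub_rev Z Y] at this
    · push Not at hY hZ
      simp only [fld, cutf_eq_zero hM hY, cutf_eq_zero hM hZ, zero_smul, sub_self, norm_zero]
      positivity

lemma hermitian_of_ode {a b M B : ℝ} (hM : 0 < M) {Q : ℝ → Mat N}
    (hQ : ∀ x ∈ Icc a b, ‖Q x‖ ≤ B) (hQh : ∀ x ∈ Icc a b, (Q x).IsHermitian) {Y : ℝ → Mat N}
    (hY0 : (Y a).IsHermitian)
    (hY : ∀ x ∈ Icc a b, HasDerivWithinAt Y (fld M (Q x) (Y x)) (Icc a b) x) :
    ∀ x ∈ Icc a b, (Y x).IsHermitian := by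
  intro x hx
  have hB : 0 ≤ B := (norm_nonneg _).trans (hQ x hx)
  set L : ℝ≥0 := ⟨M * (B + (M + 1 / M) ^ 2) + 2 * (M + 1 / M), by positivity⟩ with hL
  have hstar : ∀ x ∈ Icc a b, HasDerivWithinAt (fun x => (Y x)ᴴ) (fld M (Q x) (Y x)ᴴ) (Icc a b) x := by
    intro x hx
    have h1 : HasDerivWithinAt (fun x => (Y x)ᴴ) ((fld M (Q x) (Y x))ᴴ) (Icc a b) x := by
      have := (starL' ℝ : Mat N ≃L[ℝ] Mat N).toContinuousLinearMap.hasFDerivAt.comp_hasDerivWithinAt x (hY x hx)
      exact this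
    refine h1.congr_deriv ?_
    unfold fld
    have e1 : ‖(Y x)ᴴ‖ = ‖Y x‖ := norm_star (Y x)
    have e2 : (Q x)ᴴ = Q x := hQh x hx
    rw [Matrix.conjTranspose_smul, Matrix.conjTranspose_sub, Matrix.conjTranspose_mul, e1, e2]
    simp
  have := flow_dist (f := fun x Y => fld M (Q x) Y) (g := fun x Y => fld M (Q x) Y) (ε := 0) (L := L)
    (fun x hx => LipschitzWith.of_dist_le_mul fun Y Z => by
      rw [dist_eq_norm, dist_eq_norm]; exact fld_lip hM (hQ x hx) Y Z)
    (fun _ _ _ => by simp) hY hstar x hx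
  have e0 : (Y a)ᴴ = Y a := hY0
  rw [e0, sub_self, norm_zero, gronwallBound_ε0_δ0] at this
  exact (sub_eq_zero.1 (norm_le_zero_iff.1 this)).symm

/-- The set of admissible `K`. -/
def adm (N : ℕ) (k0 : ℝ) : Set (Mat N) := {K | K.IsHermitian ∧ ∀ v, k0 * ‖v‖ ^ 2 ≤ qf K v}

/-- Order bounds and the true Riccati equation from `Y R + K ≥ 0`. -/
theorem riccati_of_end {R M B k0 : ℝ} (hM : 0 < M) {K : Mat N}
    (hK : K ∈ box N k0 M) {W : ℝ → Mat N} (hpsd : ∀ x ∈ Icc (-R) R, (W x).PosSemidef)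
    (hQ : ∀ x ∈ Icc (-R) R, ‖K * K - W x‖ ≤ B)
    {Y : ℝ → Mat N} (hY0 : Y (-R) = K)
    (hY : ∀ x ∈ Icc (-R) R, HasDerivWithinAt Y (fld M (K * K - W x) (Y x)) (Icc (-R) R) x)
    (hend : ∀ v, 0 ≤ qf (Y R + K) v) :
    ∀ x ∈ Icc (-R) R, HasDerivWithinAt Y (K * K - Y x * Y x - W x) (Icc (-R) R) x ∧
      (K - Y x).PosSemidef ∧ (K + Y x).PosSemidef := by
  have hKh : K.IsHermitian := hK.1
  have hKK : (K * K).IsHermitian := by
    have : Kᴴ = K := hKh
    unfold Matrix.IsHermitian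
    rw [Matrix.conjTranspose_mul, this]
  have hYh := hermitian_of_ode hM hQ (fun x hx => hKK.sub (hpsd x hx).1) (by rw [hY0]; exact hKh) hY
  have hYc : ContinuousOn Y (Icc (-R) R) := fun x hx => (hY x hx).continuousWithinAt
  have hcut : ContinuousOn (fun x => cutf M ‖Y x‖) (Icc (-R) R) :=
    (continuous_cutf M).comp_continuousOn hYc.norm
  -- lower bound
  have hlow : ∀ x ∈ Icc (-R) R, ∀ v, 0 ≤ qf (Y x + K) v := by
    refine qf_nonneg_backward (Z := fun x => Y x + K)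
      (B := fun x => -((cutf M ‖Y x‖ / 2) • (K - Y x))) (S := fun x => cutf M ‖Y x‖ • W x)
      (((hcut.div_const 2).smul (continuousOn_const.sub hYc)).neg) (fun x hx =>
        (isHermitian_smul_real (hKh.sub (hYh x hx)) _).neg) (fun x hx => ?_)
      (fun x hx v => ?_) hend
    · refine ((hY x hx).add_const K).congr_deriv ?_
      unfold fld
      set c := cutf M ‖Y x‖
      simp only [neg_mul, mul_neg, smul_mul_assoc, mul_smul_comm]
      have e : K * K - W x - Y x * Y x = (1 / 2 : ℝ) • ((K - Y x) * (Y x + K) + (Y x + K) * (K - Y x)) - W x := by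
        have : (K - Y x) * (Y x + K) + (Y x + K) * (K - Y x) = (2 : ℝ) • (K * K - Y x * Y x) := by
          rw [two_smul]; noncomm_ring
        rw [this, smul_smul]
        norm_num
        abel
      rw [e, smul_sub, smul_smul, smul_add]
      have : c * (1 / 2) = c / 2 := by ring
      rw [this]
      abel
    · rw [qf_smul]
      exact mul_nonneg (cutf_nonneg _ _) ((posSemidef_iff_qf.1 (hpsd x hx)).2 v)
  have hup : ∀ x ∈ Icc (-R) R, ∀ v, 0 ≤ qf (K - Y x) v := by
    refine qf_nonneg_forward (Z := fun x => K - Y x)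
      (B := fun x => -((cutf M ‖Y x‖ / 2) • (K + Y x))) (S := fun x => cutf M ‖Y x‖ • W x)
      (((hcut.div_const 2).smul (continuousOn_const.add hYc)).neg) (fun x hx =>
        (isHermitian_smul_real (hKh.add (hYh x hx)) _).neg) (fun x hx => ?_)
      (fun x hx v => ?_) (fun v => by rw [hY0]; simp)
    · refine ((hY x hx).const_sub K).congr_deriv ?_
      unfold fld
      set c := cutf M ‖Y x‖
      simp only [neg_mul, mul_neg, smul_mul_assoc, mul_smul_comm]
      have e : K * K - W x - Y x * Y x = (1 / 2 : ℝ) • ((K + Y x) * (K - Y x) + (K - Y x) * (K + Y x)) - W x := by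
        have : (K + Y x) * (K - Y x) + (K - Y x) * (K + Y x) = (2 : ℝ) • (K * K - Y x * Y x) := by
          rw [two_smul]; noncomm_ring
        rw [this, smul_smul]
        norm_num
        abel
      rw [e, smul_sub, smul_smul, smul_add]
      have : c * (1 / 2) = c / 2 := by ring
      rw [this]
      abel
    · rw [qf_smul]
      exact mul_nonneg (cutf_nonneg _ _) ((posSemidef_iff_qf.1 (hpsd x hx)).2 v)
  intro x hx
  have hn : ‖Y x‖ ≤ M := by
    refine norm_le_of_qf (hYh x hx) hM.le fun v => ?_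
    have h1 := hlow x hx v
    have h2 := hup x hx v
    have h3 := hK.2.2 v
    simp only [qf_add, qf_sub] at h1 h2
    rw [abs_le]
    constructor <;> linarith
  refine ⟨?_, posSemidef_iff_qf.2 ⟨hKh.sub (hYh x hx), hup x hx⟩,
    posSemidef_iff_qf.2 ⟨hKh.add (hYh x hx), fun v => by rw [add_comm]; exact hlow x hx v⟩⟩
  have := hY x hx
  unfold fld at this
  rw [cutf_eq_one hM.le hn, one_smul] at this
  refine this.congr_deriv ?_
  abel

lemma qf_mul_self_of_eigen {K : Mat N} {b : EV N} (hb : ‖b‖ = 1) {k : ℝ}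
    (h : act N K b = k • b) : qf (K * K) b = k ^ 2 := by
  unfold qf
  rw [act_mul, h, map_smul, h, inner_smul_right, inner_smul_right, real_inner_self_eq_norm_sq, hb]
  ring

lemma hasDeriv_qf {Y : ℝ → Mat N} {Y' : Mat N} {s : Set ℝ} {x : ℝ} (b : EV N)
    (h : HasDerivWithinAt Y Y' s x) : HasDerivWithinAt (fun x => qf (Y x) b) (qf Y' b) s x := by
  have h1 : HasDerivWithinAt (fun x => act N (Y x)) (act N Y') s x :=
    (act N).hasFDerivAt.comp_hasDerivWithinAt x h
  have h2 := (hasDerivWithinAt_const x s b).inner ℝ (h1.clm_apply (hasDerivWithinAt_const x s b))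
  refine h2.congr_deriv ?_
  simp [qf]

/-- A top eigenvector direction stays high. -/
theorem top_bound {R M C1 : ℝ} (hR : 0 < R) (hM : 1 ≤ M) (hC1 : 0 ≤ C1) {K : Mat N} {W : ℝ → Mat N}
    (hW : ∀ x ∈ Icc (-R) R, ‖W x‖ ≤ C1)
    {Y : ℝ → Mat N} (hY0 : Y (-R) = K)
    (hY : ∀ x ∈ Icc (-R) R, HasDerivWithinAt Y (fld M (K * K - W x) (Y x)) (Icc (-R) R) x)
    {b : EV N} (hb : ‖b‖ = 1) (hKb : act N K b = M • b) : M - 2 * R * (3 + C1) ≤ qf (Y R) b := by
  have hM0 : 0 < M := by linarith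
  have hder : ∀ x ∈ Icc (-R) R, HasDerivWithinAt (fun x => qf (Y x) b + (3 + C1) * x)
      (qf (fld M (K * K - W x) (Y x)) b + (3 + C1)) (Icc (-R) R) x := by
    intro x hx
    have h1 := hasDeriv_qf b (hY x hx)
    have h2 : HasDerivWithinAt (fun x : ℝ => (3 + C1) * x) (3 + C1) (Icc (-R) R) x := by
      simpa using (hasDerivWithinAt_id x (Icc (-R) R)).const_mul (3 + C1)
    exact h1.add h2
  have hmono : MonotoneOn (fun x => qf (Y x) b + (3 + C1) * x) (Icc (-R) R) := by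
    refine monotoneOn_of_hasDerivWithinAt_nonneg (convex_Icc _ _)
      (fun s hs => (hder s hs).continuousWithinAt)
      (f' := fun x => qf (fld M (K * K - W x) (Y x)) b + (3 + C1)) ?_ ?_
    · intro s hs
      exact (hder s (interior_subset hs)).mono interior_subset
    · intro x hx
      have hx' := interior_subset hx
      unfold fld
      rw [qf_smul, qf_sub, qf_sub, qf_mul_self_of_eigen hb hKb]
      have h1 : qf (W x) b ≤ C1 := by
        have := (abs_le.1 (abs_qf_le (W x) b)).2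
        rw [hb] at this
        have := hW x hx'
        linarith
      have h2 : qf (Y x * Y x) b ≤ ‖Y x‖ ^ 2 := by
        have h3 := (abs_le.1 (abs_qf_le (Y x * Y x) b)).2
        rw [hb] at h3
        have h4 := norm_mul_le (Y x) (Y x)
        nlinarith
      by_cases h : M + 1 / M ≤ ‖Y x‖
      · rw [cutf_eq_zero hM0 h]; linarith
      · push Not at h
        have h5 : ‖Y x‖ ^ 2 ≤ M ^ 2 + 3 := by
          have h6 : 1 / M ≤ 1 := by rw [div_le_one hM0]; exact hM
          have h7 : M * (1 / M) = 1 := mul_one_div_cancel hM0.ne'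
          have h8 : 0 < 1 / M := by positivity
          nlinarith [norm_nonneg (Y x)]
        have c1 := cutf_le_one M ‖Y x‖
        have c2 := cutf_nonneg M ‖Y x‖
        nlinarith
  have h := hmono (left_mem_Icc.2 (by linarith)) (right_mem_Icc.2 (by linarith)) (by linarith : -R ≤ R)
  simp only [hY0] at h
  have hK : qf K b = M := by
    unfold qf
    rw [hKb, inner_smul_right, real_inner_self_eq_norm_sq, hb]
    ring
  rw [hK] at h
  linarith

/-- A bottom eigenvector direction forces the potential to be small. -/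
theorem bot_bound {R k0 : ℝ} {K : Mat N} {W : ℝ → Mat N}
    (hWc : ContinuousOn W (Icc (-R) R)) {Y : ℝ → Mat N}
    (hY : ∀ x ∈ Icc (-R) R, HasDerivWithinAt Y (K * K - Y x * Y x - W x) (Icc (-R) R) x ∧
      (K - Y x).PosSemidef ∧ (K + Y x).PosSemidef)
    (hK : K.IsHermitian)
    {b : EV N} (hb : ‖b‖ = 1) (hKb : act N K b = k0 • b) {a : ℝ} (ha : a ∈ Ioc 0 R) :
    ∫ x in (-a)..a, qf (W x) b ≤ 2 * k0 + 2 * a * k0 ^ 2 := by
  have hsub : Icc (-a) a ⊆ Icc (-R) R := Icc_subset_Icc (by linarith [ha.2]) ha.2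
  have haa : -a ≤ a := by linarith [ha.1]
  have hqW : ContinuousOn (fun x => qf (W x) b) (Icc (-a) a) :=
    (continuous_qf b).comp_continuousOn (hWc.mono hsub)
  have h1 := intervalIntegral.sub_le_integral_of_hasDeriv_right_of_le haa
    (g := fun x => qf (Y x) b) (g' := fun x => qf (K * K - Y x * Y x - W x) b)
    (φ := fun x => k0 ^ 2 - qf (W x) b)
    (fun x hx => (hasDeriv_qf b ((hY x (hsub hx)).1.mono hsub)).continuousWithinAt)
    (fun x hx => by
      have h2 := hasDeriv_qf b ((hY x (hsub (Ioo_subset_Icc_self hx))).1.mono hsub)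
      exact (hasDerivWithinAt_Ici_of_Icc (Ioo_subset_Ico_self hx) h2).mono Ioi_subset_Ici_self)
    ((continuousOn_const.sub hqW).integrableOn_Icc)
    (fun x hx => by
      have hx' := hsub (Ioo_subset_Icc_self hx)
      have hYh : (Y x).IsHermitian := by
        have := (hY x hx').2.2.1.sub hK
        simpa using this
      have h3 : 0 ≤ qf (Y x * Y x) b := by
        unfold qf
        rw [act_mul, ← act_symm hYh]
        exact real_inner_self_nonneg
      rw [qf_sub, qf_sub, qf_mul_self_of_eigen hb hKb]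
      linarith)
  rw [intervalIntegral.integral_sub (by simp) ((hqW.mono (by rw [uIcc_of_le haa])).intervalIntegrable)]
    at h1
  simp only [intervalIntegral.integral_const, smul_eq_mul] at h1
  have hKq : qf K b = k0 := by
    unfold qf
    rw [hKb, inner_smul_right, real_inner_self_eq_norm_sq, hb]
    ring
  have h4 := (posSemidef_iff_qf.1 (hY a (hsub (right_mem_Icc.2 haa))).2.2).2 b
  have h5 := (posSemidef_iff_qf.1 (hY (-a) (hsub (left_mem_Icc.2 haa))).2.1).2 b
  rw [qf_add] at h4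
  rw [qf_sub] at h5
  linarith

theorem fld_flow_cont {P : Type*} [TopologicalSpace P] {R M B : ℝ} (hRR : -R ≤ R) (hM0 : 0 < M)
    (Q : P → ℝ → Mat N) (hQc : Continuous fun p : P × Icc (-R) R => Q p.1 p.2)
    (hQ : ∀ p, ∀ x ∈ Icc (-R) R, ‖Q p x‖ ≤ B) (x0 : P → Mat N) (hx0 : Continuous x0)
    (Y : P → ℝ → Mat N) (hY0 : ∀ p, Y p (-R) = x0 p)
    (hY : ∀ p, ∀ x ∈ Icc (-R) R, HasDerivWithinAt (Y p) (fld M (Q p x) (Y p x)) (Icc (-R) R) x) :
    Continuous fun p => Y p R := by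
  rcases isEmpty_or_nonempty P with hP | ⟨⟨p0⟩⟩
  · exact continuous_of_discreteTopology
  have hB : 0 ≤ B := (norm_nonneg _).trans (hQ p0 R (right_mem_Icc.2 hRR))
  let Q' : C(P × Icc (-R) R, Mat N) := ⟨fun p => Q p.1 p.2, hQc⟩
  let F : C(P, C(Icc (-R) R, Mat N)) := Q'.curry
  have hF : ∀ p (x : Icc (-R) R), F p x = Q p x := fun p x => rfl
  set L : ℝ≥0 := ⟨M * (B + (M + 1 / M) ^ 2) + 2 * (M + 1 / M), by positivity⟩ with hL
  have := flow_continuousOn (S := (univ : Set P)) (f := fun p x Z => fld M (Q p x) Z) hRR (L := L)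
    (x0 := x0)
    (fun p _ x hx => LipschitzWith.of_dist_le_mul fun Y Z => by
      rw [dist_eq_norm, dist_eq_norm]; exact fld_lip hM0 (hQ p x hx) Y Z)
    (fun p q => ‖F q - F p‖)
    (fun p _ q _ x hx Z => by
      have e : fld M (Q q x) Z - fld M (Q p x) Z = cutf M ‖Z‖ • ((F q - F p) ⟨x, hx⟩) := by
        rw [ContinuousMap.sub_apply, hF, hF]
        simp only [fld]
        rw [← smul_sub]
        congr 1
        abel
      rw [e, norm_smul, Real.norm_of_nonneg (cutf_nonneg _ _)]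
      have h1 := ContinuousMap.norm_coe_le_norm (F q - F p) ⟨x, hx⟩
      have h2 := cutf_le_one M ‖Z‖
      have h3 := cutf_nonneg M ‖Z‖
      nlinarith [norm_nonneg ((F q - F p) ⟨x, hx⟩)])
    (fun p _ => by
      have h1 : Tendsto (fun q => F q - F p) (𝓝[univ] p) (𝓝 (F p - F p)) :=
        ((F.continuous.tendsto p).mono_left nhdsWithin_le_nhds).sub tendsto_const_nhds
      rw [sub_self] at h1
      simpa using h1.norm)
    hx0.continuousOn (α := Y) (fun p _ => hY0 p) (fun p _ x hx => hY p x hx)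
  exact continuousOn_univ.1 this

theorem exists_path {R k0 C1 : ℝ} (hR : 0 < R) (hk0 : 0 < k0) (W : Mat N → ℝ → Mat N)
    (hW : ContinuousOn (fun p : Mat N × ℝ => W p.1 p.2) (adm N k0 ×ˢ Icc (-R) R))
    (hpsd : ∀ K ∈ adm N k0, ∀ x ∈ Icc (-R) R, (W K x).PosSemidef)
    (hC1 : ∀ K ∈ adm N k0, ∀ x ∈ Icc (-R) R, ‖W K x‖ ≤ C1)
    (hlow : ∀ K ∈ adm N k0, ∀ b : EV N, ‖b‖ = 1 → act N K b = k0 • b →
      ∃ a ∈ Ioc 0 R, 2 * k0 + 2 * a * k0 ^ 2 < ∫ x in (-a)..a, qf (W K x) b) :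
    ∃ K ∈ adm N k0, ∃ Y : ℝ → Mat N, Y (-R) = K ∧ Y R = -K ∧
      ∀ x ∈ Icc (-R) R, HasDerivWithinAt Y (K * K - Y x * Y x - W K x) (Icc (-R) R) x ∧
        (K - Y x).PosSemidef ∧ (K + Y x).PosSemidef := by
  set C := max C1 0 with hC
  have hC0 : 0 ≤ C := le_max_right _ _
  set M := 1 + k0 + R * (3 + C) with hMdef
  have hRC : 0 ≤ R * (3 + C) := by positivity
  have hM1 : 1 ≤ M := by linarith
  have hM0 : 0 < M := by linarith
  have hkM : k0 < M := by linarith
  have hbox : ∀ K ∈ box N k0 M, K ∈ adm N k0 := fun K hK => ⟨hK.1, hK.2.1⟩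
  have hWC : ∀ K ∈ box N k0 M, ∀ x ∈ Icc (-R) R, ‖W K x‖ ≤ C := fun K hK x hx =>
    (hC1 K (hbox K hK) x hx).trans (le_max_left _ _)
  have hQ : ∀ K ∈ box N k0 M, ∀ x ∈ Icc (-R) R, ‖K * K - W K x‖ ≤ M ^ 2 + C := by
    intro K hK x hx
    refine (norm_sub_le _ _).trans (add_le_add ?_ (hWC K hK x hx))
    have h1 := box_norm hk0.le hM0.le hK
    refine (norm_mul_le _ _).trans ?_
    nlinarith [norm_nonneg K]
  have hRR : -R ≤ R := by linarith
  set L : ℝ≥0 := ⟨M * (M ^ 2 + C + (M + 1 / M) ^ 2) + 2 * (M + 1 / M), by positivity⟩ with hL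
  have hWcx : ∀ K ∈ adm N k0, ContinuousOn (W K) (Icc (-R) R) := fun K hK =>
    hW.comp (f := fun x : ℝ => (K, x)) (by fun_prop) (fun x hx => ⟨hK, hx⟩)
  have hex : ∀ K ∈ box N k0 M, ∃ Y : ℝ → Mat N, Y (-R) = K ∧ ∀ x ∈ Icc (-R) R,
      HasDerivWithinAt Y (fld M (K * K - W K x) (Y x)) (Icc (-R) R) x := by
    intro K hK
    exact exists_flow (f := fun x Y => fld M (K * K - W K x) Y) (left_mem_Icc.2 hRR) (L := L)
      (C := ⟨M ^ 2 + C + (M + 1 / M) ^ 2, by positivity⟩)
      (fun x hx => LipschitzWith.of_dist_le_mul fun Y Z => by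
        rw [dist_eq_norm, dist_eq_norm]; exact fld_lip hM0 (hQ K hK x hx) Y Z)
      (fun Y => by
        have h1 : ContinuousOn (fun x => K * K - W K x - Y * Y) (Icc (-R) R) :=
          (continuousOn_const.sub (hWcx K (hbox K hK))).sub continuousOn_const
        exact h1.const_smul (cutf M ‖Y‖))
      (fun x hx Y => fld_norm hM0 (hQ K hK x hx) Y) K
  choose Y hY0 hY using hex
  -- continuity in the parameter
  have hcont : Continuous fun K : box N k0 M => Y K.1 K.2 R :=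
    fld_flow_cont hRR hM0 (fun (K : box N k0 M) (x : ℝ) => (K : Mat N) * (K : Mat N) - W (K : Mat N) x)
      (by
        refine Continuous.sub (by fun_prop) ?_
        exact hW.comp_continuous (f := fun p : box N k0 M × Icc (-R) R => ((p.1 : Mat N), (p.2 : ℝ)))
          (by fun_prop) (fun p => ⟨hbox _ p.1.2, p.2.2⟩))
      (fun K x hx => hQ K K.2 x hx) (fun K => (K : Mat N)) continuous_subtype_val
      (fun K => Y K.1 K.2) (fun K => hY0 K.1 K.2) (fun K => hY K.1 K.2)
  classical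
  obtain ⟨K, hK, hJK⟩ := box_VI hk0.le hkM
    (fun K => if h : K ∈ box N k0 M then Y K h R + K else 0)
    (by
      rw [continuousOn_iff_continuous_domRestrict]
      have : (box N k0 M).domRestrict (fun K => if h : K ∈ box N k0 M then Y K h R + K else 0) =
          fun K : box N k0 M => Y K.1 K.2 R + K.1 := by
        funext K
        simp [Set.domRestrict]
      rw [this]
      exact hcont.add continuous_subtype_val)
    (fun K hK => by
      simp only [hK, dif_pos]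
      have h1 := hermitian_of_ode hM0 (hQ K hK) (fun x hx => by
        have e : Kᴴ = K := hK.1
        refine Matrix.IsHermitian.sub ?_ (hpsd K (hbox K hK) x hx).1
        unfold Matrix.IsHermitian
        rw [Matrix.conjTranspose_mul, e]) (by rw [hY0 K hK]; exact hK.1) (hY K hK) R
        (right_mem_Icc.2 hRR)
      exact h1.add hK.1)
    (fun K hK b hb hKb => by
      simp only [hK, dif_pos]
      have h1 := top_bound hR hM1 hC0 (hWC K hK) (hY0 K hK) (hY K hK) hb hKb
      have h2 : qf K b = M := by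
        unfold qf
        rw [hKb, inner_smul_right, real_inner_self_eq_norm_sq, hb]
        ring
      rw [qf_add, h2]
      nlinarith)
    (fun K hK hJ b hb hKb => by
      simp only [hK, dif_pos] at hJ
      have h1 := riccati_of_end hM0 hK (hpsd K (hbox K hK)) (hQ K hK) (hY0 K hK)
        (hY K hK) hJ
      obtain ⟨a, ha, h2⟩ := hlow K (hbox K hK) b hb hKb
      have h3 := bot_bound (hWcx K (hbox K hK)) h1 hK.1 hb hKb ha
      linarith)
  simp only [hK, dif_pos] at hJK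
  refine ⟨K, hbox K hK, Y K hK, hY0 K hK, eq_neg_of_add_eq_zero_left hJK, ?_⟩
  exact riccati_of_end hM0 hK (hpsd K (hbox K hK)) (hQ K hK) (hY0 K hK)
    (hY K hK) (fun v => by rw [hJK]; simp)

end Vale.Agent.P371.Full
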