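import Vale.Agent.P371.Full.Base
import Vale.Agent.P371.Full.ExMain

/-!
# P371 (full): existence of a full kernel
-/

open scoped Matrix.Norms.L2Operator ComplexOrder ENNReal
open Matrix MeasureTheory Set Filter Topology

namespace Vale.Agent.P371.Full

variable {N m : ℕ}

/-- (EX): existence of a full kernel (for the potential `𝓦 + ε`). -/
theorem exists_full_kernel {R w ε : ℝ} (hR : 0 < R) (hw : 0 ≤ w) (hε : 0 < ε)
    (𝓦 : Mat N → ℝ → Mat N)
    (hc : ContinuousOn (fun p : Mat N × ℝ => 𝓦 p.1 p.2) ({E | E.IsHermitian} ×ˢ univ))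
    (hpsd : ∀ E : Mat N, E.IsHermitian → ∀ x, (𝓦 E x).PosSemidef)
    (hle : ∀ E : Mat N, E.IsHermitian → ∀ x, ‖𝓦 E x‖ ≤ w) :
    ∃ (K : Mat N) (Y : ℝ → Mat N), K.PosSemidef ∧ (∀ x ∈ Icc (-R) R, (Y x).IsHermitian) ∧
      (∀ x ∈ Icc (-R) R, (K + Y x).PosSemidef) ∧ (∀ x ∈ Icc (-R) R, (K - Y x).PosSemidef) ∧
      (∀ x ∈ Icc (-R) R, HasDerivWithinAt Y
        (K * K - Y x * Y x - (𝓦 (K * K) x + ε • (1 : Mat N))) (Icc (-R) R) x) ∧
      Y (-R) = K ∧ Y R = -K := by
  have hsq : ∀ K : Mat N, K.IsHermitian → (K * K).IsHermitian := fun K hK => by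
    unfold Matrix.IsHermitian at *
    rw [Matrix.conjTranspose_mul, hK]
  -- choice of `k0`
  obtain ⟨k0, hk0, hk1, hk2⟩ : ∃ k0 : ℝ, 0 < k0 ∧ k0 ≤ 1 ∧ k0 * (2 + 2 * R) < 2 * R * ε := by
    refine ⟨min 1 (R * ε / (2 + 2 * R)), lt_min one_pos (by positivity), min_le_left _ _, ?_⟩
    have h1 : min 1 (R * ε / (2 + 2 * R)) * (2 + 2 * R) ≤ R * ε / (2 + 2 * R) * (2 + 2 * R) :=
      mul_le_mul_of_nonneg_right (min_le_right _ _) (by positivity)
    rw [div_mul_cancel₀ _ (by positivity)] at h1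
    nlinarith [mul_pos hR hε]
  have hone : ‖(ε • (1 : Mat N))‖ ≤ ε := by
    refine norm_le_of_qf (isHermitian_smul_real Matrix.isHermitian_one ε) hε.le fun v => ?_
    rw [qf_smul, qf_one, abs_of_nonneg (by positivity)]
  have hW : ContinuousOn (fun p : Mat N × ℝ => 𝓦 (p.1 * p.1) p.2 + ε • (1 : Mat N))
      (adm N k0 ×ˢ Icc (-R) R) := by
    refine ContinuousOn.add ?_ continuousOn_const
    have hmap : MapsTo (fun p : Mat N × ℝ => ((p.1 * p.1, p.2) : Mat N × ℝ))
        (adm N k0 ×ˢ Icc (-R) R) ({E | E.IsHermitian} ×ˢ univ) := by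
      rintro ⟨K, x⟩ ⟨hK, -⟩
      exact ⟨hsq K hK.1, mem_univ _⟩
    have hcont : ContinuousOn (fun p : Mat N × ℝ => ((p.1 * p.1, p.2) : Mat N × ℝ))
        (adm N k0 ×ˢ Icc (-R) R) := by
      apply Continuous.continuousOn
      fun_prop
    exact hc.comp hcont hmap
  have hpsd' : ∀ K ∈ adm N k0, ∀ x ∈ Icc (-R) R, (𝓦 (K * K) x + ε • (1 : Mat N)).PosSemidef := by
    intro K hK x _
    rw [posSemidef_iff_qf]
    have h1 := posSemidef_iff_qf.1 (hpsd (K * K) (hsq K hK.1) x)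
    refine ⟨h1.1.add (isHermitian_smul_real Matrix.isHermitian_one ε), fun v => ?_⟩
    rw [qf_add, qf_smul, qf_one]
    have := h1.2 v
    positivity
  obtain ⟨K, hK, Y, h1, h2, h3⟩ := exists_path hR hk0
    (fun K x => 𝓦 (K * K) x + ε • (1 : Mat N)) hW hpsd' (C1 := w + ε)
    (fun K hK x _ => (norm_add_le _ _).trans (add_le_add (hle _ (hsq K hK.1) x) hone))
    (by
      intro K hK b hb _
      refine ⟨R, ⟨hR, le_rfl⟩, ?_⟩
      have hcont : ContinuousOn (fun x => qf (𝓦 (K * K) x + ε • (1 : Mat N)) b) (Icc (-R) R) := by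
        have hc1 : ContinuousOn (fun x : ℝ => 𝓦 (K * K) x + ε • (1 : Mat N)) (Icc (-R) R) := by
          have := hW.comp (f := fun x : ℝ => ((K, x) : Mat N × ℝ)) (s := Icc (-R) R)
            (by apply Continuous.continuousOn; fun_prop) (fun x hx => ⟨hK, hx⟩)
          exact this
        exact (continuous_qf b).comp_continuousOn hc1
      have hint : IntervalIntegrable (fun x => qf (𝓦 (K * K) x + ε • (1 : Mat N)) b)
          volume (-R) R := by
        apply ContinuousOn.intervalIntegrable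
        rwa [uIcc_of_le (by linarith)]
      have hle' : ∫ x in (-R)..R, ε ≤ ∫ x in (-R)..R, qf (𝓦 (K * K) x + ε • (1 : Mat N)) b := by
        refine intervalIntegral.integral_mono_on (by linarith) intervalIntegrable_const hint ?_
        intro x _
        rw [qf_add, qf_smul, qf_one, hb]
        have := (posSemidef_iff_qf.1 (hpsd (K * K) (hsq K hK.1) x)).2 b
        linarith
      rw [intervalIntegral.integral_const, smul_eq_mul] at hle'
      have : k0 ^ 2 ≤ k0 := by nlinarith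
      nlinarith)
  have hKp : K.PosSemidef := by
    rw [posSemidef_iff_qf]
    refine ⟨hK.1, fun v => le_trans (by positivity) (hK.2 v)⟩
  refine ⟨K, Y, hKp, fun x hx => ?_, fun x hx => (h3 x hx).2.2, fun x hx => (h3 x hx).2.1,
    fun x hx => (h3 x hx).1, h1, h2⟩
  have := (h3 x hx).2.2.1.sub hK.1
  simpa using this

end Vale.Agent.P371.Full
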