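import Vale.Agent.P371.Full.TraceConv

/-!
# P371 (full): derivative of G along a path
-/

open scoped Matrix.Norms.L2Operator ComplexOrder
open Matrix MeasureTheory Set Filter Topology

namespace Vale.Agent.P371.Full

variable {N : ℕ}

lemma pd_continuous_eta : Continuous eta := Real.continuous_mul_log.sub continuous_id

lemma pd_contOn_eta {X : Type*} [TopologicalSpace X] {a : X → Mat N} {s : Set X}
    (ha : ContinuousOn a s) (hh : ∀ x ∈ s, (a x).IsHermitian) :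
    ContinuousOn (fun x => cfc eta (a x)) s :=
  ha.cfc_of_mem_nhdsSet eta (s := univ) (by simp) (fun x hx => hh x hx)
    pd_continuous_eta.continuousOn

lemma pd_contOn_mlog_base :
    ContinuousOn (fun X : Mat N => mlog X) {a : Mat N | IsSelfAdjoint a ∧ IsUnit a} :=
  CFC.continuousOn_log

lemma pd_mem {p : Mat N} (hp : p.PosDef) : p ∈ {a : Mat N | IsSelfAdjoint a ∧ IsUnit a} :=
  ⟨hp.isHermitian, hp.isUnit⟩

lemma pd_contOn_mlog {X : Type*} [TopologicalSpace X] {a : X → Mat N} {s : Set X}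
    (ha : ContinuousOn a s) (hh : ∀ x ∈ s, (a x).PosDef) :
    ContinuousOn (fun x => mlog (a x)) s :=
  pd_contOn_mlog_base.comp ha fun x hx => pd_mem (hh x hx)

lemma pd_continuous_Kt (e : Fin N → ℝ) : Continuous (fun t => Kt e t) := by
  unfold Kt dg
  fun_prop

lemma pd_abs_rtr_le (X : Mat N) : |rtr X| ≤ ‖rtrL N‖ * ‖X‖ := by
  have := (rtrL N).le_opNorm X
  rwa [rtrL_apply, Real.norm_eq_abs] at this

lemma pd_abs_rtr_mul_le (X Y : Mat N) : |rtr (X * Y)| ≤ ‖rtrL N‖ * (‖X‖ * ‖Y‖) :=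
  (pd_abs_rtr_le _).trans (mul_le_mul_of_nonneg_left (norm_mul_le _ _) (norm_nonneg _))

lemma pd_spec_pos {p : Mat N} (hp : p.PosDef) {x : ℝ} (hx : x ∈ spectrum ℝ p) : 0 < x := by
  rw [hp.isHermitian.spectrum_real_eq_range_eigenvalues] at hx
  obtain ⟨i, rfl⟩ := hx
  exact hp.eigenvalues_pos i

lemma pd_klein_eta {p1 p2 : Mat N} (h1 : p1.PosDef) (h2 : p2.PosDef) :
    rtr (mlog p1 * (p2 - p1)) ≤ rtr (cfc eta p2) - rtr (cfc eta p1) := by
  have h := klein (f := eta) (f' := Real.log) h1.isHermitian h2.isHermitian (by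
    intro x hx y hy
    have hx0 := pd_spec_pos h1 hx
    have hy0 := pd_spec_pos h2 hy
    unfold eta
    have h3 := Real.log_le_sub_one_of_pos (div_pos hx0 hy0)
    rw [Real.log_div hx0.ne' hy0.ne'] at h3
    have h4 : y * (Real.log x - Real.log y) ≤ y * (x / y - 1) :=
      mul_le_mul_of_nonneg_left h3 hy0.le
    have h5 : y * (x / y - 1) = x - y := by field_simp
    rw [h5] at h4
    nlinarith)
  unfold mlog
  linarith

lemma pd_sf_bound {e : Fin N → ℝ} {Y1 Y2 : Mat N} (h1 : Adm e Y1) (h2 : Adm e Y2) {t : ℝ}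
    (ht : 0 < t) :
    |sf e t Y2 - sf e t Y1 - rtr (Ht e t Y1 * (Y2 - Y1))| ≤ ‖rtrL N‖ * ‖Y2 - Y1‖ *
      (‖mlog (Kt e t + Y2) - mlog (Kt e t + Y1)‖ + ‖mlog (Kt e t - Y2) - mlog (Kt e t - Y1)‖) := by
  set Δ := Y2 - Y1 with hΔ
  have hp1 := h1.posDef_add ht
  have hp2 := h2.posDef_add ht
  have hq1 := h1.posDef_sub ht
  have hq2 := h2.posDef_sub ht
  have e1 : Kt e t + Y2 - (Kt e t + Y1) = Δ := by rw [hΔ]; abel
  have e2 : Kt e t + Y1 - (Kt e t + Y2) = -Δ := by rw [hΔ]; abel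
  have e3 : Kt e t - Y2 - (Kt e t - Y1) = -Δ := by rw [hΔ]; abel
  have e4 : Kt e t - Y1 - (Kt e t - Y2) = Δ := by rw [hΔ]; abel
  have k1 := pd_klein_eta hp1 hp2
  have k2 := pd_klein_eta hp2 hp1
  have k3 := pd_klein_eta hq1 hq2
  have k4 := pd_klein_eta hq2 hq1
  rw [e1] at k1
  rw [e2, mul_neg, rtr_neg] at k2
  rw [e3, mul_neg, rtr_neg] at k3
  rw [e4] at k4
  have hH : rtr (Ht e t Y1 * Δ) = rtr (mlog (Kt e t + Y1) * Δ) + rtr (mlog (Kt e t - Y1) * Δ) -
      Real.log t * rtr Δ := by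
    unfold Ht
    rw [sub_mul, add_mul, rtr_sub, rtr_add, smul_mul_assoc, one_mul, rtr_smul]
  have hrΔ : rtr Y2 - rtr Y1 = rtr Δ := by rw [hΔ, rtr_sub]
  have b1 := pd_abs_rtr_mul_le (mlog (Kt e t + Y2) - mlog (Kt e t + Y1)) Δ
  have b2 := pd_abs_rtr_mul_le (mlog (Kt e t - Y2) - mlog (Kt e t - Y1)) Δ
  rw [sub_mul, rtr_sub] at b1 b2
  have c1 := le_abs_self (rtr (mlog (Kt e t + Y2) * Δ) - rtr (mlog (Kt e t + Y1) * Δ))
  have c2 := neg_abs_le (rtr (mlog (Kt e t - Y2) * Δ) - rtr (mlog (Kt e t - Y1) * Δ))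
  have c3 := abs_nonneg (rtr (mlog (Kt e t + Y2) * Δ) - rtr (mlog (Kt e t + Y1) * Δ))
  have c4 := abs_nonneg (rtr (mlog (Kt e t - Y2) * Δ) - rtr (mlog (Kt e t - Y1) * Δ))
  have hfin : ‖rtrL N‖ * ‖Δ‖ *
      (‖mlog (Kt e t + Y2) - mlog (Kt e t + Y1)‖ + ‖mlog (Kt e t - Y2) - mlog (Kt e t - Y1)‖) =
      ‖rtrL N‖ * (‖mlog (Kt e t + Y2) - mlog (Kt e t + Y1)‖ * ‖Δ‖) +
      ‖rtrL N‖ * (‖mlog (Kt e t - Y2) - mlog (Kt e t - Y1)‖ * ‖Δ‖) := by ring
  rw [hfin, hH, abs_le]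
  unfold sf
  have hlog : Real.log t * rtr Δ = Real.log t * rtr Y2 - Real.log t * rtr Y1 := by
    rw [← hrΔ]; ring
  rw [hlog]
  constructor <;> linarith

lemma pd_contOn_sf {e : Fin N → ℝ} {Y : Mat N} (h : Adm e Y) :
    ContinuousOn (fun t => sf e t Y) (Ioi 0) := by
  unfold sf
  have hK := (pd_continuous_Kt e).continuousOn (s := Ioi (0 : ℝ))
  have h1 : ContinuousOn (fun t => cfc eta (Kt e t + Y)) (Ioi 0) :=
    pd_contOn_eta (hK.add continuousOn_const) fun t ht => (h.posDef_add ht).isHermitian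
  have h2 : ContinuousOn (fun t => cfc eta (Kt e t - Y)) (Ioi 0) :=
    pd_contOn_eta (hK.sub continuousOn_const) fun t ht => (h.posDef_sub ht).isHermitian
  have h3 : ContinuousOn (fun t : ℝ => Real.log t * rtr Y) (Ioi 0) := by
    apply ContinuousOn.mul _ continuousOn_const
    intro t ht
    exact (Real.continuousAt_log (ne_of_gt ht)).continuousWithinAt
  exact ((continuous_rtr.comp_continuousOn h1).sub (continuous_rtr.comp_continuousOn h2)).sub h3

lemma pd_contOn_Ht {e : Fin N → ℝ} {Y : Mat N} (h : Adm e Y) :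
    ContinuousOn (fun t => Ht e t Y) (Ioi 0) := by
  unfold Ht
  have hK := (pd_continuous_Kt e).continuousOn (s := Ioi (0 : ℝ))
  have h1 : ContinuousOn (fun t => mlog (Kt e t + Y)) (Ioi 0) :=
    pd_contOn_mlog (hK.add continuousOn_const) fun t ht => h.posDef_add ht
  have h2 : ContinuousOn (fun t => mlog (Kt e t - Y)) (Ioi 0) :=
    pd_contOn_mlog (hK.sub continuousOn_const) fun t ht => h.posDef_sub ht
  have hl : ContinuousOn Real.log (Ioi 0) := fun t ht =>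
    (Real.continuousAt_log (ne_of_gt ht)).continuousWithinAt
  have h3 : ContinuousOn (fun t : ℝ => Real.log t • (1 : Mat N)) (Ioi 0) :=
    hl.fun_smul continuousOn_const
  exact (h1.add h2).sub h3

lemma pd_contOn_rpow (ν : ℝ) : ContinuousOn (fun t : ℝ => t ^ (ν - 1)) (Ioi 0) := by
  intro t ht
  exact (Real.continuousAt_rpow_const t (ν - 1) (Or.inl (ne_of_gt ht))).continuousWithinAt

lemma pd_uIcc_sub {ε T : ℝ} (hε : 0 < ε) (hT : ε < T) : uIcc ε T ⊆ Ioi 0 := by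
  rw [uIcc_of_le hT.le]
  intro t ht
  exact lt_of_lt_of_le hε ht.1

lemma pd_int_sf {ν ε T : ℝ} (hε : 0 < ε) (hT : ε < T) {e : Fin N → ℝ} {Y : Mat N}
    (h : Adm e Y) : IntervalIntegrable (fun t => t ^ (ν - 1) * sf e t Y) volume ε T :=
  (((pd_contOn_rpow ν).mul (pd_contOn_sf h)).mono (pd_uIcc_sub hε hT)).intervalIntegrable

lemma pd_int_Ht {ν ε T : ℝ} (hε : 0 < ε) (hT : ε < T) {e : Fin N → ℝ} {Y : Mat N}
    (h : Adm e Y) (Δ : Mat N) :
    IntervalIntegrable (fun t => t ^ (ν - 1) * rtr (Ht e t Y * Δ)) volume ε T :=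
  (((pd_contOn_rpow ν).mul (continuous_rtr.comp_continuousOn
    ((pd_contOn_Ht h).mul continuousOn_const))).mono (pd_uIcc_sub hε hT)).intervalIntegrable

/-- the derivative functional -/
noncomputable def pdL {ν ε T : ℝ} (hε : 0 < ε) (hT : ε < T) {e : Fin N → ℝ} {Y : Mat N}
    (h : Adm e Y) : Mat N →L[ℝ] ℝ :=
  LinearMap.toContinuousLinearMap
    { toFun := fun Δ => ∫ t in ε..T, t ^ (ν - 1) * rtr (Ht e t Y * Δ)
      map_add' := by
        intro Δ Δ'
        rw [← intervalIntegral.integral_add (pd_int_Ht hε hT h Δ) (pd_int_Ht hε hT h Δ')]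
        congr 1
        funext t
        rw [mul_add, rtr_add, mul_add]
      map_smul' := by
        intro c Δ
        rw [RingHom.id_apply, smul_eq_mul, ← intervalIntegral.integral_const_mul]
        congr 1
        funext t
        rw [mul_smul_comm, rtr_smul]
        ring }

lemma pdL_apply {ν ε T : ℝ} (hε : 0 < ε) (hT : ε < T) {e : Fin N → ℝ} {Y : Mat N}
    (h : Adm e Y) (Δ : Mat N) :
    pdL (ν := ν) hε hT h Δ = ∫ t in ε..T, t ^ (ν - 1) * rtr (Ht e t Y * Δ) := rfl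

/-- local uniformity of the logarithms -/
lemma pd_unif {ε T : ℝ} (hε : 0 < ε) {e : Fin N → ℝ} {Y1 : Mat N} (h1 : Adm e Y1)
    {δ : ℝ} (hδ : 0 < δ) :
    ∀ᶠ Y in 𝓝 Y1, ∀ t ∈ Icc ε T, Adm e Y →
      ‖mlog (Kt e t + Y) - mlog (Kt e t + Y1)‖ ≤ δ ∧
      ‖mlog (Kt e t - Y) - mlog (Kt e t - Y1)‖ ≤ δ := by
  have h := IsCompact.eventually_forall_of_forall_eventually (x₀ := Y1)
    (isCompact_Icc (a := ε) (b := T)) (P := fun Y t => 0 < t → Adm e Y →
      ‖mlog (Kt e t + Y) - mlog (Kt e t + Y1)‖ ≤ δ ∧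
      ‖mlog (Kt e t - Y) - mlog (Kt e t - Y1)‖ ≤ δ) ?_
  · filter_upwards [h] with Y hY t ht hA
    exact hY t ht (lt_of_lt_of_le hε ht.1) hA
  · intro t0 ht0
    have ht0' : 0 < t0 := lt_of_lt_of_le hε ht0.1
    -- closeness of the log near a positive definite matrix
    have key : ∀ p0 : Mat N, p0.PosDef → ∀ᶠ p in 𝓝 p0, p.PosDef → ‖mlog p - mlog p0‖ ≤ δ / 2 := by
      intro p0 hp0
      have h2 : ContinuousWithinAt (fun X : Mat N => mlog X)
          {a : Mat N | IsSelfAdjoint a ∧ IsUnit a} p0 := pd_contOn_mlog_base p0 (pd_mem hp0)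
      have h3 := (Metric.tendsto_nhds.mp h2.tendsto) (δ / 2) (by positivity)
      rw [eventually_nhdsWithin_iff] at h3
      filter_upwards [h3] with p hp hpd
      have := hp (pd_mem hpd)
      rw [dist_eq_norm] at this
      exact this.le
    have hKc := pd_continuous_Kt e
    have c1 : Tendsto (fun z : Mat N × ℝ => Kt e z.2 + z.1) (𝓝 (Y1, t0)) (𝓝 (Kt e t0 + Y1)) := by
      have : Continuous (fun z : Mat N × ℝ => Kt e z.2 + z.1) :=
        (hKc.comp continuous_snd).add continuous_fst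
      exact this.tendsto (Y1, t0)
    have c2 : Tendsto (fun z : Mat N × ℝ => Kt e z.2 + Y1) (𝓝 (Y1, t0)) (𝓝 (Kt e t0 + Y1)) := by
      have : Continuous (fun z : Mat N × ℝ => Kt e z.2 + Y1) :=
        (hKc.comp continuous_snd).add continuous_const
      exact this.tendsto (Y1, t0)
    have c3 : Tendsto (fun z : Mat N × ℝ => Kt e z.2 - z.1) (𝓝 (Y1, t0)) (𝓝 (Kt e t0 - Y1)) := by
      have : Continuous (fun z : Mat N × ℝ => Kt e z.2 - z.1) :=
        (hKc.comp continuous_snd).sub continuous_fst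
      exact this.tendsto (Y1, t0)
    have c4 : Tendsto (fun z : Mat N × ℝ => Kt e z.2 - Y1) (𝓝 (Y1, t0)) (𝓝 (Kt e t0 - Y1)) := by
      have : Continuous (fun z : Mat N × ℝ => Kt e z.2 - Y1) :=
        (hKc.comp continuous_snd).sub continuous_const
      exact this.tendsto (Y1, t0)
    have k1 := key _ (h1.posDef_add ht0')
    have k2 := key _ (h1.posDef_sub ht0')
    filter_upwards [c1.eventually k1, c2.eventually k1, c3.eventually k2, c4.eventually k2]
      with z z1 z2 z3 z4 hz hA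
    have d1 := z1 (hA.posDef_add hz)
    have d2 := z2 (h1.posDef_add hz)
    have d3 := z3 (hA.posDef_sub hz)
    have d4 := z4 (h1.posDef_sub hz)
    constructor
    · have := norm_sub_le (mlog (Kt e z.2 + z.1) - mlog (Kt e t0 + Y1))
        (mlog (Kt e z.2 + Y1) - mlog (Kt e t0 + Y1))
      rw [sub_sub_sub_cancel_right] at this
      linarith
    · have := norm_sub_le (mlog (Kt e z.2 - z.1) - mlog (Kt e t0 - Y1))
        (mlog (Kt e z.2 - Y1) - mlog (Kt e t0 - Y1))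
      rw [sub_sub_sub_cancel_right] at this
      linarith

lemma pd_hasFDeriv {ν ε T : ℝ} (hε : 0 < ε) (hT : ε < T) {e : Fin N → ℝ} {Y1 : Mat N}
    (h1 : Adm e Y1) :
    HasFDerivWithinAt (Gf e ν ε T) (pdL (ν := ν) hε hT h1) {Y | Adm e Y} Y1 := by
  rw [hasFDerivWithinAt_iff_isLittleO, Asymptotics.isLittleO_iff]
  intro c hc
  -- a bound for the weight
  obtain ⟨M, hM⟩ : ∃ M : ℝ, ∀ t ∈ Icc ε T, ‖t ^ (ν - 1)‖ ≤ M := by
    have hcont : ContinuousOn (fun t : ℝ => t ^ (ν - 1)) (Icc ε T) := by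
      apply (pd_contOn_rpow ν).mono
      intro t ht
      exact lt_of_lt_of_le hε ht.1
    exact isCompact_Icc.exists_bound_of_continuousOn hcont
  have hM0 : 0 ≤ M := (norm_nonneg _).trans (hM ε ⟨le_refl _, hT.le⟩)
  set C : ℝ := M * ‖rtrL N‖ * 2 * (T - ε) + 1 with hC
  have hTε : 0 < T - ε := by linarith
  have hC0 : 0 < C := by positivity
  have hδ : 0 < c / C := div_pos hc hC0
  have hU := pd_unif (T := T) hε h1 hδ
  rw [eventually_nhdsWithin_iff]
  filter_upwards [hU] with Y hY hA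
  have hsplit : Gf e ν ε T Y - Gf e ν ε T Y1 - (pdL (ν := ν) hε hT h1) (Y - Y1) =
      ∫ t in ε..T, t ^ (ν - 1) * (sf e t Y - sf e t Y1 - rtr (Ht e t Y1 * (Y - Y1))) := by
    rw [pdL_apply]
    unfold Gf
    rw [← intervalIntegral.integral_sub (pd_int_sf hε hT hA) (pd_int_sf hε hT h1),
      ← intervalIntegral.integral_sub ((pd_int_sf hε hT hA).sub (pd_int_sf hε hT h1))
        (pd_int_Ht hε hT h1 _)]
    congr 1
    funext t
    ring
  rw [hsplit]
  have hbd : ∀ t ∈ Set.uIoc ε T,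
      ‖t ^ (ν - 1) * (sf e t Y - sf e t Y1 - rtr (Ht e t Y1 * (Y - Y1)))‖ ≤
        M * (‖rtrL N‖ * ‖Y - Y1‖ * (2 * (c / C))) := by
    intro t ht
    rw [uIoc_of_le hT.le] at ht
    have ht' : t ∈ Icc ε T := ⟨ht.1.le, ht.2⟩
    have ht0 : 0 < t := lt_trans hε ht.1
    rw [norm_mul]
    apply mul_le_mul (hM t ht') _ (norm_nonneg _) hM0
    rw [Real.norm_eq_abs]
    refine (pd_sf_bound h1 hA ht0).trans ?_
    apply mul_le_mul_of_nonneg_left _ (by positivity)
    have := hY t ht' hA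
    linarith [this.1, this.2]
  refine (intervalIntegral.norm_integral_le_of_norm_le_const hbd).trans ?_
  rw [abs_of_pos hTε]
  have e5 : M * (‖rtrL N‖ * ‖Y - Y1‖ * (2 * (c / C))) * (T - ε) =
      (M * ‖rtrL N‖ * 2 * (T - ε)) / C * c * ‖Y - Y1‖ := by ring
  rw [e5]
  apply mul_le_mul_of_nonneg_right _ (norm_nonneg _)
  apply mul_le_of_le_one_left hc.le
  rw [div_le_one hC0, hC]
  linarith

/-- Derivative of `G` along a differentiable path. -/
theorem hasDerivWithinAt_Gf {ν ε T : ℝ} (hε : 0 < ε) (hT : ε < T) {e : Fin N → ℝ}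
    {Y : ℝ → Mat N} {Y' : Mat N} {a b x : ℝ} (hx : x ∈ Icc a b)
    (hA : ∀ y ∈ Icc a b, Adm e (Y y)) (hY : HasDerivWithinAt Y Y' (Icc a b) x) :
    HasDerivWithinAt (fun y => Gf e ν ε T (Y y))
      (∫ t in ε..T, t ^ (ν - 1) * rtr (Ht e t (Y x) * Y')) (Icc a b) x := by
  have h := (pd_hasFDeriv (ν := ν) hε hT (hA x hx)).comp_hasDerivWithinAt x hY
    (fun y hy => hA y hy)
  exact h

lemma pd_rtr_cfc_dg (v : Fin N → ℝ) (f : ℝ → ℝ) : rtr (cfc f (dg v)) = ∑ j, f (v j) := by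
  rw [rtr_cfc (isHermitian_dg v)]
  have h1 := (isHermitian_dg v).roots_charpoly_eq_eigenvalues
  have h2 : (dg v).charpoly.roots = Multiset.map (fun j => ((v j : ℝ) : ℂ)) Finset.univ.val := by
    unfold dg
    rw [Matrix.charpoly_diagonal, Polynomial.roots_prod]
    · simp
    · simp [Finset.prod_ne_zero_iff, Polynomial.X_sub_C_ne_zero]
  rw [h1] at h2
  have h3 := congrArg (Multiset.map fun z : ℂ => f z.re) h2
  rw [Multiset.map_map, Multiset.map_map] at h3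
  have h4 := congrArg Multiset.sum h3
  exact h4

lemma pd_Kt_add (e : Fin N → ℝ) (t : ℝ) :
    Kt e t + Kt e 0 = dg fun j => √(e j + t) + √(e j) := by
  unfold Kt dg
  rw [Matrix.diagonal_add]
  simp

lemma pd_Kt_sub (e : Fin N → ℝ) (t : ℝ) :
    Kt e t - Kt e 0 = dg fun j => √(e j + t) - √(e j) := by
  unfold Kt dg
  rw [Matrix.diagonal_sub]
  simp

lemma pd_rtr_dg (v : Fin N → ℝ) : rtr (dg v) = ∑ j, v j := by
  unfold rtr dg
  rw [Matrix.trace_diagonal]
  simp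

/-- Boundary value. -/
theorem sf_Kt {e : Fin N → ℝ} (he : ∀ j, 0 ≤ e j) {t : ℝ} (ht : 0 < t) :
    sf e t (Kt e 0) = ∑ j, sig t (e j) := by
  unfold sf
  rw [pd_Kt_add, pd_Kt_sub, pd_rtr_cfc_dg, pd_rtr_cfc_dg]
  have h1 : rtr (Kt e 0) = ∑ j, √(e j) := by
    unfold Kt
    rw [pd_rtr_dg]
    simp
  rw [h1, Finset.mul_sum, ← Finset.sum_sub_distrib, ← Finset.sum_sub_distrib]
  refine Finset.sum_congr rfl fun j _ => ?_
  unfold sig
  ring

theorem sf_neg (e : Fin N → ℝ) (t : ℝ) (Y : Mat N) : sf e t (-Y) = -sf e t Y := by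
  unfold sf
  rw [rtr_neg, sub_neg_eq_add, ← sub_eq_add_neg]
  ring

end Vale.Agent.P371.Full
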