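import Vale.Agent.P371.Full.EIpoint
import Vale.Agent.P371.Full.PathDeriv

/-!
# P371 (full): Problem N
-/

open scoped Matrix.Norms.L2Operator ComplexOrder
open Matrix MeasureTheory Set Filter Topology

namespace Vale.Agent.P371.Full

variable {N : ℕ}

theorem ProblemN.continuousOn_cfc {W : ℝ → Mat N} {a b : ℝ} (hWc : ContinuousOn W (Icc a b))
    (hW : ∀ x ∈ Icc a b, (W x).IsHermitian) {f : ℝ → ℝ} (hf : Continuous f) :
    ContinuousOn (fun x => cfc f (W x)) (Icc a b) := by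
  obtain ⟨M, hM⟩ := isCompact_Icc.exists_bound_of_continuousOn hWc
  refine ContinuousOn.cfc' (s := Metric.closedBall (0 : ℝ) (M * ‖(1 : Mat N)‖))
    (isCompact_closedBall _ _) f hWc ?_ ?_ hf.continuousOn
  · intro x hx y hy
    rw [mem_closedBall_zero_iff]
    exact (spectrum.norm_le_norm_mul_of_mem hy).trans
      (mul_le_mul_of_nonneg_right (hM x hx) (norm_nonneg _))
  · intro x hx
    exact (hW x hx).isSelfAdjoint

theorem ProblemN.rtr_smul_pow {ν c J : ℝ} (hν : 0 < ν) (hc : 0 ≤ c) {W : Mat N}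
    (hW : W.PosSemidef) :
    rtr (cfc (fun ζ : ℝ => ζ ^ (1 + ν) * J / (1 + ν)) (c • W)) =
      c ^ (1 + ν) * J / (1 + ν) * rtr (cfc (fun w : ℝ => w ^ (1 + ν)) W) := by
  have hcont : Continuous fun ζ : ℝ => ζ ^ (1 + ν) * J / (1 + ν) :=
    ((Real.continuous_rpow_const (by linarith)).mul continuous_const).div_const _
  have h1 := cfc_comp_const_mul c (fun ζ : ℝ => ζ ^ (1 + ν) * J / (1 + ν)) W
    hcont.continuousOn hW.1.isSelfAdjoint
  rw [← h1, rtr_cfc hW.1, rtr_cfc hW.1, Finset.mul_sum]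
  refine Finset.sum_congr rfl fun i _ => ?_
  rw [Real.mul_rpow hc (hW.eigenvalues_nonneg i)]
  ring

theorem ProblemN.continuousOn_sig (ν e : ℝ) :
    ContinuousOn (fun t : ℝ => t ^ (ν - 1) * sig t e) (Ioi 0) := by
  have heta : Continuous eta := Real.continuous_mul_log.sub continuous_id
  have h1 : ContinuousOn (fun t : ℝ => t ^ (ν - 1)) (Ioi 0) := fun t ht =>
    (Real.continuousAt_rpow_const _ _ (Or.inl (ne_of_gt ht))).continuousWithinAt
  have h2 : ContinuousOn (fun t : ℝ => Real.log t) (Ioi 0) := fun t ht =>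
    (Real.continuousAt_log (ne_of_gt ht)).continuousWithinAt
  have h3 : Continuous fun t : ℝ => √(e + t) :=
    Real.continuous_sqrt.comp (continuous_const.add continuous_id)
  refine h1.mul ?_
  unfold sig
  exact (((heta.comp (h3.add continuous_const)).continuousOn).sub
    ((heta.comp (h3.sub continuous_const)).continuousOn)).sub (continuousOn_const.mul h2)

theorem ProblemN.Gf_Kt {ν ε T : ℝ} (hε : 0 < ε) (hT : ε < T) {e : Fin N → ℝ}
    (he : ∀ j, 0 ≤ e j) :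
    Gf e ν ε T (Kt e 0) = ∑ j, ∫ t in ε..T, t ^ (ν - 1) * sig t (e j) := by
  unfold Gf
  rw [← intervalIntegral.integral_finsetSum]
  · refine intervalIntegral.integral_congr fun t ht => ?_
    rw [uIcc_of_le hT.le] at ht
    have ht0 : 0 < t := hε.trans_le ht.1
    rw [sf_Kt he ht0, Finset.mul_sum]
  · intro j _
    refine ContinuousOn.intervalIntegrable ((ProblemN.continuousOn_sig ν (e j)).mono ?_)
    intro t ht
    rw [uIcc_of_le hT.le] at ht
    exact hε.trans_le ht.1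

theorem ProblemN.Gf_neg (e : Fin N → ℝ) (ν ε T : ℝ) (Y : Mat N) :
    Gf e ν ε T (-Y) = -Gf e ν ε T Y := by
  unfold Gf
  rw [← intervalIntegral.integral_neg]
  refine intervalIntegral.integral_congr fun t _ => ?_
  rw [sf_neg]
  ring

/-- the inequality for fixed cutoffs -/
theorem ProblemN.step {ν : ℝ} (hν : 0 < ν) (hν1 : ν < 1) {e : Fin N → ℝ} {a b : ℝ} (hab : a ≤ b)
    {Y W : ℝ → Mat N} (hA : ∀ x ∈ Icc a b, Adm e (Y x)) (hW : ∀ x ∈ Icc a b, (W x).PosSemidef)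
    (hWc : ContinuousOn W (Icc a b))
    (hY : ∀ x ∈ Icc a b, HasDerivWithinAt Y (dg e - Y x * Y x - W x) (Icc a b) x)
    (hYa : Y a = Kt e 0) (hYb : Y b = -Kt e 0) {C : ℝ}
    (hC : ∀ Y : Mat N, Adm e Y → ∀ t : ℝ, 0 < t → t ≤ 1 → |zf e Y t| ≤ C * (1 + |Real.log t|))
    {ε T : ℝ} (hε : 0 < ε) (hε1 : ε ≤ 1) (hT : ε < T) :
    2 * ∑ j, ∫ t in ε..T, t ^ (ν - 1) * sig t (e j) ≤
      (Jn ν / ν) * (ν / (1 + ν)) ^ (1 + ν) *
        (∫ x in a..b, rtr (cfc (fun w : ℝ => w ^ (1 + ν)) (W x))) +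
      (b - a) * (ε ^ ν * (C * (1 + |Real.log ε|)) / ν) := by
  have he : ∀ j, 0 ≤ e j := (hA a ⟨le_rfl, hab⟩).nonneg
  set c : ℝ := ν / (1 + ν) with hc
  have hc0 : 0 ≤ c := by positivity
  have hcc : (1 + 1 / ν) * c = 1 := by
    rw [hc]
    field_simp
    ring
  set S : ℝ → ℝ := fun x => rtr (cfc (fun w : ℝ => w ^ (1 + ν)) (W x)) with hS
  have hScont : ContinuousOn S (Icc a b) :=
    continuous_rtr.comp_continuousOn (ProblemN.continuousOn_cfc hWc (fun x hx => (hW x hx).1)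
      (Real.continuous_rpow_const (by linarith)))
  set err : ℝ := ε ^ ν * (C * (1 + |Real.log ε|)) / ν with herr
  have hG : ∀ x ∈ Icc a b, HasDerivWithinAt (fun y => Gf e ν ε T (Y y))
      (∫ t in ε..T, t ^ (ν - 1) * rtr (Ht e t (Y x) * (dg e - Y x * Y x - W x))) (Icc a b) x :=
    fun x hx => hasDerivWithinAt_Gf hε hT hx hA (hY x hx)
  have hlow : ∀ x ∈ Icc a b, -((Jn ν / ν) * c ^ (1 + ν) * S x) - err ≤
      ∫ t in ε..T, t ^ (ν - 1) * rtr (Ht e t (Y x) * (dg e - Y x * Y x - W x)) := by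
    intro x hx
    have hZ : (c • W x).PosSemidef := (hW x hx).smul hc0
    have h1 := ei_int hν hν1 (hA x hx) hZ hε hT
    have e1 : (1 + 1 / ν) • (c • W x) = W x := by rw [smul_smul, hcc, one_smul]
    rw [e1, ProblemN.rtr_smul_pow hν hc0 (hW x hx)] at h1
    have e2 : Am e (Y x) - W x = dg e - Y x * Y x - W x := rfl
    rw [e2] at h1
    refine le_trans ?_ h1
    have h2 := (le_abs_self _).trans (hC (Y x) (hA x hx) ε hε hε1)
    have h3 : 0 ≤ ε ^ ν := Real.rpow_nonneg hε.le _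
    have h4 : ε ^ ν * zf e (Y x) ε / ν ≤ err := by
      rw [herr]
      exact div_le_div_of_nonneg_right (mul_le_mul_of_nonneg_left h2 h3) hν.le
    have h5 : (1 + 1 / ν) * (c ^ (1 + ν) * Jn ν / (1 + ν) * S x) =
        (Jn ν / ν) * c ^ (1 + ν) * S x := by
      field_simp
      ring
    have h6 : (1 + 1 / ν) * (c ^ (1 + ν) * Jn ν / (1 + ν) *
        rtr (cfc (fun w : ℝ => w ^ (1 + ν)) (W x))) = (Jn ν / ν) * c ^ (1 + ν) * S x := h5
    rw [h6]
    linarith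
  have hφ : ContinuousOn (fun x => -((Jn ν / ν) * c ^ (1 + ν) * S x) - err) (Icc a b) :=
    ((continuousOn_const.mul hScont).neg).sub continuousOn_const
  have hmain := intervalIntegral.integral_le_sub_of_hasDeriv_right_of_le hab
    (g := fun y => Gf e ν ε T (Y y))
    (g' := fun x => ∫ t in ε..T, t ^ (ν - 1) * rtr (Ht e t (Y x) * (dg e - Y x * Y x - W x)))
    (φ := fun x => -((Jn ν / ν) * c ^ (1 + ν) * S x) - err)
    (fun x hx => (hG x hx).continuousWithinAt)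
    (fun x hx => ((hG x (Ioo_subset_Icc_self hx)).hasDerivAt
      (Icc_mem_nhds hx.1 hx.2)).hasDerivWithinAt)
    (hφ.integrableOn_compact isCompact_Icc)
    (fun x hx => hlow x (Ioo_subset_Icc_self hx))
  have hSint : IntervalIntegrable S volume a b := by
    refine ContinuousOn.intervalIntegrable ?_
    rwa [uIcc_of_le hab]
  have hint : ∫ x in a..b, (-((Jn ν / ν) * c ^ (1 + ν) * S x) - err) =
      -((Jn ν / ν) * c ^ (1 + ν) * ∫ x in a..b, S x) - (b - a) * err := by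
    have hI1 : IntervalIntegrable (fun x => -((Jn ν / ν) * c ^ (1 + ν) * S x)) volume a b :=
      (hSint.const_mul _).neg
    rw [intervalIntegral.integral_sub hI1 intervalIntegrable_const,
      intervalIntegral.integral_neg, intervalIntegral.integral_const_mul,
      intervalIntegral.integral_const, smul_eq_mul]
  rw [hint] at hmain
  simp only [hYa, hYb, ProblemN.Gf_neg, ProblemN.Gf_Kt hε hT he] at hmain
  linarith

/-- Problem N, diagonal `E`. -/
theorem problemN_diag {ν : ℝ} (hν : 0 < ν) (hν1 : ν < 1) {e : Fin N → ℝ} {a b : ℝ} (hab : a ≤ b)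
    {Y W : ℝ → Mat N} (hA : ∀ x ∈ Icc a b, Adm e (Y x)) (hW : ∀ x ∈ Icc a b, (W x).PosSemidef)
    (hWc : ContinuousOn W (Icc a b))
    (hY : ∀ x ∈ Icc a b, HasDerivWithinAt Y (dg e - Y x * Y x - W x) (Icc a b) x)
    (hYa : Y a = Kt e 0) (hYb : Y b = -Kt e 0) :
    ∑ j, (e j) ^ (ν + 1 / 2) ≤
      Lone (ν + 1 / 2) * ∫ x in a..b, rtr (cfc (fun w : ℝ => w ^ (1 + ν)) (W x)) := by
  have he : ∀ j, 0 ≤ e j := (hA a ⟨le_rfl, hab⟩).nonneg
  obtain ⟨C, hC0, hC⟩ := abs_zf_le e he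
  set I : ℝ := ∫ x in a..b, rtr (cfc (fun w : ℝ => w ^ (1 + ν)) (W x)) with hI
  set B : ℝ := ∫ u in (0 : ℝ)..1, (1 - u ^ 2) ^ ν with hB
  have hstep : ∀ n : ℕ, 2 * ∑ j, ∫ t in (1 / (n + 1) : ℝ)..(n + 2 : ℝ), t ^ (ν - 1) * sig t (e j) ≤
      (Jn ν / ν) * (ν / (1 + ν)) ^ (1 + ν) * I +
      (b - a) * ((1 / (n + 1) : ℝ) ^ ν * (C * (1 + |Real.log (1 / (n + 1) : ℝ)|)) / ν) := by
    intro n
    have h1 : (0 : ℝ) < 1 / (n + 1) := by positivity
    have h2 : (1 / (n + 1) : ℝ) ≤ 1 := by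
      rw [div_le_one (by positivity)]
      have : (0 : ℝ) ≤ n := Nat.cast_nonneg n
      linarith
    have h3 : (1 / (n + 1) : ℝ) < n + 2 := by
      have : (0 : ℝ) ≤ n := Nat.cast_nonneg n
      linarith
    exact ProblemN.step hν hν1 hab hA hW hWc hY hYa hYb hC h1 h2 h3
  have hlhs : Tendsto (fun n : ℕ => 2 * ∑ j, ∫ t in (1 / (n + 1) : ℝ)..(n + 2 : ℝ),
      t ^ (ν - 1) * sig t (e j)) atTop
      (𝓝 (2 * ∑ j, (Jn ν * e j ^ (ν + 1 / 2) * B))) :=
    (tendsto_finsetSum _ fun j _ => tendsto_integral_sig hν hν1 (he j)).const_mul 2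
  have hε : Tendsto (fun n : ℕ => (1 / (n + 1) : ℝ)) atTop (𝓝[>] 0) := by
    rw [tendsto_nhdsWithin_iff]
    refine ⟨tendsto_one_div_add_atTop_nhds_zero_nat, Filter.Eventually.of_forall fun n => ?_⟩
    have : (0 : ℝ) < 1 / (n + 1) := by positivity
    exact this
  have hpow : Tendsto (fun x : ℝ => x ^ ν) (𝓝[>] 0) (𝓝 0) := by
    have h := (Real.continuousAt_rpow_const (0 : ℝ) ν (Or.inr hν.le)).tendsto
    rw [Real.zero_rpow hν.ne'] at h
    exact h.mono_left nhdsWithin_le_nhds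
  have herr0 : Tendsto (fun x : ℝ => x ^ ν * (C * (1 + |Real.log x|)) / ν) (𝓝[>] 0) (𝓝 0) := by
    have h1 : Tendsto (fun x : ℝ => |Real.log x * x ^ ν|) (𝓝[>] 0) (𝓝 0) := by
      have := (tendsto_log_mul_rpow_nhdsGT_zero hν).abs
      rwa [abs_zero] at this
    have h2 : Tendsto (fun x : ℝ => C / ν * (x ^ ν + |Real.log x * x ^ ν|)) (𝓝[>] 0) (𝓝 0) := by
      have := (hpow.add h1).const_mul (C / ν)
      rwa [add_zero, mul_zero] at this
    refine h2.congr' ?_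
    filter_upwards [self_mem_nhdsWithin] with x hx
    have hx0 : (0 : ℝ) < x := hx
    rw [abs_mul, abs_of_nonneg (Real.rpow_nonneg hx0.le ν)]
    field_simp
  have hrhs : Tendsto (fun n : ℕ => (Jn ν / ν) * (ν / (1 + ν)) ^ (1 + ν) * I +
      (b - a) * ((1 / (n + 1) : ℝ) ^ ν * (C * (1 + |Real.log (1 / (n + 1) : ℝ)|)) / ν)) atTop
      (𝓝 ((Jn ν / ν) * (ν / (1 + ν)) ^ (1 + ν) * I + (b - a) * 0)) :=
    ((herr0.comp hε).const_mul (b - a)).const_add _
  have hlim := le_of_tendsto_of_tendsto' hlhs hrhs hstep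
  rw [mul_zero, add_zero] at hlim
  have hJ := Jn_pos hν hν1
  have hBpos : 0 < B := integral_pos_beta hν
  have hL := Lone_eq hν
  rw [← hB] at hL
  have h1 : 2 * ∑ j, (Jn ν * e j ^ (ν + 1 / 2) * B) =
      Jn ν * (2 * B) * ∑ j, e j ^ (ν + 1 / 2) := by
    rw [Finset.mul_sum, Finset.mul_sum]
    refine Finset.sum_congr rfl fun j _ => ?_
    ring
  have h2 : (Jn ν / ν) * (ν / (1 + ν)) ^ (1 + ν) * I =
      Jn ν * (2 * B) * (Lone (ν + 1 / 2) * I) := by
    have : (Jn ν / ν) * (ν / (1 + ν)) ^ (1 + ν) * I =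
        Jn ν * ((ν / (1 + ν)) ^ (1 + ν) / ν) * I := by ring
    rw [this, ← hL]
    ring
  rw [h1, h2] at hlim
  exact le_of_mul_le_mul_left hlim (by positivity)

/-! ### general `K` -/

theorem ProblemN.rtr_cfc_charpoly {A : Mat N} (hA : A.IsHermitian) (f : ℝ → ℝ) :
    rtr (cfc f A) = (A.charpoly.roots.map fun z : ℂ => f z.re).sum := by
  rw [rtr_cfc hA, hA.roots_charpoly_eq_eigenvalues, Multiset.map_map]
  rfl

theorem ProblemN.rtr_cfc_conj {U X : Mat N} (h1 : Uᴴ * U = 1) (h2 : U * Uᴴ = 1)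
    (hX : X.IsHermitian) (f : ℝ → ℝ) : rtr (cfc f (Uᴴ * X * U)) = rtr (cfc f X) := by
  have hX' : (Uᴴ * X * U).IsHermitian := Matrix.isHermitian_conjTranspose_mul_mul U hX
  rw [ProblemN.rtr_cfc_charpoly hX', ProblemN.rtr_cfc_charpoly hX]
  have h3 : (Uᴴ * X * U).charpoly = X.charpoly := by
    rw [Matrix.charpoly_mul_comm, ← Matrix.mul_assoc, h2, Matrix.one_mul]
  rw [h3]

/-- Problem N for a general `K = √E ≥ 0`. -/
theorem problemN {ν : ℝ} (hν : 0 < ν) (hν1 : ν < 1) {K : Mat N} (hK : K.PosSemidef) {a b : ℝ}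
    (hab : a ≤ b) {Y W : ℝ → Mat N} (hYh : ∀ x ∈ Icc a b, (Y x).IsHermitian)
    (hlo : ∀ x ∈ Icc a b, (K + Y x).PosSemidef) (hhi : ∀ x ∈ Icc a b, (K - Y x).PosSemidef)
    (hW : ∀ x ∈ Icc a b, (W x).PosSemidef) (hWc : ContinuousOn W (Icc a b))
    (hY : ∀ x ∈ Icc a b, HasDerivWithinAt Y (K * K - Y x * Y x - W x) (Icc a b) x)
    (hYa : Y a = K) (hYb : Y b = -K) :
    rtr (cfc (fun k : ℝ => k ^ (2 * ν + 1)) K) ≤
      Lone (ν + 1 / 2) * ∫ x in a..b, rtr (cfc (fun w : ℝ => w ^ (1 + ν)) (W x)) := by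
  set U : Mat N := TraceConv.U hK.1 with hU
  have hUU : Uᴴ * U = 1 := TraceConv.U_star_mul hK.1
  have hUU' : U * Uᴴ = 1 := TraceConv.U_mul_star hK.1
  set k : Fin N → ℝ := hK.1.eigenvalues with hk
  have hk0 : ∀ j, 0 ≤ k j := fun j => hK.eigenvalues_nonneg j
  have hKe : K = U * dg k * Uᴴ := TraceConv.self_explicit hK.1
  have hKd : Uᴴ * K * U = dg k := by
    have e1 : Uᴴ * (U * dg k * Uᴴ) * U = (Uᴴ * U) * dg k * (Uᴴ * U) := by
      simp only [Matrix.mul_assoc]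
    rw [hKe, e1, hUU, Matrix.one_mul, Matrix.mul_one]
  have hKt : Kt (fun j => k j ^ 2) 0 = dg k := by
    unfold Kt
    congr 1
    funext j
    rw [add_zero, Real.sqrt_sq (hk0 j)]
  have hmul : ∀ X Z : Mat N, Uᴴ * (X * Z) * U = (Uᴴ * X * U) * (Uᴴ * Z * U) := by
    intro X Z
    have e1 : (Uᴴ * X * U) * (Uᴴ * Z * U) = Uᴴ * X * (U * Uᴴ) * Z * U := by
      simp only [Matrix.mul_assoc]
    rw [e1, hUU', Matrix.mul_one]
    simp only [Matrix.mul_assoc]
  have hdg : dg (fun j => k j ^ 2) = Uᴴ * (K * K) * U := by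
    rw [hmul, hKd]
    unfold dg
    rw [Matrix.diagonal_mul_diagonal]
    congr 1
    funext j
    push_cast
    ring
  have hpsd : ∀ X : Mat N, X.PosSemidef → (Uᴴ * X * U).PosSemidef := fun X hX =>
    hX.conjTranspose_mul_mul_same U
  have hmain := problemN_diag (e := fun j => k j ^ 2) hν hν1 hab
    (Y := fun x => Uᴴ * Y x * U) (W := fun x => Uᴴ * W x * U)
    (fun x hx => by
      refine ⟨fun j => sq_nonneg _, Matrix.isHermitian_conjTranspose_mul_mul U (hYh x hx), ?_, ?_⟩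
      · have e1 : Kt (fun j => k j ^ 2) 0 + Uᴴ * Y x * U = Uᴴ * (K + Y x) * U := by
          rw [hKt, ← hKd, Matrix.mul_add, Matrix.add_mul]
        rw [e1]
        exact hpsd _ (hlo x hx)
      · have e1 : Kt (fun j => k j ^ 2) 0 - Uᴴ * Y x * U = Uᴴ * (K - Y x) * U := by
          rw [hKt, ← hKd, Matrix.mul_sub, Matrix.sub_mul]
        rw [e1]
        exact hpsd _ (hhi x hx))
    (fun x hx => hpsd _ (hW x hx))
    ((continuousOn_const.mul hWc).mul continuousOn_const)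
    (fun x hx => by
      have h1 := ((hY x hx).const_mul Uᴴ).mul_const U
      have e1 : dg (fun j => k j ^ 2) - Uᴴ * Y x * U * (Uᴴ * Y x * U) - Uᴴ * W x * U =
          Uᴴ * (K * K - Y x * Y x - W x) * U := by
        rw [hdg, ← hmul, Matrix.mul_sub, Matrix.mul_sub, Matrix.sub_mul, Matrix.sub_mul]
      rw [e1]
      exact h1)
    (by rw [hYa, hKt, hKd])
    (by rw [hYb, hKt, Matrix.mul_neg, Matrix.neg_mul, hKd])
  have e1 : rtr (cfc (fun k : ℝ => k ^ (2 * ν + 1)) K) = ∑ j, (k j ^ 2) ^ (ν + 1 / 2) := by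
    rw [rtr_cfc hK.1]
    refine Finset.sum_congr rfl fun j _ => ?_
    rw [← Real.rpow_natCast, ← Real.rpow_mul (hk0 j)]
    congr 1
    push_cast
    ring
  rw [e1]
  refine hmain.trans (le_of_eq ?_)
  congr 1
  refine intervalIntegral.integral_congr fun x hx => ?_
  rw [uIcc_of_le hab] at hx
  exact ProblemN.rtr_cfc_conj hUU hUU' (hW x hx).1 _

end Vale.Agent.P371.Full
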