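import Vale.Agent.P371.Full.EigenId
import Vale.Agent.P371.Full.ProblemN
import Vale.Agent.P371.Full.FullKernel

/-!
# P371 (full): the chain of inequalities
-/

open scoped Matrix.Norms.L2Operator ComplexOrder ENNReal
open Matrix MeasureTheory Set Filter Topology

namespace Vale.Agent.P371.Full

variable {N m : ℕ}

theorem Chain.continuous_fD {ν : ℝ} (hν : 0 < ν) : Continuous (fD ν) := by
  unfold fD
  exact (Real.continuous_rpow_const (by positivity)).comp (continuous_id.div_const _)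

theorem Chain.continuous_fF {ν : ℝ} (hν : 0 < ν) : Continuous (fF ν) := by
  unfold fF
  exact continuous_const.mul (Real.continuous_rpow_const (by positivity))

theorem Chain.fD_nonneg {ν : ℝ} (hν : 0 < ν) {p : ℝ} (hp : 0 ≤ p) : 0 ≤ fD ν p := by
  unfold fD
  have := (cL_pos hν).le
  exact Real.rpow_nonneg (div_nonneg hp (mul_nonneg (by linarith) this)) _

theorem Chain.conv {f : ℝ → ℝ} (hf : ConvexOn ℝ (Ici 0) f) {x w ε : ℝ} (hx : 0 ≤ x) (hxw : x ≤ w)
    (hε : 0 ≤ ε) : f (x + ε) - f x ≤ f (w + ε) - f w := by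
  rcases eq_or_lt_of_le hε with h0 | h0
  · subst h0; simp
  have hd : 0 < w + ε - x := by linarith
  set t : ℝ := ε / (w + ε - x) with ht
  have ht0 : 0 ≤ t := by positivity
  have ht1 : t ≤ 1 := by
    rw [ht, div_le_one hd]; linarith
  have e1 : t * (w + ε - x) = ε := by
    rw [ht]; field_simp
  have hwm : w + ε ∈ Ici (0 : ℝ) := by simp only [mem_Ici]; linarith
  have hxm : x ∈ Ici (0 : ℝ) := hx
  have h1 := hf.2 hxm hwm (show 0 ≤ 1 - t by linarith) ht0 (by ring)
  have h2 := hf.2 hxm hwm ht0 (show 0 ≤ 1 - t by linarith) (by ring)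
  simp only [smul_eq_mul] at h1 h2
  have e2 : (1 - t) * x + t * (w + ε) = x + ε := by linarith
  have e3 : t * x + (1 - t) * (w + ε) = w := by linarith
  rw [e2] at h1
  rw [e3] at h2
  linarith

theorem Chain.fF_conv {ν : ℝ} (hν : 0 < ν) {x w ε : ℝ} (hx : 0 ≤ x) (hxw : x ≤ w)
    (hε : 0 ≤ ε) : fF ν (x + ε) - fF ν x ≤ fF ν (w + ε) - fF ν w := by
  have h := Chain.conv (convexOn_rpow (p := 1 + ν) (by linarith)) hx hxw hε
  unfold fF
  have := (cL_pos hν).le
  nlinarith

/-- pointwise inequality -/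
theorem Chain.pointwise {ν : ℝ} (hν : 0 < ν) {P : Mat N} (hP : P.PosSemidef) {ε w : ℝ}
    (hε : 0 ≤ ε) (hDw : ‖cfc (fD ν) P‖ ≤ w) :
    cL ν * rtr (cfc (fun w : ℝ => w ^ (1 + ν)) (cfc (fD ν) P + ε • (1 : Mat N)))
      + rtr (cfc (fS ν) P) - N * (fF ν (w + ε) - fF ν w) ≤
    rtr ((cfc (fD ν) P + ε • (1 : Mat N)) * P) := by
  have hPs : IsSelfAdjoint P := hP.1.isSelfAdjoint
  have hcD : ContinuousOn (fD ν) (spectrum ℝ P) := (Chain.continuous_fD hν).continuousOn
  have hcp : Continuous fun w : ℝ => w ^ (1 + ν) := Real.continuous_rpow_const (by linarith)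
  have e1 : cfc (fD ν) P + ε • (1 : Mat N) = cfc (fun p => fD ν p + ε) P := by
    rw [cfc_add_const ε (fD ν) P hcD hPs]
    rw [Algebra.algebraMap_eq_smul_one]
  have e2 : cfc (fun w : ℝ => w ^ (1 + ν)) (cfc (fun p => fD ν p + ε) P) =
      cfc (fun p => (fD ν p + ε) ^ (1 + ν)) P := by
    rw [← cfc_comp' (fun w : ℝ => w ^ (1 + ν)) (fun p => fD ν p + ε) P hcp.continuousOn
      (hcD.add continuousOn_const) hPs]
  have e3 : cfc (fun p => fD ν p + ε) P * P = cfc (fun p => (fD ν p + ε) * p) P := by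
    conv_lhs => rw [show cfc (fun p => fD ν p + ε) P * P =
      cfc (fun p => fD ν p + ε) P * cfc (fun p : ℝ => p) P by rw [TraceConv.cfc_id hP.1]]
    rw [TraceConv.cfc_mul_cfc hP.1]
  rw [e1, e2, e3, rtr_cfc hP.1, rtr_cfc hP.1, rtr_cfc hP.1]
  have hN : (N : ℝ) * (fF ν (w + ε) - fF ν w) = ∑ _i : Fin N, (fF ν (w + ε) - fF ν w) := by
    rw [Finset.sum_const, Finset.card_univ, Fintype.card_fin, nsmul_eq_mul]
  rw [hN, Finset.mul_sum, ← Finset.sum_add_distrib, ← Finset.sum_sub_distrib]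
  refine Finset.sum_le_sum fun i _ => ?_
  set p := hP.1.eigenvalues i with hp
  have hp0 : 0 ≤ p := hP.eigenvalues_nonneg i
  have hD0 : 0 ≤ fD ν p := Chain.fD_nonneg hν hp0
  have hpw : fD ν p ≤ w := by
    have h1 : p ∈ spectrum ℝ P := by
      rw [hP.1.spectrum_real_eq_range_eigenvalues]
      exact ⟨i, rfl⟩
    have h2 := norm_apply_le_norm_cfc (fD ν) P h1 hcD hPs
    exact (le_abs_self _).trans (h2.trans hDw)
  have h3 := fenchel_eq hν hp0
  have h4 := Chain.fF_conv hν hD0 hpw hε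
  have h5 : cL ν * (fD ν p + ε) ^ (1 + ν) = fF ν (fD ν p + ε) := rfl
  rw [h5]
  nlinarith [mul_nonneg hε hp0]

/-- The chain of inequalities for a full kernel. -/
theorem chain {ν : ℝ} (hν : 0 < ν) (hν1 : ν < 1) {W : ℝ → Matrix (Fin m) (Fin m) ℂ}
    (hW : ∀ x, (W x).PosSemidef)
    (hWm : ∀ a b, Measurable fun x => W x a b) {lam : Fin N → ℝ}
    {u u' : Fin N → ℝ → Vec m} (hu : ∀ j, IsH1 (u j) (u' j)) (hneg : ∀ j, lam j < 0)
    (he : ∀ j, ∀ φ φ' : ℝ → Vec m, IsH1 φ φ' →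
      (∫ x, inner ℂ (φ' x) (u' j x)) - (∫ x, pairing (W x) (φ x) (u j x)) =
        (lam j : ℂ) * ∫ x, inner ℂ (φ x) (u j x))
    (hon : ∀ i j, ∫ x, inner ℂ (u i x) (u j x) = if i = j then (1 : ℂ) else 0)
    {C : Mat N} (hC : C.IsHermitian) {a b ε w : ℝ} (hab : a ≤ b) (hε : 0 ≤ ε) (hw : 0 ≤ w)
    (hDw : ∀ x ∈ Icc a b, ‖cfc (fD ν) (Pm u C x)‖ ≤ w) {K : Mat N} {Y : ℝ → Mat N}
    (hK : K.PosSemidef) (hYh : ∀ x ∈ Icc a b, (Y x).IsHermitian)
    (hlo : ∀ x ∈ Icc a b, (K + Y x).PosSemidef) (hhi : ∀ x ∈ Icc a b, (K - Y x).PosSemidef)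
    (hY : ∀ x ∈ Icc a b,
      HasDerivWithinAt Y
        (K * K - Y x * Y x - (cfc (fD ν) (Pm u C x) + ε • (1 : Mat N))) (Icc a b) x)
    (hYa : Y a = K) (hYb : Y b = -K) :
    rtr (dg (fun j => -lam j) * (C * C)) - rtr (K * K * (C * C))
        + rtr (cfc (fun k : ℝ => k ^ (2 * ν + 1)) K)
        - (∫ x in (Icc a b)ᶜ, rtr (cfc (fS ν) (Pm u C x)))
        - (b - a) * N * (fF ν (w + ε) - fF ν w) ≤ Jf ν W u C := by
  obtain ⟨hint, hid⟩ := eigen_identity hW hWm hu hneg he hon hC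
  have hfS := integrable_fS (ν := ν) hν hu C
  have hPc : Continuous (Pm u C) := continuous_Pm hu C
  have hPp : ∀ x, (Pm u C x).PosSemidef := posSemidef_Pm u C
  set V : ℝ → Mat N := fun x => cfc (fD ν) (Pm u C x) + ε • (1 : Mat N) with hV
  have hVc : ContinuousOn V (Icc a b) :=
    (ProblemN.continuousOn_cfc hPc.continuousOn (fun x _ => (hPp x).1)
      (Chain.continuous_fD hν)).add continuousOn_const
  have hVp : ∀ x ∈ Icc a b, (V x).PosSemidef := by
    intro x _
    refine Matrix.PosSemidef.add ?_ (Matrix.PosSemidef.one.smul hε)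
    rw [TraceConv.cfc_explicit (hPp x).1]
    refine Matrix.PosSemidef.mul_mul_conjTranspose_same ?_ _
    refine Matrix.PosSemidef.diagonal fun i => ?_
    have h3 := Chain.fD_nonneg hν ((hPp x).eigenvalues_nonneg i)
    have h4 : (0 : ℂ) ≤ ((fD ν ((hPp x).1.eigenvalues i) : ℝ) : ℂ) := by exact_mod_cast h3
    exact h4
  have hsq := square_ineq hu C hK.1 hab hYh hVc hY hYa hYb
  have hiP := integral_Pm hu hon (K * K) hC
  have hPN := problemN hν hν1 hK hab hYh hlo hhi hVp hVc hY hYa hYb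
  -- pointwise
  have hfSc : ContinuousOn (fun x => rtr (cfc (fS ν) (Pm u C x))) (Icc a b) := by
    refine continuous_rtr.comp_continuousOn (ProblemN.continuousOn_cfc hPc.continuousOn
      (fun x _ => (hPp x).1) ?_)
    unfold fS
    exact continuous_const.mul (Real.continuous_rpow_const (by positivity))
  have hpowc : ContinuousOn (fun x => rtr (cfc (fun w : ℝ => w ^ (1 + ν)) (V x))) (Icc a b) :=
    continuous_rtr.comp_continuousOn (ProblemN.continuousOn_cfc hVc
      (fun x hx => (hVp x hx).1) (Real.continuous_rpow_const (by linarith)))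
  have hVPc : ContinuousOn (fun x => rtr (V x * Pm u C x)) (Icc a b) :=
    continuous_rtr.comp_continuousOn (hVc.mul hPc.continuousOn)
  have hii : ∀ g : ℝ → ℝ, ContinuousOn g (Icc a b) → IntervalIntegrable g volume a b := by
    intro g hg
    refine ContinuousOn.intervalIntegrable ?_
    rwa [uIcc_of_le hab]
  have hmono : ∫ x in a..b, (cL ν * rtr (cfc (fun w : ℝ => w ^ (1 + ν)) (V x))
      + rtr (cfc (fS ν) (Pm u C x)) - N * (fF ν (w + ε) - fF ν w)) ≤
      ∫ x in a..b, rtr (V x * Pm u C x) := by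
    refine intervalIntegral.integral_mono_on hab ?_ (hii _ hVPc) ?_
    · exact hii _ (((continuousOn_const.mul hpowc).add hfSc).sub continuousOn_const)
    · intro x hx
      exact Chain.pointwise hν (hPp x) hε (hDw x hx)
  have hsplit : ∫ x in a..b, (cL ν * rtr (cfc (fun w : ℝ => w ^ (1 + ν)) (V x))
      + rtr (cfc (fS ν) (Pm u C x)) - N * (fF ν (w + ε) - fF ν w)) =
      cL ν * (∫ x in a..b, rtr (cfc (fun w : ℝ => w ^ (1 + ν)) (V x)))
      + (∫ x in a..b, rtr (cfc (fS ν) (Pm u C x))) - (b - a) * N * (fF ν (w + ε) - fF ν w) := by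
    have i1 : IntervalIntegrable (fun x => cL ν * rtr (cfc (fun w : ℝ => w ^ (1 + ν)) (V x)))
        volume a b := hii _ (continuousOn_const.mul hpowc)
    have i2 : IntervalIntegrable (fun x => rtr (cfc (fS ν) (Pm u C x))) volume a b := hii _ hfSc
    have i3 : IntervalIntegrable (fun x => cL ν * rtr (cfc (fun w : ℝ => w ^ (1 + ν)) (V x))
        + rtr (cfc (fS ν) (Pm u C x))) volume a b := i1.add i2
    rw [intervalIntegral.integral_sub i3 intervalIntegrable_const,
      intervalIntegral.integral_add i1 i2,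
      intervalIntegral.integral_const_mul, intervalIntegral.integral_const, smul_eq_mul]
    ring
  rw [hsplit] at hmono
  have hcompl : (∫ x in a..b, rtr (cfc (fS ν) (Pm u C x))) +
      (∫ x in (Icc a b)ᶜ, rtr (cfc (fS ν) (Pm u C x))) =
      ∫ x, rtr (cfc (fS ν) (Pm u C x)) := by
    rw [intervalIntegral.integral_of_le hab, ← integral_Icc_eq_integral_Ioc]
    exact integral_add_compl measurableSet_Icc hfS
  have hJ : Jf ν W u C = (∫ x, (Matrix.trace ((Um u x * C)ᴴ * W x * (Um u x * C))).re) -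
      ∫ x, rtr (cfc (fS ν) (Pm u C x)) := integral_sub hint hfS
  have hcL : Lone (ν + 1 / 2) = cL ν := rfl
  rw [hcL] at hPN
  rw [hJ, hid]
  linarith

end Vale.Agent.P371.Full
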