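import Vale.Agent.P371.Sharp
import Vale.Agent.P371.BetaInt

/-!
# The lower bound `L^{(1)}_γ ≤ L_γ(m)` for `1/2 < γ`

`W = ν(ν+1) sech² x` in the first channel, `ν = γ - 1/2`, eigenfunction `sech^ν x`, eigenvalue
`-ν²`.
-/

open MeasureTheory Filter
open scoped ENNReal ComplexOrder Topology

namespace Vale.Agent.P371.Full

namespace LowerAux

open SharpAux

/-- `sech^μ x`. -/
noncomputable def bb (μ x : ℝ) : ℝ := Real.exp (-μ * Real.log (Real.cosh x))

theorem bb_pos (μ x : ℝ) : 0 < bb μ x := Real.exp_pos _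

theorem bb_add (μ ν x : ℝ) : bb (μ + ν) x = bb μ x * bb ν x := by
  unfold bb
  rw [← Real.exp_add]
  congr 1
  ring

theorem bb_two (x : ℝ) : bb 2 x = sc x ^ 2 := by
  unfold bb sc
  have : -2 * Real.log (Real.cosh x) = (2 : ℕ) * (-Real.log (Real.cosh x)) := by
    push_cast; ring
  rw [this, Real.exp_nat_mul, Real.exp_neg, Real.exp_log (Real.cosh_pos x)]

theorem bb_eq_rpow (μ x : ℝ) : bb μ x = sc x ^ μ := by
  unfold bb sc
  rw [Real.rpow_def_of_pos (inv_pos.mpr (Real.cosh_pos x)), Real.log_inv]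
  congr 1
  ring

theorem hasDerivAt_bb (μ x : ℝ) : HasDerivAt (bb μ) (-μ * (th x * bb μ x)) x := by
  have h := (((Real.hasDerivAt_cosh x).log (Real.cosh_pos x).ne').const_mul (-μ)).exp
  have e : Real.exp (-μ * Real.log (Real.cosh x)) *
      (-μ * (Real.sinh x / Real.cosh x)) = -μ * (th x * bb μ x) := by
    unfold th bb
    ring
  rw [← e]
  exact h

theorem hasDerivAt_bb' (μ x : ℝ) :
    HasDerivAt (fun x => -μ * (th x * bb μ x)) ((μ ^ 2 - μ * (μ + 1) * sc x ^ 2) * bb μ x) x := by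
  have h := ((hasDerivAt_th x).mul (hasDerivAt_bb μ x)).const_mul (-μ)
  have e : -μ * (sc x ^ 2 * bb μ x + th x * (-μ * (th x * bb μ x))) =
      (μ ^ 2 - μ * (μ + 1) * sc x ^ 2) * bb μ x := by
    have := th_sq x
    linear_combination (μ ^ 2 * bb μ x) * this
  rw [← e]
  exact h

theorem continuous_bb (μ : ℝ) : Continuous (bb μ) :=
  continuous_iff_continuousAt.mpr fun x => (hasDerivAt_bb μ x).continuousAt

theorem bb_neg (μ x : ℝ) : bb μ (-x) = bb μ x := by
  unfold bb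
  rw [Real.cosh_neg]

theorem bb_le (μ : ℝ) (hμ : 0 < μ) (x : ℝ) : bb μ x ≤ Real.exp (μ * Real.log 2) * Real.exp (-μ * x) := by
  unfold bb
  rw [← Real.exp_add]
  apply Real.exp_le_exp.mpr
  have h1 : x - Real.log 2 ≤ Real.log (Real.cosh x) := by
    rw [Real.le_log_iff_exp_le (Real.cosh_pos x), Real.exp_sub, Real.exp_log (by norm_num),
      Real.cosh_eq]
    have := Real.exp_pos (-x)
    linarith
  nlinarith

theorem integrable_bb (μ : ℝ) (hμ : 0 < μ) : Integrable (bb μ) := by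
  have h1 : IntegrableOn (bb μ) (Set.Ioi 0) := by
    refine Integrable.mono' ((exp_neg_integrableOn_Ioi 0 hμ).const_mul
      (Real.exp (μ * Real.log 2))) (continuous_bb μ).aestronglyMeasurable ?_
    filter_upwards with x
    rw [Real.norm_of_nonneg (bb_pos μ x).le]
    exact bb_le μ hμ x
  have h2 : IntegrableOn (bb μ) (Set.Iic 0) := by
    have h3 : IntegrableOn (fun x => bb μ (-x)) (Set.Iic 0) := by
      have := (integrableOn_Ici_iff_integrableOn_Ioi (μ := volume) (f := bb μ) (b := 0)).mpr h1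
      have h4 := this.comp_neg
      simpa using h4
    simpa only [bb_neg] using h3
  have := h2.union h1
  rw [Set.Iic_union_Ioi, integrableOn_univ] at this
  exact this

theorem integral_bb_pos (μ : ℝ) (hμ : 0 < μ) : 0 < ∫ x, bb μ x := by
  rw [integral_pos_iff_support_of_nonneg (fun x => (bb_pos μ x).le) (integrable_bb μ hμ)]
  have : Function.support (bb μ) = Set.univ := by
    ext x
    simp [(bb_pos μ x).ne']
  rw [this, Real.volume_univ]
  exact ENNReal.coe_lt_top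

/-! ### The integral -/

theorem tendsto_th_atTop : Tendsto th atTop (𝓝 1) := by
  have h1 : th = fun x => 1 - Real.exp (-x) * sc x := by
    funext x
    unfold th sc
    have h0 := (Real.cosh_pos x).ne'
    field_simp
    rw [Real.cosh_eq, Real.sinh_eq]
    ring
  rw [h1]
  have h2 : Tendsto (fun x => Real.exp (-x) * sc x) atTop (𝓝 (0 * 0)) :=
    (Real.tendsto_exp_neg_atTop_nhds_zero).mul tendsto_sc_atTop
  have h3 := h2.const_sub 1
  simpa using h3

theorem th_neg (x : ℝ) : th (-x) = -th x := by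
  unfold th
  rw [Real.sinh_neg, Real.cosh_neg]
  ring

theorem tendsto_th_atBot : Tendsto th atBot (𝓝 (-1)) := by
  have h : th = fun x => -th (-x) := by
    funext x
    rw [th_neg, neg_neg]
  rw [h]
  exact (tendsto_th_atTop.comp tendsto_neg_atBot_atTop).neg

theorem abs_th_lt (x : ℝ) : th x ^ 2 < 1 := by
  rw [th_sq]
  have := sc_pos x
  have : 0 < sc x ^ 2 := by positivity
  linarith

/-- `∫ sech^{2ν+2} = √π Γ(ν+1)/Γ(ν+3/2)`. -/
theorem integral_bb (ν : ℝ) (hν : 0 < ν) :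
    ∫ x, bb (2 * ν + 2) x = √Real.pi * Real.Gamma (ν + 1) / Real.Gamma (ν + 3 / 2) := by
  set g : ℝ → ℝ := fun t => (t * (1 - t)) ^ ν with hg
  have hgc : Continuous g := by
    rw [hg]
    exact (continuous_id.mul (continuous_const.sub continuous_id)).rpow_const
      fun _ => Or.inr hν.le
  set F : ℝ → ℝ := fun u => ∫ t in (0 : ℝ)..u, g t with hF
  have hFd : ∀ u, HasDerivAt F (g u) u := fun u => (hgc.integral_hasStrictDerivAt 0 u).hasDerivAt
  have hFc : Continuous F := continuous_iff_continuousAt.mpr fun u => (hFd u).continuousAt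
  set s : ℝ → ℝ := fun x => (1 + th x) / 2 with hs
  have hsd : ∀ x, HasDerivAt s (sc x ^ 2 / 2) x := fun x =>
    ((hasDerivAt_th x).const_add 1).div_const 2
  have hs01 : ∀ x, s x * (1 - s x) = sc x ^ 2 / 4 := by
    intro x
    have := th_sq x
    simp only [hs]
    linear_combination (-1 / 4) * this
  have hd : ∀ x, HasDerivAt (fun x => 2 * (4 : ℝ) ^ ν * F (s x)) (bb (2 * ν + 2) x) x := by
    intro x
    have h1 := ((hFd (s x)).comp x (hsd x)).const_mul (2 * (4 : ℝ) ^ ν)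
    have e : 2 * (4 : ℝ) ^ ν * (g (s x) * (sc x ^ 2 / 2)) = bb (2 * ν + 2) x := by
      rw [hg]
      simp only
      rw [hs01, bb_add, bb_two, bb_eq_rpow, Real.div_rpow (by positivity) (by norm_num)]
      have h4 : (4 : ℝ) ^ ν ≠ 0 := (Real.rpow_pos_of_pos (by norm_num) _).ne'
      have h5 : (sc x ^ 2) ^ ν = sc x ^ (2 * ν) := by
        rw [Real.rpow_mul (sc_pos x).le, Real.rpow_two]
      rw [h5]
      field_simp
    rw [← e]
    exact h1
  have hst : Tendsto s atTop (𝓝 1) := by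
    have := (tendsto_th_atTop.const_add 1).div_const 2
    norm_num at this
    exact this
  have hsb : Tendsto s atBot (𝓝 0) := by
    have := (tendsto_th_atBot.const_add 1).div_const 2
    norm_num at this
    exact this
  have hlt : Tendsto (fun x => 2 * (4 : ℝ) ^ ν * F (s x)) atTop (𝓝 (2 * (4 : ℝ) ^ ν * F 1)) :=
    ((hFc.tendsto 1).comp hst).const_mul _
  have hlb : Tendsto (fun x => 2 * (4 : ℝ) ^ ν * F (s x)) atBot (𝓝 (2 * (4 : ℝ) ^ ν * F 0)) :=
    ((hFc.tendsto 0).comp hsb).const_mul _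
  rw [integral_of_hasDerivAt_of_tendsto hd (integrable_bb _ (by linarith)) hlb hlt]
  have hF0 : F 0 = 0 := by rw [hF]; exact intervalIntegral.integral_same
  have hF1 : F 1 = bet (ν + 1) ν := by
    have h1 := beta_base (s := ν + 1) (q := ν) (w := 1) (by linarith) hν.le one_pos
    rw [Real.one_rpow, one_mul] at h1
    rw [← h1]
    simp only [hF, hg]
    rw [intervalIntegral.integral_of_le zero_le_one, intervalIntegral.integral_of_le zero_le_one]
    refine setIntegral_congr_fun measurableSet_Ioc fun t ht => ?_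
    rw [Real.mul_rpow ht.1.le (by linarith [ht.2])]
    congr 2
    ring
  rw [hF0, hF1]
  unfold bet
  have h2 := Real.Gamma_mul_Gamma_add_half (ν + 1)
  have e1 : ν + 1 + 1 / 2 = ν + 3 / 2 := by ring
  have e2 : 2 * (ν + 1) = ν + 1 + ν + 1 := by ring
  rw [e1, e2] at h2
  have hG1 : 0 < Real.Gamma (ν + 1) := Real.Gamma_pos_of_pos (by linarith)
  have hG2 : 0 < Real.Gamma (ν + 3 / 2) := Real.Gamma_pos_of_pos (by linarith)
  have hG3 : 0 < Real.Gamma (ν + 1 + ν + 1) := Real.Gamma_pos_of_pos (by linarith)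
  have h3 : 2 * (4 : ℝ) ^ ν * (2 : ℝ) ^ (1 - (ν + 1 + ν + 1)) = 1 := by
    have e4 : (4 : ℝ) ^ ν = 2 ^ (2 * ν) := by
      rw [Real.rpow_mul (by norm_num), Real.rpow_two]
      norm_num
    rw [e4, mul_assoc, ← Real.rpow_add (by norm_num)]
    have e5 : 2 * ν + (1 - (ν + 1 + ν + 1)) = -1 := by ring
    rw [e5, Real.rpow_neg_one]
    norm_num
  rw [mul_zero, sub_zero, ← mul_div_assoc, div_eq_div_iff hG3.ne' hG2.ne']
  calc 2 * (4 : ℝ) ^ ν * (Real.Gamma (ν + 1) * Real.Gamma (ν + 1)) * Real.Gamma (ν + 3 / 2) =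
      2 * (4 : ℝ) ^ ν * Real.Gamma (ν + 1) * (Real.Gamma (ν + 1) * Real.Gamma (ν + 3 / 2)) := by
        ring
    _ = _ := by
      rw [h2]
      linear_combination (Real.Gamma (ν + 1) * Real.Gamma (ν + 1 + ν + 1) * √Real.pi) * h3

/-! ### The eigenfunction -/

theorem bb_sq (μ x : ℝ) : bb μ x ^ 2 = bb (2 * μ) x := by
  rw [sq, ← bb_add, two_mul]

theorem memLp_bb (μ : ℝ) (hμ : 0 < μ) : MemLp (bb μ) 2 volume := by
  rw [memLp_two_iff_integrable_sq (continuous_bb μ).aestronglyMeasurable]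
  refine (integrable_bb (2 * μ) (by linarith)).congr ?_
  filter_upwards with x
  exact (bb_sq μ x).symm

theorem continuous_bb1 (μ : ℝ) : Continuous fun x => -μ * (th x * bb μ x) :=
  continuous_const.mul (continuous_th.mul (continuous_bb μ))

theorem continuous_bb2 (μ : ℝ) :
    Continuous fun x => (μ ^ 2 - μ * (μ + 1) * sc x ^ 2) * bb μ x :=
  (continuous_const.sub (continuous_const.mul (continuous_sc.pow 2))).mul (continuous_bb μ)

theorem memLp_bb1 (μ : ℝ) (hμ : 0 < μ) : MemLp (fun x => -μ * (th x * bb μ x)) 2 volume := by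
  refine ((memLp_bb μ hμ).const_mul μ).mono (continuous_bb1 μ).aestronglyMeasurable ?_
  filter_upwards with x
  have h1 := abs_th_le x
  have h2 := (bb_pos μ x).le
  rw [norm_mul, norm_mul, norm_mul, norm_neg, Real.norm_eq_abs (th x)]
  exact mul_le_mul_of_nonneg_left (mul_le_of_le_one_left (norm_nonneg _) h1) (norm_nonneg _)

theorem memLp_bb2 (μ : ℝ) (hμ : 0 < μ) :
    MemLp (fun x => (μ ^ 2 - μ * (μ + 1) * sc x ^ 2) * bb μ x) 2 volume := by
  refine ((memLp_bb μ hμ).const_mul (μ ^ 2 + μ * (μ + 1))).mono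
    (continuous_bb2 μ).aestronglyMeasurable ?_
  filter_upwards with x
  rw [norm_mul, norm_mul]
  refine mul_le_mul_of_nonneg_right ?_ (norm_nonneg _)
  have h0 : 0 ≤ μ * (μ + 1) := by positivity
  rw [Real.norm_eq_abs, Real.norm_of_nonneg (by positivity), abs_le]
  have h4 := (sc_pos x).le
  have h5 := sc_le_one x
  have h6 : sc x ^ 2 ≤ 1 := pow_le_one₀ h4 h5
  have h7 : 0 ≤ sc x ^ 2 := sq_nonneg _
  have h8 : μ * (μ + 1) * sc x ^ 2 ≤ μ * (μ + 1) := mul_le_of_le_one_right h0 h6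
  have h9 : 0 ≤ μ * (μ + 1) * sc x ^ 2 := by positivity
  constructor <;> nlinarith [sq_nonneg μ]

/-- The normalisation. -/
noncomputable def nn (μ : ℝ) : ℝ := (√(∫ x, bb (2 * μ) x))⁻¹

/-- The eigenfunction, its derivative and its second derivative. -/
noncomputable def aa (μ x : ℝ) : ℝ := nn μ * bb μ x

/-- First derivative. -/
noncomputable def aa1 (μ x : ℝ) : ℝ := nn μ * (-μ * (th x * bb μ x))

/-- Second derivative. -/
noncomputable def aa2 (μ x : ℝ) : ℝ := nn μ * ((μ ^ 2 - μ * (μ + 1) * sc x ^ 2) * bb μ x)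

theorem rh1_aa (μ : ℝ) (hμ : 0 < μ) : RH1 (aa μ) (aa1 μ) :=
  rh1_of_hasDerivAt ((memLp_bb μ hμ).const_mul _) ((memLp_bb1 μ hμ).const_mul _)
    (continuous_const.mul (continuous_bb1 μ)) fun x => (hasDerivAt_bb μ x).const_mul _

theorem rh1_aa1 (μ : ℝ) (hμ : 0 < μ) : RH1 (aa1 μ) (aa2 μ) :=
  rh1_of_hasDerivAt ((memLp_bb1 μ hμ).const_mul _) ((memLp_bb2 μ hμ).const_mul _)
    (continuous_const.mul (continuous_bb2 μ)) fun x => (hasDerivAt_bb' μ x).const_mul _

theorem aa2_eq (μ x : ℝ) : aa2 μ x = μ ^ 2 * aa μ x - μ * (μ + 1) * sc x ^ 2 * aa μ x := by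
  unfold aa2 aa
  ring

theorem integral_aa_sq (μ : ℝ) (hμ : 0 < μ) : ∫ x, aa μ x ^ 2 = 1 := by
  have hp := integral_bb_pos (2 * μ) (by linarith)
  have h : ∀ x, aa μ x ^ 2 = (∫ x, bb (2 * μ) x)⁻¹ * bb (2 * μ) x := by
    intro x
    unfold aa nn
    rw [mul_pow, bb_sq, inv_pow, Real.sq_sqrt hp.le]
  simp_rw [h]
  rw [integral_const_mul, inv_mul_cancel₀ hp.ne']

variable {m : ℕ}

/-- The potential. -/
noncomputable def Wp (μ : ℝ) (i₀ : Fin m) (x : ℝ) : Matrix (Fin m) (Fin m) ℂ :=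
  Matrix.diagonal fun i => if i = i₀ then ((μ * (μ + 1) * sc x ^ 2 : ℝ) : ℂ) else 0

theorem pairing_Wp (μ : ℝ) (i₀ : Fin m) (x : ℝ) (v : Vec m) (t : ℝ) :
    pairing (Wp μ i₀ x) v (ray i₀ t) =
      ((μ * (μ + 1) * sc x ^ 2 * t : ℝ) : ℂ) * (starRingEnd ℂ) (v i₀) := by
  unfold pairing Wp
  rw [Finset.sum_eq_single i₀]
  · rw [Finset.sum_eq_single i₀]
    · simp only [Matrix.diagonal_apply_eq, if_true, ray_apply, PiLp.smul_apply,
        PiLp.single_apply, smul_eq_mul, mul_one]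
      push_cast
      ring
    · intro b _ hb
      rw [Matrix.diagonal_apply_ne _ (Ne.symm hb)]
      ring
    · intro h
      exact absurd (Finset.mem_univ _) h
  · intro a _ ha
    refine Finset.sum_eq_zero fun b _ => ?_
    by_cases hab : a = b
    · subst hab
      rw [Matrix.diagonal_apply_eq, if_neg ha]
      ring
    · rw [Matrix.diagonal_apply_ne _ hab]
      ring
  · intro h
    exact absurd (Finset.mem_univ _) h

theorem isEigen_Wp (μ : ℝ) (hμ : 0 < μ) (i₀ : Fin m) :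
    IsEigen (Wp μ i₀) (-(μ ^ 2)) fun x => ray i₀ (aa μ x) := by
  refine ⟨fun x => ray i₀ (aa1 μ x), isH1_ray (rh1_aa μ hμ) i₀, ?_⟩
  intro φ φ' h
  have hP : MemLp (fun x => φ x i₀) 2 volume := h.memLp.continuousLinearMap_comp (co i₀)
  have hP' : MemLp (fun x => φ' x i₀) 2 volume := h.memLp_deriv.continuousLinearMap_comp (co i₀)
  have h0 := integral_pair (rh1_aa1 μ hμ) h i₀
  have hi1 := integrable_pair (rh1_aa μ hμ).memLp' hP'
  have hi2 := integrable_pair (rh1_aa1 μ hμ).memLp' hP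
  have hi3 := integrable_pair (rh1_aa μ hμ).memLp hP
  rw [integral_add hi1 hi2] at h0
  have hi4 : Integrable fun x =>
      ((μ * (μ + 1) * sc x ^ 2 * aa μ x : ℝ) : ℂ) * (starRingEnd ℂ) (φ x i₀) := by
    refine ((hi3.const_mul ((μ : ℂ) ^ 2)).sub hi2).congr ?_
    filter_upwards with x
    simp only [Pi.sub_apply]
    rw [aa2_eq]
    push_cast
    ring
  have e2 : ∫ x, (aa2 μ x : ℂ) * (starRingEnd ℂ) (φ x i₀) =
      ((μ : ℂ) ^ 2) * (∫ x, (aa μ x : ℂ) * (starRingEnd ℂ) (φ x i₀)) -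
        ∫ x, ((μ * (μ + 1) * sc x ^ 2 * aa μ x : ℝ) : ℂ) * (starRingEnd ℂ) (φ x i₀) := by
    rw [← integral_const_mul, ← integral_sub (hi3.const_mul _) hi4]
    refine integral_congr_ae ?_
    filter_upwards with x
    rw [aa2_eq]
    push_cast
    ring
  simp_rw [inner_ray, pairing_Wp]
  push_cast at e2 h0 ⊢
  linear_combination h0 - e2

theorem isONEigen_Wp (μ : ℝ) (hμ : 0 < μ) (i₀ : Fin m) :
    IsONEigen (Wp μ i₀) (fun _ : Fin 1 => -(μ ^ 2)) (fun _ : Fin 1 => fun x => ray i₀ (aa μ x)) := by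
  refine ⟨fun _ => by have : 0 < μ ^ 2 := by positivity
                      linarith, fun _ => isEigen_Wp μ hμ i₀, fun i j => ?_⟩
  rw [if_pos (Subsingleton.elim i j)]
  simp_rw [inner_self_ray]
  have h := integral_complex_ofReal (μ := volume) (f := fun x => aa μ x ^ 2)
  rw [integral_aa_sq μ hμ] at h
  rw [← Complex.ofReal_one, ← h]

theorem le_negMoment_Wp (μ : ℝ) (hμ : 0 < μ) (i₀ : Fin m) :
    ENNReal.ofReal ((μ ^ 2) ^ (μ + 1 / 2)) ≤ negMoment (μ + 1 / 2) (Wp μ i₀) := by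
  unfold negMoment
  refine le_iSup_of_le 1 (le_iSup_of_le (fun _ => -(μ ^ 2)) (le_iSup_of_le _
    (le_iSup_of_le (isONEigen_Wp μ hμ i₀) ?_)))
  rw [Fin.sum_univ_one, abs_neg, abs_of_pos (by positivity : (0:ℝ) < μ ^ 2)]

theorem posSemidef_Wp (μ : ℝ) (hμ : 0 < μ) (i₀ : Fin m) (x : ℝ) : (Wp μ i₀ x).PosSemidef := by
  refine Matrix.PosSemidef.diagonal fun i => ?_
  show (0 : ℂ) ≤ if i = i₀ then ((μ * (μ + 1) * sc x ^ 2 : ℝ) : ℂ) else 0
  split_ifs
  · have : (0 : ℝ) ≤ μ * (μ + 1) * sc x ^ 2 := by positivity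
    exact_mod_cast this
  · exact le_rfl

theorem sum_eigenvalues_Wp (μ : ℝ) (hμ : 0 < μ) (i₀ : Fin m) (x : ℝ) :
    ∑ i, (posSemidef_Wp μ hμ i₀ x).isHermitian.eigenvalues i = μ * (μ + 1) * sc x ^ 2 := by
  have h := (posSemidef_Wp μ hμ i₀ x).isHermitian.trace_eq_sum_eigenvalues
  have h2 : (Wp μ i₀ x).trace = ((μ * (μ + 1) * sc x ^ 2 : ℝ) : ℂ) := by
    unfold Wp
    rw [Matrix.trace_diagonal, Finset.sum_ite_eq' Finset.univ i₀, if_pos (Finset.mem_univ _)]
  rw [h2] at h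
  have h3 : (((μ * (μ + 1) * sc x ^ 2 : ℝ)) : ℂ) =
      ((∑ i, (posSemidef_Wp μ hμ i₀ x).isHermitian.eigenvalues i : ℝ) : ℂ) := by
    rw [h]
    push_cast
    rfl
  exact (Complex.ofReal_injective h3).symm

theorem trPow_Wp (μ : ℝ) (hμ : 0 < μ) (i₀ : Fin m) (x p : ℝ) :
    trPow (Wp μ i₀ x) p = ∑ i, ((posSemidef_Wp μ hμ i₀ x).isHermitian.eigenvalues i) ^ p := by
  unfold trPow
  rw [dif_pos (posSemidef_Wp μ hμ i₀ x).isHermitian]

theorem trPow_Wp_le (μ : ℝ) (hμ : 0 < μ) (i₀ : Fin m) (x : ℝ) :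
    trPow (Wp μ i₀ x) (μ + 1) ≤ (μ * (μ + 1)) ^ (μ + 1) * bb (2 * μ + 2) x := by
  rw [trPow_Wp μ hμ]
  set c : ℝ := μ * (μ + 1) * sc x ^ 2 with hc
  have hsc := sc_pos x
  have hc0 : 0 < c := by positivity
  have hs : ∑ i, (posSemidef_Wp μ hμ i₀ x).isHermitian.eigenvalues i = c :=
    sum_eigenvalues_Wp μ hμ i₀ x
  have hn : ∀ i, 0 ≤ (posSemidef_Wp μ hμ i₀ x).isHermitian.eigenvalues i := fun i =>
    (posSemidef_Wp μ hμ i₀ x).eigenvalues_nonneg i
  have hle : ∀ i, (posSemidef_Wp μ hμ i₀ x).isHermitian.eigenvalues i ≤ c := fun i => by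
    rw [← hs]
    exact Finset.single_le_sum (fun j _ => hn j) (Finset.mem_univ i)
  have h1 : ∀ i, ((posSemidef_Wp μ hμ i₀ x).isHermitian.eigenvalues i) ^ (μ + 1) ≤
      (posSemidef_Wp μ hμ i₀ x).isHermitian.eigenvalues i * c ^ μ := by
    intro i
    rw [add_comm μ 1, Real.rpow_add_of_nonneg (hn i) zero_le_one hμ.le, Real.rpow_one]
    exact mul_le_mul_of_nonneg_left (Real.rpow_le_rpow (hn i) (hle i) hμ.le) (hn i)
  calc ∑ i, ((posSemidef_Wp μ hμ i₀ x).isHermitian.eigenvalues i) ^ (μ + 1)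
      ≤ ∑ i, (posSemidef_Wp μ hμ i₀ x).isHermitian.eigenvalues i * c ^ μ :=
        Finset.sum_le_sum fun i _ => h1 i
    _ = c * c ^ μ := by rw [← Finset.sum_mul, hs]
    _ = c ^ (μ + 1) := by rw [Real.rpow_add hc0, Real.rpow_one, mul_comm]
    _ = (μ * (μ + 1)) ^ (μ + 1) * bb (2 * μ + 2) x := by
        rw [hc, Real.mul_rpow (by positivity) (by positivity), bb_eq_rpow]
        congr 1
        rw [← Real.rpow_two, ← Real.rpow_mul hsc.le]
        congr 1
        ring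

/-- Lower bound for the density. -/
noncomputable def low (μ : ℝ) (m : ℕ) (x : ℝ) : ℝ := (μ * (μ + 1) * sc x ^ 2 / m) ^ (μ + 1)

theorem low_le_trPow_Wp (μ : ℝ) (hμ : 0 < μ) (i₀ : Fin m) (x : ℝ) :
    low μ m x ≤ trPow (Wp μ i₀ x) (μ + 1) := by
  rw [trPow_Wp μ hμ]
  have hs := sum_eigenvalues_Wp μ hμ i₀ x
  have hn : ∀ i, 0 ≤ (posSemidef_Wp μ hμ i₀ x).isHermitian.eigenvalues i := fun i =>
    (posSemidef_Wp μ hμ i₀ x).eigenvalues_nonneg i
  have hm : (0 : ℝ) < m := by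
    have : 0 < m := lt_of_le_of_lt (Nat.zero_le _) i₀.isLt
    exact_mod_cast this
  have hsum : ∑ _i : Fin m, μ * (μ + 1) * sc x ^ 2 / m ≤
      ∑ i, (posSemidef_Wp μ hμ i₀ x).isHermitian.eigenvalues i := by
    rw [hs, Finset.sum_const, Finset.card_univ, Fintype.card_fin, nsmul_eq_mul]
    exact (mul_div_cancel₀ _ hm.ne').le
  obtain ⟨i, _, hi⟩ := Finset.exists_le_of_sum_le ⟨i₀, Finset.mem_univ i₀⟩ hsum
  have h1 : low μ m x ≤ ((posSemidef_Wp μ hμ i₀ x).isHermitian.eigenvalues i) ^ (μ + 1) :=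
    Real.rpow_le_rpow (by positivity) hi (by linarith)
  exact h1.trans (Finset.single_le_sum
    (f := fun i => ((posSemidef_Wp μ hμ i₀ x).isHermitian.eigenvalues i) ^ (μ + 1))
    (fun j _ => Real.rpow_nonneg (hn j) _) (Finset.mem_univ i))

theorem potInt_Wp_ne_zero (μ : ℝ) (hμ : 0 < μ) (i₀ : Fin m) : potInt (Wp μ i₀) (μ + 1) ≠ 0 := by
  have hm : (0 : ℝ) < m := by
    have : 0 < m := lt_of_le_of_lt (Nat.zero_le _) i₀.isLt
    exact_mod_cast this
  have hpos : ∀ x, 0 < low μ m x := fun x => by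
    have := sc_pos x
    unfold low
    positivity
  have hmeas : Measurable fun x => ENNReal.ofReal (low μ m x) := by
    refine ENNReal.measurable_ofReal.comp ?_
    have h1 : Measurable fun x => μ * (μ + 1) * sc x ^ 2 / (m : ℝ) :=
      ((continuous_const.mul (continuous_sc.pow 2)).div_const _).measurable
    exact h1.pow_const _
  intro h0
  have h1 : ∫⁻ x, ENNReal.ofReal (low μ m x) = 0 := by
    refine le_antisymm ?_ bot_le
    rw [← h0]
    exact lintegral_mono fun x => ENNReal.ofReal_le_ofReal (low_le_trPow_Wp μ hμ i₀ x)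
  rw [lintegral_eq_zero_iff hmeas] at h1
  have h2 : ∀ᵐ _x : ℝ, False := by
    filter_upwards [h1] with x hx
    have h3 : ENNReal.ofReal (low μ m x) = 0 := hx
    rw [ENNReal.ofReal_eq_zero] at h3
    exact absurd (hpos x) (not_lt.mpr h3)
  have h4 : (volume : Measure ℝ) = 0 := by
    rwa [eventually_false_iff_eq_bot, ae_eq_bot] at h2
  exact Measure.measure_univ_ne_zero.mp (by rw [Real.volume_univ]; exact ENNReal.top_ne_zero) h4

theorem potInt_Wp_le (μ : ℝ) (hμ : 0 < μ) (i₀ : Fin m) :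
    potInt (Wp μ i₀) (μ + 1) ≤ ENNReal.ofReal ((μ * (μ + 1)) ^ (μ + 1) *
      (√Real.pi * Real.Gamma (μ + 1) / Real.Gamma (μ + 3 / 2))) := by
  have h1 : ∫ x, (μ * (μ + 1)) ^ (μ + 1) * bb (2 * μ + 2) x = (μ * (μ + 1)) ^ (μ + 1) *
      (√Real.pi * Real.Gamma (μ + 1) / Real.Gamma (μ + 3 / 2)) := by
    rw [integral_const_mul, integral_bb μ hμ]
  rw [← h1, ofReal_integral_eq_lintegral_ofReal ((integrable_bb _ (by linarith)).const_mul _)]
  · exact lintegral_mono fun x => ENNReal.ofReal_le_ofReal (trPow_Wp_le μ hμ i₀ x)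
  · filter_upwards with x
    have := (bb_pos (2 * μ + 2) x).le
    simp only [Pi.zero_apply]
    positivity

theorem const_eq (ν : ℝ) (hν : 0 < ν) : Lone (ν + 1 / 2) =
    (ν ^ 2) ^ (ν + 1 / 2) / ((ν * (ν + 1)) ^ (ν + 1) *
      (√Real.pi * Real.Gamma (ν + 1) / Real.Gamma (ν + 3 / 2))) := by
  unfold Lone Lcl
  have e1 : ν + 1 / 2 - 1 / 2 = ν := by ring
  have e2 : ν + 1 / 2 + 1 / 2 = ν + 1 := by ring
  have e3 : ν + 1 / 2 + 1 = ν + 3 / 2 := by ring
  have e4 : ν + 1 / 2 + 3 / 2 = (ν + 1) + 1 := by ring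
  rw [e1, e2, e3, e4, Real.Gamma_add_one (by positivity : ν + 1 ≠ 0)]
  have hG1 : 0 < Real.Gamma (ν + 1) := Real.Gamma_pos_of_pos (by linarith)
  have hG2 : 0 < Real.Gamma (ν + 3 / 2) := Real.Gamma_pos_of_pos (by linarith)
  have hpi : 0 < √Real.pi := Real.sqrt_pos.mpr Real.pi_pos
  have h1 : (ν ^ 2) ^ (ν + 1 / 2) = ν ^ ν * (ν ^ ν * ν) := by
    rw [← Real.rpow_two, ← Real.rpow_mul hν.le]
    have : 2 * (ν + 1 / 2) = ν + (ν + 1) := by ring
    rw [this, Real.rpow_add hν, Real.rpow_add_one hν.ne']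
  have h2 : (ν * (ν + 1)) ^ (ν + 1) = (ν ^ ν * ν) * ((ν + 1) ^ ν * (ν + 1)) := by
    rw [Real.mul_rpow hν.le (by linarith), Real.rpow_add_one hν.ne',
      Real.rpow_add_one (by linarith : ν + 1 ≠ 0)]
  rw [h1, h2, Real.div_rpow hν.le (by linarith)]
  have h3 : 0 < ν ^ ν := Real.rpow_pos_of_pos hν _
  have h4 : 0 < (ν + 1) ^ ν := Real.rpow_pos_of_pos (by linarith) _
  set G1 := Real.Gamma (ν + 1)
  set G2 := Real.Gamma (ν + 3 / 2)
  set A := ν ^ ν
  set B := (ν + 1) ^ ν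
  set P := √Real.pi
  have h5 : ν + 1 ≠ 0 := by positivity
  field_simp

end LowerAux

open LowerAux in
theorem Lone_le_LT (γ : ℝ) (hγ : 1 / 2 < γ) (m : ℕ) (hm : 1 ≤ m) :
    ENNReal.ofReal (Lone γ) ≤ LT γ m := by
  obtain ⟨ν, rfl⟩ : ∃ ν, γ = ν + 1 / 2 := ⟨γ - 1 / 2, by ring⟩
  have hν : 0 < ν := by linarith
  have i₀ : Fin m := ⟨0, hm⟩
  have hle := potInt_Wp_le ν hν i₀
  have e0 : ν + 1 / 2 + 1 / 2 = ν + 1 := by ring
  have hG1 : 0 < Real.Gamma (ν + 1) := Real.Gamma_pos_of_pos (by linarith)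
  have hG2 : 0 < Real.Gamma (ν + 3 / 2) := Real.Gamma_pos_of_pos (by linarith)
  have hpi : 0 < √Real.pi := Real.sqrt_pos.mpr Real.pi_pos
  have hpot : IsPotential (ν + 1 / 2) (Wp ν i₀) := by
    refine ⟨fun a b => ?_, posSemidef_Wp ν hν i₀, ?_⟩
    · unfold Wp
      by_cases hab : a = b
      · subst hab
        simp only [Matrix.diagonal_apply_eq]
        split_ifs
        · exact (Complex.continuous_ofReal.comp
            (continuous_const.mul (SharpAux.continuous_sc.pow 2))).measurable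
        · exact measurable_const
      · simp only [Matrix.diagonal_apply_ne _ hab]
        exact measurable_const
    · rw [e0]
      exact (hle.trans_lt ENNReal.ofReal_lt_top).ne
  have h3 : (0 : ℝ) < (ν * (ν + 1)) ^ (ν + 1) *
      (√Real.pi * Real.Gamma (ν + 1) / Real.Gamma (ν + 3 / 2)) := by positivity
  unfold LT
  refine le_iSup_of_le (Wp ν i₀) (le_iSup_of_le hpot (le_iSup_of_le
    (by rw [e0]; exact potInt_Wp_ne_zero ν hν i₀) ?_))
  rw [const_eq ν hν, ENNReal.ofReal_div_of_pos h3, e0]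
  exact ENNReal.div_le_div (le_negMoment_Wp ν hν i₀) hle

end Vale.Agent.P371.Full
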