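import Vale.Agent.P371.Full.Base
import Vale.Agent.P371.Full.Lower

/-!
# P371 (full): scalar integrals and constants
-/

open scoped Matrix.Norms.L2Operator ComplexOrder
open Matrix MeasureTheory Set Filter Topology

namespace Vale.Agent.P371.Full

variable {N : ℕ}

/-! ### The function `t^{ν-1} log (1 + a/t)` -/

theorem log_nonneg' {a t : ℝ} (ha : 0 ≤ a) (ht : 0 < t) : 0 ≤ Real.log (1 + a / t) :=
  Real.log_nonneg (by have := div_nonneg ha ht.le; linarith)

theorem ker_meas (ν a : ℝ) : Measurable fun t : ℝ => t ^ (ν - 1) * Real.log (1 + a / t) :=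
  (measurable_id.pow_const _).mul
    (Real.measurable_log.comp (measurable_const.add (measurable_const.div measurable_id)))

theorem ker_integrable_one {ν : ℝ} (hν : 0 < ν) (hν1 : ν < 1) :
    IntegrableOn (fun t : ℝ => t ^ (ν - 1) * Real.log (1 + 1 / t)) (Ioi 0) := by
  rw [← Ioc_union_Ioi_eq_Ioi (zero_le_one' ℝ)]
  refine IntegrableOn.union ?_ ?_
  · have h1 : IntegrableOn (fun t : ℝ => (2 ^ (ν / 2) / (ν / 2)) * t ^ (ν / 2 - 1)) (Ioc 0 1) := by
      have := (intervalIntegral.intervalIntegrable_rpow' (a := 0) (b := 1) (r := ν / 2 - 1)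
        (by linarith)).const_mul (2 ^ (ν / 2) / (ν / 2))
      exact (intervalIntegrable_iff_integrableOn_Ioc_of_le zero_le_one).mp this
    refine Integrable.mono' h1 (ker_meas ν 1).aestronglyMeasurable ?_
    filter_upwards [ae_restrict_mem measurableSet_Ioc] with t ht
    have ht0 := ht.1
    have hl := log_nonneg' (zero_le_one' ℝ) ht0
    have hr : 0 ≤ t ^ (ν - 1) := Real.rpow_nonneg ht0.le _
    rw [Real.norm_of_nonneg (mul_nonneg hr hl)]
    have h2 : Real.log (1 + 1 / t) ≤ (1 + 1 / t) ^ (ν / 2) / (ν / 2) :=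
      Real.log_le_rpow_div (by positivity) (by positivity)
    have h3 : (1 + 1 / t) ^ (ν / 2) ≤ (2 / t) ^ (ν / 2) := by
      apply Real.rpow_le_rpow (by positivity) _ (by positivity)
      rw [le_div_iff₀ ht0, add_mul, div_mul_cancel₀ _ ht0.ne']
      linarith [ht.2]
    have h4 : (2 / t) ^ (ν / 2) = 2 ^ (ν / 2) * t ^ (-(ν / 2)) := by
      rw [Real.div_rpow (by norm_num) ht0.le, Real.rpow_neg ht0.le]
      rfl
    have h5 : t ^ (ν - 1) * t ^ (-(ν / 2)) = t ^ (ν / 2 - 1) := by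
      rw [← Real.rpow_add ht0]
      congr 1
      ring
    calc t ^ (ν - 1) * Real.log (1 + 1 / t) ≤ t ^ (ν - 1) * ((2 / t) ^ (ν / 2) / (ν / 2)) :=
          mul_le_mul_of_nonneg_left (h2.trans (by gcongr)) hr
      _ = (2 ^ (ν / 2) / (ν / 2)) * t ^ (ν / 2 - 1) := by
          rw [h4, ← h5]
          ring
  · have h1 : IntegrableOn (fun t : ℝ => t ^ (ν - 2)) (Ioi 1) :=
      integrableOn_Ioi_rpow_of_lt (by linarith) one_pos
    refine Integrable.mono' h1 (ker_meas ν 1).aestronglyMeasurable ?_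
    filter_upwards [ae_restrict_mem measurableSet_Ioi] with t ht
    have ht0 : 0 < t := lt_trans one_pos ht
    have hl := log_nonneg' (zero_le_one' ℝ) ht0
    have hr : 0 ≤ t ^ (ν - 1) := Real.rpow_nonneg ht0.le _
    rw [Real.norm_of_nonneg (mul_nonneg hr hl)]
    have h2 : Real.log (1 + 1 / t) ≤ 1 / t := by
      have := Real.log_le_sub_one_of_pos (show 0 < 1 + 1 / t by positivity)
      linarith
    calc t ^ (ν - 1) * Real.log (1 + 1 / t) ≤ t ^ (ν - 1) * (1 / t) :=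
          mul_le_mul_of_nonneg_left h2 hr
      _ = t ^ (ν - 2) := by
          have h3 : t ^ (ν - 2) = t ^ (ν - 1) / t := by
            rw [← Real.rpow_sub_one ht0.ne']
            congr 1
            ring
          rw [h3, mul_one_div]

theorem Jn_pos {ν : ℝ} (hν : 0 < ν) (hν1 : ν < 1) : 0 < Jn ν := by
  unfold Jn
  rw [setIntegral_pos_iff_support_of_nonneg_ae]
  · have : Function.support (fun t : ℝ => t ^ (ν - 1) * Real.log (1 + 1 / t)) ∩ Ioi 0 = Ioi 0 := by
      apply inter_eq_right.mpr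
      intro t ht
      have ht0 : 0 < t := ht
      have h1 : 0 < Real.log (1 + 1 / t) :=
        Real.log_pos (by have : 0 < 1 / t := by positivity
                         linarith)
      have h2 : 0 < t ^ (ν - 1) := Real.rpow_pos_of_pos ht0 _
      exact (mul_pos h2 h1).ne'
    rw [this, Real.volume_Ioi]
    exact ENNReal.coe_lt_top
  · filter_upwards [ae_restrict_mem measurableSet_Ioi] with t ht
    exact mul_nonneg (Real.rpow_nonneg (le_of_lt ht) _) (log_nonneg' zero_le_one ht)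
  · exact ker_integrable_one hν hν1

theorem ker_integrable {ν : ℝ} (hν : 0 < ν) (hν1 : ν < 1) {a : ℝ} (ha : 0 ≤ a) :
    IntegrableOn (fun t : ℝ => t ^ (ν - 1) * Real.log (1 + a / t)) (Ioi 0) := by
  rcases ha.eq_or_lt with rfl | ha
  · simp
  · have h1 := (integrableOn_Ioi_comp_mul_left_iff
      (fun t : ℝ => t ^ (ν - 1) * Real.log (1 + 1 / t)) 0 (inv_pos.mpr ha)).mpr
      (by rw [mul_zero]; exact ker_integrable_one hν hν1)
    have h2 := h1.const_mul (a ^ (ν - 1))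
    refine IntegrableOn.congr_fun h2 (fun t ht => ?_) measurableSet_Ioi
    have ht0 : 0 < t := ht
    rw [Real.mul_rpow (by positivity) ht0.le, ← mul_assoc, ← mul_assoc,
      ← Real.mul_rpow ha.le (by positivity), mul_inv_cancel₀ ha.ne', Real.one_rpow, one_mul]
    congr 3
    field_simp

theorem ker_integral {ν : ℝ} (hν : 0 < ν) (_hν1 : ν < 1) {a : ℝ} (ha : 0 ≤ a) :
    ∫ t in Ioi (0 : ℝ), t ^ (ν - 1) * Real.log (1 + a / t) = a ^ ν * Jn ν := by
  rcases ha.eq_or_lt with rfl | ha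
  · simp [Real.zero_rpow hν.ne']
  · have h1 := integral_comp_mul_left_Ioi
      (fun t : ℝ => t ^ (ν - 1) * Real.log (1 + 1 / t)) 0 (inv_pos.mpr ha)
    rw [mul_zero, inv_inv, smul_eq_mul] at h1
    have h2 : a ^ ν * Jn ν = a ^ (ν - 1) * (a * Jn ν) := by
      rw [← mul_assoc, ← Real.rpow_add_one ha.ne']
      congr 2
      ring
    rw [h2]
    unfold Jn
    rw [← h1, ← integral_const_mul]
    refine setIntegral_congr_fun measurableSet_Ioi fun t ht => ?_
    have ht0 : 0 < t := ht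
    rw [Real.mul_rpow (by positivity) ht0.le, ← mul_assoc, ← mul_assoc,
      ← Real.mul_rpow ha.le (by positivity), mul_inv_cancel₀ ha.ne', Real.one_rpow, one_mul]
    congr 3
    field_simp

/-- Tonelli. -/
theorem tonelli {ν : ℝ} (hν : 0 < ν) (hν1 : ν < 1) {b : ℝ} (hb : 0 ≤ b) {φ : ℝ → ℝ}
    (hφc : Continuous φ) (hφ : ∀ y ∈ Ioc 0 b, 0 ≤ φ y) {S : ℝ → ℝ}
    (hS : ∀ t, 0 < t → S t = ∫ y in (0 : ℝ)..b, Real.log (1 + φ y / t)) :
    IntegrableOn (fun t => t ^ (ν - 1) * S t) (Ioi 0) ∧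
      ∫ t in Ioi (0 : ℝ), t ^ (ν - 1) * S t = Jn ν * ∫ y in (0 : ℝ)..b, φ y ^ ν := by
  set μ₁ := (volume : Measure ℝ).restrict (Ioi 0) with hμ₁
  set μ₂ := (volume : Measure ℝ).restrict (Ioc 0 b) with hμ₂
  set f : ℝ × ℝ → ℝ := fun p => p.1 ^ (ν - 1) * Real.log (1 + φ p.2 / p.1) with hf
  have hm : Measurable f :=
    (measurable_fst.pow_const _).mul (Real.measurable_log.comp
      (measurable_const.add ((hφc.measurable.comp measurable_snd).div measurable_fst)))
  have hpow : Continuous fun y => (max (φ y) 0) ^ ν :=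
    (hφc.max continuous_const).rpow_const fun _ => Or.inr hν.le
  have hint2 : Integrable (fun y => (max (φ y) 0) ^ ν) μ₂ :=
    (hpow.integrableOn_Icc (a := 0) (b := b)).mono_set Ioc_subset_Icc_self
  have hae2 : ∀ᵐ y ∂μ₂, y ∈ Ioc 0 b := ae_restrict_mem measurableSet_Ioc
  have hfint : Integrable f (μ₁.prod μ₂) := by
    rw [integrable_prod_iff' hm.aestronglyMeasurable]
    constructor
    · filter_upwards [hae2] with y hy
      exact ker_integrable hν hν1 (hφ y hy)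
    · refine (hint2.mul_const (Jn ν)).congr ?_
      filter_upwards [hae2] with y hy
      rw [max_eq_left (hφ y hy), ← ker_integral hν hν1 (hφ y hy)]
      refine setIntegral_congr_fun measurableSet_Ioi fun t ht => ?_
      have ht0 : 0 < t := ht
      simp only [hf]
      rw [Real.norm_of_nonneg (mul_nonneg (Real.rpow_nonneg ht0.le _)
        (log_nonneg' (hφ y hy) ht0))]
  have hin : ∀ t ∈ Ioi (0 : ℝ), ∫ y, f (t, y) ∂μ₂ = t ^ (ν - 1) * S t := by
    intro t ht
    rw [hS t ht, intervalIntegral.integral_of_le hb, ← integral_const_mul]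
  constructor
  · exact IntegrableOn.congr_fun hfint.integral_prod_left hin measurableSet_Ioi
  · calc ∫ t in Ioi (0 : ℝ), t ^ (ν - 1) * S t = ∫ t, ∫ y, f (t, y) ∂μ₂ ∂μ₁ :=
          (setIntegral_congr_fun measurableSet_Ioi hin).symm
      _ = ∫ y, ∫ t, f (t, y) ∂μ₁ ∂μ₂ := integral_integral_swap hfint
      _ = ∫ y, Jn ν * φ y ^ ν ∂μ₂ := by
          refine setIntegral_congr_fun measurableSet_Ioc fun y hy => ?_
          simp only [hf]
          rw [ker_integral hν hν1 (hφ y hy), mul_comm]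
      _ = Jn ν * ∫ y in (0 : ℝ)..b, φ y ^ ν := by
          rw [integral_const_mul, intervalIntegral.integral_of_le hb]

/-! ### `Psi` -/

theorem Psi_eq {t ζ : ℝ} (ht : 0 < t) (hζ : 0 ≤ ζ) :
    Psi t ζ = ∫ u in (0 : ℝ)..ζ, Real.log (1 + u / t) := by
  have hd : ∀ u ∈ uIcc 0 ζ, HasDerivAt (fun u => (t + u) * Real.log (1 + u / t) - u)
      (Real.log (1 + u / t)) u := by
    intro u hu
    rw [uIcc_of_le hζ] at hu
    have h0 : (0 : ℝ) ≤ u / t := div_nonneg hu.1 ht.le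
    have h1 : (1 + u / t) ≠ 0 := by positivity
    have h2 := ((((hasDerivAt_id u).const_add t).mul
      ((((hasDerivAt_id u).div_const t).const_add 1).log h1)).sub (hasDerivAt_id u))
    refine h2.congr_deriv ?_
    have h3 : t + u ≠ 0 := by have := hu.1; positivity
    have h4 : 1 + u / t = (t + u) / t := by field_simp
    simp only [id]
    rw [h4]
    field_simp
    ring
  have hc : ContinuousOn (fun u => Real.log (1 + u / t)) (uIcc 0 ζ) := by
    rw [uIcc_of_le hζ]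
    refine ContinuousOn.log (by fun_prop) fun u hu => ?_
    have h0 : (0 : ℝ) ≤ u / t := div_nonneg hu.1 ht.le
    positivity
  rw [intervalIntegral.integral_eq_sub_of_hasDerivAt hd hc.intervalIntegrable]
  unfold Psi
  simp

theorem Psi_nonneg {t ζ : ℝ} (ht : 0 < t) (hζ : 0 ≤ ζ) : 0 ≤ Psi t ζ := by
  rw [Psi_eq ht hζ]
  exact intervalIntegral.integral_nonneg hζ fun u hu => log_nonneg' hu.1 ht

/-- `∫_ε^T t^{ν-1} Ψ_t(ζ) dt ≤ ζ^{1+ν} J_ν / (1+ν)`. -/
theorem integral_Psi_le {ν : ℝ} (hν : 0 < ν) (hν1 : ν < 1) {ζ ε T : ℝ} (hζ : 0 ≤ ζ) (hε : 0 < ε)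
    (hT : ε < T) :
    ∫ t in ε..T, t ^ (ν - 1) * Psi t ζ ≤ ζ ^ (1 + ν) * Jn ν / (1 + ν) := by
  obtain ⟨h1, h2⟩ := tonelli hν hν1 hζ (φ := fun y => y) continuous_id (fun y hy => hy.1.le)
    (S := fun t => Psi t ζ) (fun t ht => Psi_eq ht hζ)
  have h3 : Jn ν * ∫ y in (0 : ℝ)..ζ, y ^ ν = ζ ^ (1 + ν) * Jn ν / (1 + ν) := by
    rw [integral_rpow (Or.inl (by linarith)), Real.zero_rpow (by linarith), sub_zero,
      add_comm ν 1]
    ring
  rw [← h3, ← h2, intervalIntegral.integral_of_le hT.le]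
  refine setIntegral_mono_set h1 ?_ ?_
  · filter_upwards [ae_restrict_mem measurableSet_Ioi] with t ht
    exact mul_nonneg (Real.rpow_nonneg (le_of_lt ht) _) (Psi_nonneg ht hζ)
  · have hsub : Ioc ε T ⊆ Ioi 0 := fun t ht => lt_trans hε ht.1
    exact hsub.eventuallyLE

/-! ### `sig` -/

theorem sig_eq {t e : ℝ} (ht : 0 < t) (he : 0 ≤ e) :
    sig t e = ∫ y in (0 : ℝ)..√e, Real.log (1 + (e - y ^ 2) / t) := by
  have hse : 0 ≤ √e := Real.sqrt_nonneg e
  have hk : √e < √(e + t) := Real.sqrt_lt_sqrt he (by linarith)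
  have hksq : √(e + t) ^ 2 = e + t := Real.sq_sqrt (by linarith)
  have hesq : √e ^ 2 = e := Real.sq_sqrt he
  set k := √(e + t) with hkdef
  have heta : ∀ x, x ≠ 0 → HasDerivAt eta (Real.log x) x := by
    intro x hx
    have h2 := ((hasDerivAt_id x).mul (Real.hasDerivAt_log hx)).sub (hasDerivAt_id x)
    refine h2.congr_deriv ?_
    simp only [id]
    field_simp
    ring
  have hd : ∀ y ∈ uIcc 0 (√e), HasDerivAt (fun y => eta (k + y) - eta (k - y) - y * Real.log t)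
      (Real.log (1 + (e - y ^ 2) / t)) y := by
    intro y hy
    rw [uIcc_of_le hse] at hy
    have h1 : 0 < k + y := by linarith [hy.1, hy.2]
    have h2 : 0 < k - y := by linarith [hy.1, hy.2]
    have h3 := (((heta _ h1.ne').comp y ((hasDerivAt_id y).const_add k)).sub
      ((heta _ h2.ne').comp y ((hasDerivAt_id y).const_sub k))).sub
      ((hasDerivAt_id y).mul_const (Real.log t))
    refine h3.congr_deriv ?_
    have h4 : 1 + (e - y ^ 2) / t = (k + y) * (k - y) / t := by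
      field_simp
      linear_combination -hksq
    rw [h4, Real.log_div (by positivity) ht.ne', Real.log_mul h1.ne' h2.ne']
    simp
  have hc : ContinuousOn (fun y => Real.log (1 + (e - y ^ 2) / t)) (uIcc 0 (√e)) := by
    rw [uIcc_of_le hse]
    refine ContinuousOn.log (by fun_prop) fun y hy => ?_
    have h0 : (0 : ℝ) ≤ (e - y ^ 2) / t := by
      apply div_nonneg _ ht.le
      nlinarith [hy.1, hy.2]
    positivity
  rw [intervalIntegral.integral_eq_sub_of_hasDerivAt hd hc.intervalIntegrable]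
  unfold sig
  simp
  ring

theorem sub_sq_nonneg {e y : ℝ} (he : 0 ≤ e) (hy : y ∈ Icc 0 (√e)) : 0 ≤ e - y ^ 2 := by
  have := Real.sq_sqrt he
  nlinarith [hy.1, hy.2]

theorem sig_nonneg {t e : ℝ} (ht : 0 < t) (he : 0 ≤ e) : 0 ≤ sig t e := by
  rw [sig_eq ht he]
  exact intervalIntegral.integral_nonneg (Real.sqrt_nonneg e) fun u hu =>
    log_nonneg' (sub_sq_nonneg he hu) ht

theorem integral_sub_sq {ν : ℝ} (hν : 0 < ν) {e : ℝ} (he : 0 ≤ e) :
    ∫ y in (0 : ℝ)..√e, (e - y ^ 2) ^ ν =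
      e ^ (ν + 1 / 2) * ∫ u in (0 : ℝ)..1, (1 - u ^ 2) ^ ν := by
  rcases he.eq_or_lt with rfl | he
  · simp [Real.zero_rpow (by positivity : ν + 2⁻¹ ≠ 0)]
  · have hs : 0 < √e := Real.sqrt_pos.mpr he
    have h1 := intervalIntegral.integral_comp_mul_left (a := 0) (b := 1)
      (fun y => (e - y ^ 2) ^ ν) hs.ne'
    rw [mul_zero, mul_one, smul_eq_mul] at h1
    have h2 : ∫ x in (0 : ℝ)..1, (e - (√e * x) ^ 2) ^ ν =
        e ^ ν * ∫ u in (0 : ℝ)..1, (1 - u ^ 2) ^ ν := by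
      rw [← intervalIntegral.integral_const_mul]
      refine intervalIntegral.integral_congr fun x hx => ?_
      rw [uIcc_of_le zero_le_one] at hx
      have h3 : e - (√e * x) ^ 2 = e * (1 - x ^ 2) := by
        rw [mul_pow, Real.sq_sqrt he.le]; ring
      rw [h3, Real.mul_rpow he.le (by nlinarith [hx.1, hx.2])]
    rw [h2] at h1
    have h4 : e ^ (ν + 1 / 2) = √e * e ^ ν := by
      rw [Real.rpow_add he, ← Real.sqrt_eq_rpow, mul_comm]
    rw [h4, mul_assoc, h1, ← mul_assoc, mul_inv_cancel₀ hs.ne', one_mul]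

/-- `∫_0^∞ t^{ν-1} σ_t(e) dt = J_ν e^{ν+1/2} ∫_0^1 (1-u²)^ν du`. -/
theorem tendsto_integral_sig {ν : ℝ} (hν : 0 < ν) (hν1 : ν < 1) {e : ℝ} (he : 0 ≤ e) :
    Tendsto (fun n : ℕ => ∫ t in (1 / (n + 1) : ℝ)..(n + 2 : ℝ), t ^ (ν - 1) * sig t e) atTop
      (𝓝 (Jn ν * e ^ (ν + 1 / 2) * ∫ u in (0 : ℝ)..1, (1 - u ^ 2) ^ ν)) := by
  obtain ⟨h1, h2⟩ := tonelli hν hν1 (Real.sqrt_nonneg e) (φ := fun y => e - y ^ 2)
    (by fun_prop) (fun y hy => sub_sq_nonneg he ⟨hy.1.le, hy.2⟩)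
    (S := fun t => sig t e) (fun t ht => sig_eq ht he)
  rw [integral_sub_sq hν he, ← mul_assoc] at h2
  rw [← h2]
  have hle : ∀ n : ℕ, (1 / (n + 1) : ℝ) ≤ n + 2 := by
    intro n
    have h3 : (1 / (n + 1) : ℝ) ≤ 1 := by
      rw [div_le_one (by positivity)]
      linarith [Nat.cast_nonneg (α := ℝ) n]
    linarith [Nat.cast_nonneg (α := ℝ) n]
  have hmono : Monotone fun n : ℕ => Ioc (1 / (n + 1) : ℝ) (n + 2 : ℝ) := by
    intro n k hnk
    have hc : (n : ℝ) ≤ k := by exact_mod_cast hnk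
    refine Ioc_subset_Ioc ?_ (by linarith)
    exact one_div_le_one_div_of_le (by positivity) (by linarith)
  have hun : (⋃ n : ℕ, Ioc (1 / (n + 1) : ℝ) (n + 2 : ℝ)) = Ioi 0 := by
    ext t
    simp only [mem_iUnion, mem_Ioc, mem_Ioi]
    constructor
    · rintro ⟨n, hn, _⟩
      exact lt_trans (by positivity) hn
    · intro ht
      obtain ⟨n, hn⟩ := exists_nat_gt (max t (1 / t))
      have hn1 := lt_of_le_of_lt (le_max_left _ _) hn
      have hn2 := lt_of_le_of_lt (le_max_right _ _) hn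
      refine ⟨n, ?_, by linarith⟩
      rw [div_lt_iff₀ ht] at hn2
      rw [div_lt_iff₀ (by positivity)]
      nlinarith
  have h3 := tendsto_setIntegral_of_monotone (μ := volume)
    (f := fun t => t ^ (ν - 1) * sig t e) (fun n : ℕ => measurableSet_Ioc) hmono
    (by rw [hun]; exact h1)
  rw [hun] at h3
  refine h3.congr fun n => ?_
  rw [intervalIntegral.integral_of_le (hle n)]

/-! ### Constants -/

theorem integral_pos_beta {ν : ℝ} (hν : 0 < ν) : 0 < ∫ u in (0 : ℝ)..1, (1 - u ^ 2) ^ ν := by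
  refine intervalIntegral.intervalIntegral_pos_of_pos_on ?_ ?_ zero_lt_one
  · refine Continuous.intervalIntegrable ?_ _ _
    exact (continuous_const.sub (continuous_id.pow 2)).rpow_const fun _ => Or.inr hν.le
  · intro u hu
    apply Real.rpow_pos_of_pos
    nlinarith [hu.1, hu.2]

theorem Lone_pos {ν : ℝ} (hν : 0 < ν) : 0 < Lone (ν + 1 / 2) := by
  rw [LowerAux.const_eq ν hν]
  have hG1 : 0 < Real.Gamma (ν + 1) := Real.Gamma_pos_of_pos (by linarith)
  have hG2 : 0 < Real.Gamma (ν + 3 / 2) := Real.Gamma_pos_of_pos (by linarith)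
  have hpi : 0 < √Real.pi := Real.sqrt_pos.mpr Real.pi_pos
  positivity

theorem two_four_bet {ν : ℝ} (hν : 0 < ν) :
    2 * (4 : ℝ) ^ ν * bet (ν + 1) ν = √Real.pi * Real.Gamma (ν + 1) / Real.Gamma (ν + 3 / 2) := by
  unfold bet
  have h2 := Real.Gamma_mul_Gamma_add_half (ν + 1)
  have e1 : ν + 1 + 1 / 2 = ν + 3 / 2 := by ring
  have e2 : 2 * (ν + 1) = ν + 1 + ν + 1 := by ring
  rw [e1, e2] at h2
  have hG1 : 0 < Real.Gamma (ν + 1) := Real.Gamma_pos_of_pos (by linarith)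
  have hG2 : 0 < Real.Gamma (ν + 3 / 2) := Real.Gamma_pos_of_pos (by linarith)
  have hG3 : 0 < Real.Gamma (ν + 1 + ν + 1) := Real.Gamma_pos_of_pos (by linarith)
  have h3 : 2 * (4 : ℝ) ^ ν * (2 : ℝ) ^ (1 - (ν + 1 + ν + 1)) = 1 := by
    have e4 : (4 : ℝ) ^ ν = 2 ^ (2 * ν) := by
      rw [Real.rpow_mul (by norm_num), Real.rpow_two]
      norm_num
    rw [e4, mul_assoc, ← Real.rpow_add (by norm_num)]
    have e5 : 2 * ν + (1 - (ν + 1 + ν + 1)) = -1 := by ring
    rw [e5, Real.rpow_neg_one]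
    norm_num
  rw [← mul_div_assoc, div_eq_div_iff hG3.ne' hG2.ne']
  calc 2 * (4 : ℝ) ^ ν * (Real.Gamma (ν + 1) * Real.Gamma (ν + 1)) * Real.Gamma (ν + 3 / 2) =
      2 * (4 : ℝ) ^ ν * Real.Gamma (ν + 1) * (Real.Gamma (ν + 1) * Real.Gamma (ν + 3 / 2)) := by
        ring
    _ = _ := by
      rw [h2]
      linear_combination (Real.Gamma (ν + 1) * Real.Gamma (ν + 1 + ν + 1) * √Real.pi) * h3

theorem two_integral_eq {ν : ℝ} (hν : 0 < ν) :
    2 * ∫ u in (0 : ℝ)..1, (1 - u ^ 2) ^ ν =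
      √Real.pi * Real.Gamma (ν + 1) / Real.Gamma (ν + 3 / 2) := by
  set g : ℝ → ℝ := fun u => (1 - u ^ 2) ^ ν with hg
  have hgc : Continuous g := by
    rw [hg]
    exact (continuous_const.sub (continuous_id.pow 2)).rpow_const fun _ => Or.inr hν.le
  have h1 : ∫ u in (-1 : ℝ)..0, g u = ∫ u in (0 : ℝ)..1, g u := by
    have := intervalIntegral.integral_comp_neg (a := 0) (b := 1) g
    rw [neg_zero] at this
    rw [← this]
    refine intervalIntegral.integral_congr fun x _ => ?_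
    simp [hg]
  have h2 : ∫ u in (-1 : ℝ)..1, g u = 2 * ∫ u in (0 : ℝ)..1, g u := by
    rw [← intervalIntegral.integral_add_adjacent_intervals (hgc.intervalIntegrable (-1) 0)
      (hgc.intervalIntegrable 0 1), h1]
    ring
  have h3 : ∫ x in (0 : ℝ)..1, g (2 * x - 1) = 2⁻¹ * ∫ x in (-1 : ℝ)..1, g x := by
    have h := intervalIntegral.integral_comp_mul_sub (a := 0) (b := 1) g (c := 2) two_ne_zero 1
    rw [smul_eq_mul, show (2 : ℝ) * 0 - 1 = -1 by norm_num,
      show (2 : ℝ) * 1 - 1 = 1 by norm_num] at h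
    exact h
  have h4 : ∫ x in (0 : ℝ)..1, g (2 * x - 1) = 4 ^ ν * bet (ν + 1) ν := by
    have h5 := beta_base (s := ν + 1) (q := ν) (w := 1) (by linarith) hν.le one_pos
    rw [Real.one_rpow, one_mul] at h5
    rw [← h5, ← intervalIntegral.integral_const_mul]
    refine intervalIntegral.integral_congr fun x hx => ?_
    rw [uIcc_of_le zero_le_one] at hx
    simp only [hg]
    have h6 : 1 - (2 * x - 1) ^ 2 = 4 * (x * (1 - x)) := by ring
    rw [h6, Real.mul_rpow (by norm_num) (mul_nonneg hx.1 (by linarith [hx.2])),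
      Real.mul_rpow hx.1 (by linarith [hx.2]), add_sub_cancel_right]
  rw [← two_four_bet hν, mul_assoc, ← h4, ← h2, h3]
  ring

/-- The constant. -/
theorem Lone_eq {ν : ℝ} (hν : 0 < ν) :
    Lone (ν + 1 / 2) * (2 * ∫ u in (0 : ℝ)..1, (1 - u ^ 2) ^ ν) = (ν / (1 + ν)) ^ (1 + ν) / ν := by
  rw [two_integral_eq hν, LowerAux.const_eq ν hν]
  have hG1 : 0 < Real.Gamma (ν + 1) := Real.Gamma_pos_of_pos (by linarith)
  have hG2 : 0 < Real.Gamma (ν + 3 / 2) := Real.Gamma_pos_of_pos (by linarith)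
  have hpi : 0 < √Real.pi := Real.sqrt_pos.mpr Real.pi_pos
  have h1 : (ν ^ 2) ^ (ν + 1 / 2) = ν ^ ν * (ν ^ ν * ν) := by
    rw [← Real.rpow_two, ← Real.rpow_mul hν.le]
    have : 2 * (ν + 1 / 2) = ν + (ν + 1) := by ring
    rw [this, Real.rpow_add hν, Real.rpow_add_one hν.ne']
  have h2 : (ν * (ν + 1)) ^ (ν + 1) = (ν ^ ν * ν) * ((ν + 1) ^ ν * (ν + 1)) := by
    rw [Real.mul_rpow hν.le (by linarith), Real.rpow_add_one hν.ne',
      Real.rpow_add_one (by linarith : ν + 1 ≠ 0)]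
  have h6 : (ν / (1 + ν)) ^ (1 + ν) = (ν ^ ν * ν) / ((ν + 1) ^ ν * (ν + 1)) := by
    rw [add_comm 1 ν, Real.div_rpow hν.le (by linarith), Real.rpow_add_one hν.ne',
      Real.rpow_add_one (by linarith : ν + 1 ≠ 0)]
  rw [h1, h2, h6]
  have h3 : 0 < ν ^ ν := Real.rpow_pos_of_pos hν _
  have h4 : 0 < (ν + 1) ^ ν := Real.rpow_pos_of_pos (by linarith) _
  have h5 : ν + 1 ≠ 0 := by positivity
  set G1 := Real.Gamma (ν + 1)
  set G2 := Real.Gamma (ν + 3 / 2)
  set A := ν ^ ν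
  set B := (ν + 1) ^ ν
  set P := √Real.pi
  field_simp

end Vale.Agent.P371.Full
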