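import Vale.Agent.P371.Full.Base

/-!
# P371 (full): Step 1
-/

open scoped Matrix.Norms.L2Operator ComplexOrder MatrixOrder
open Matrix MeasureTheory Set Filter Topology

namespace Vale.Agent.P371.Full

variable {N : ℕ}

namespace StepOne

/-- The trace of a product of two positive semidefinite matrices is nonnegative. -/
lemma rtr_mul_psd {A B : Mat N} (hA : A.PosSemidef) (hB : B.PosSemidef) : 0 ≤ rtr (A * B) := by
  obtain ⟨C, rfl⟩ := CStarAlgebra.nonneg_iff_eq_star_mul_self.mp hA.nonneg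
  rw [Matrix.star_eq_conjTranspose]
  have h1 : rtr (Cᴴ * C * B) = rtr (C * B * Cᴴ) := by
    rw [Matrix.mul_assoc, rtr_mul_comm]
  rw [h1]
  have h2 := (hB.mul_mul_conjTranspose_same C).trace_nonneg
  exact (Complex.le_def.mp h2).1

/-- The resolvent. -/
noncomputable def G (p : Mat N) (r : ℝ) : Mat N := (p + r • (1 : Mat N))⁻¹

lemma posDef_shift {p : Mat N} (hp : p.PosDef) {r : ℝ} (hr : 0 ≤ r) :
    (p + r • (1 : Mat N)).PosDef := by
  refine hp.add_posSemidef ?_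
  have h := (Matrix.PosSemidef.one (n := Fin N) (R := ℂ)).smul (a := r) hr
  exact h

lemma posDef_G {p : Mat N} (hp : p.PosDef) {r : ℝ} (hr : 0 ≤ r) : (G p r).PosDef :=
  (posDef_shift hp hr).inv

lemma shift_mul_G {p : Mat N} (hp : p.PosDef) {r : ℝ} (hr : 0 ≤ r) :
    (p + r • (1 : Mat N)) * G p r = 1 :=
  Matrix.mul_nonsing_inv _ ((Matrix.isUnit_iff_isUnit_det _).mp (posDef_shift hp hr).isUnit)

lemma G_mul_shift {p : Mat N} (hp : p.PosDef) {r : ℝ} (hr : 0 ≤ r) :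
    G p r * (p + r • (1 : Mat N)) = 1 :=
  Matrix.nonsing_inv_mul _ ((Matrix.isUnit_iff_isUnit_det _).mp (posDef_shift hp hr).isUnit)

lemma p_mul_G {p : Mat N} (hp : p.PosDef) {r : ℝ} (hr : 0 ≤ r) :
    p * G p r = 1 - r • G p r := by
  have h := shift_mul_G hp hr
  rw [add_mul, smul_mul_assoc, one_mul] at h
  exact eq_sub_of_add_eq h

lemma G_mul_p {p : Mat N} (hp : p.PosDef) {r : ℝ} (hr : 0 ≤ r) :
    G p r * p = 1 - r • G p r := by
  have h := G_mul_shift hp hr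
  rw [mul_add, mul_smul_comm, mul_one] at h
  exact eq_sub_of_add_eq h

lemma G_comm {p : Mat N} (hp : p.PosDef) {r : ℝ} (hr : 0 ≤ r) :
    G p r * p = p * G p r := by
  rw [G_mul_p hp hr, p_mul_G hp hr]

/-- Key inequality `tr (X G X⁻¹ G) ≥ tr (G²)`. -/
lemma key {X g : Mat N} (hX : X.PosDef) (hg : g.IsHermitian) :
    rtr (g * g) ≤ rtr (X * g * X⁻¹ * g) := by
  have hXX : X * X⁻¹ = 1 :=
    Matrix.mul_nonsing_inv _ ((Matrix.isUnit_iff_isUnit_det _).mp hX.isUnit)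
  have hXX' : X⁻¹ * X = 1 :=
    Matrix.nonsing_inv_mul _ ((Matrix.isUnit_iff_isUnit_det _).mp hX.isUnit)
  set K : Mat N := X * g - g * X with hK
  have hKH : Kᴴ = g * X - X * g := by
    rw [hK, Matrix.conjTranspose_sub, Matrix.conjTranspose_mul, Matrix.conjTranspose_mul,
      hg.eq, hX.isHermitian.eq]
  have hpos : 0 ≤ rtr (X⁻¹ * (K * X⁻¹ * Kᴴ)) :=
    rtr_mul_psd hX.inv.posSemidef (hX.inv.posSemidef.mul_mul_conjTranspose_same K)
  have e : X⁻¹ * (K * X⁻¹ * Kᴴ) =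
      (X⁻¹ * X) * g * (X⁻¹ * g) * X - (X⁻¹ * X) * g * (X⁻¹ * X) * g
        - X⁻¹ * g * (X * X⁻¹) * g * X + X⁻¹ * g * (X * X⁻¹) * X * g := by
    rw [hKH, hK]; noncomm_ring
  rw [e, hXX, hXX'] at hpos
  simp only [rtr_add, rtr_sub, one_mul, mul_one] at hpos
  have e1 : rtr (g * (X⁻¹ * g) * X) = rtr (X * g * X⁻¹ * g) := by
    rw [rtr_mul_comm]; congr 1; noncomm_ring
  have e2 : rtr (X⁻¹ * g * g * X) = rtr (g * g) := by
    rw [rtr_mul_comm, show X * (X⁻¹ * g * g) = (X * X⁻¹) * (g * g) by noncomm_ring, hXX, one_mul]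
  have e3 : rtr (X⁻¹ * g * X * g) = rtr (X * g * X⁻¹ * g) := by
    rw [show X⁻¹ * g * X * g = (X⁻¹ * g) * (X * g) by noncomm_ring, rtr_mul_comm]
    congr 1; noncomm_ring
  rw [e1, e2, e3] at hpos
  linarith

lemma hasDerivAt_G {p : Mat N} (hp : p.PosDef) {r : ℝ} (hr : 0 ≤ r) :
    HasDerivAt (fun s => G p s) (-(G p r * G p r)) r := by
  have hu : IsUnit (p + r • (1 : Mat N)) := (posDef_shift hp hr).isUnit
  obtain ⟨u, hu⟩ := hu
  have h1 : HasFDerivAt Ring.inverse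
      (-ContinuousLinearMap.mulLeftRight ℝ (Mat N) ↑u⁻¹ ↑u⁻¹) (u : Mat N) :=
    hasFDerivAt_ringInverse u
  have h2 : HasDerivAt (fun s : ℝ => p + s • (1 : Mat N)) (1 : Mat N) r := by
    have := ((hasDerivAt_id r).smul_const (1 : Mat N)).const_add p
    simpa using this
  rw [hu] at h1
  have h3 := h1.comp_hasDerivAt r h2
  have hinv : (↑u⁻¹ : Mat N) = G p r := by
    unfold G
    rw [← hu, Matrix.nonsing_inv_eq_ringInverse, Ring.inverse_unit]
  rw [hinv] at h3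
  have h4 : (Ring.inverse ∘ fun s : ℝ => p + s • (1 : Mat N)) = fun s => G p s := by
    funext s
    simp only [Function.comp, G]
    rw [Matrix.nonsing_inv_eq_ringInverse]
  rw [h4] at h3
  simpa using h3

lemma tendsto_G (p : Mat N) : Tendsto (fun s : ℝ => G p s) atTop (𝓝 0) := by
  have h1 : Tendsto (fun s : ℝ => s⁻¹) atTop (𝓝 0) := tendsto_inv_atTop_zero
  have h2 : Tendsto (fun s : ℝ => (1 : Mat N) + s⁻¹ • p) atTop (𝓝 (1 + (0 : ℝ) • p)) :=
    tendsto_const_nhds.add (h1.smul_const p)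
  rw [zero_smul, add_zero] at h2
  have h3 : ContinuousAt Ring.inverse (1 : Mat N) := by
    simpa using NormedRing.inverse_continuousAt (1 : (Mat N)ˣ)
  have h4 : Tendsto (fun s : ℝ => Ring.inverse ((1 : Mat N) + s⁻¹ • p)) atTop (𝓝 (Ring.inverse 1)) :=
    h3.tendsto.comp h2
  have h5 := h1.smul h4
  rw [zero_smul] at h5
  refine h5.congr' ?_
  filter_upwards [eventually_gt_atTop (0 : ℝ)] with s hs
  unfold G
  rw [← Matrix.nonsing_inv_eq_ringInverse]
  have e : p + s • (1 : Mat N) = s • ((1 : Mat N) + s⁻¹ • p) := by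
    rw [smul_add, smul_smul, mul_inv_cancel₀ hs.ne', one_smul, add_comm]
  rw [e]
  have e2 : s • ((1 : Mat N) + s⁻¹ • p) = (s : ℂ) • ((1 : Mat N) + s⁻¹ • p) := by
    ext i j; simp [mul_add]
  have e3 : s⁻¹ • ((1 : Mat N) + s⁻¹ • p)⁻¹ = ((s : ℂ)⁻¹) • ((1 : Mat N) + s⁻¹ • p)⁻¹ := by
    ext i j; simp
  rw [e2, e3]
  by_cases hdet : IsUnit ((1 : Mat N) + s⁻¹ • p).det
  · have hs' : (s : ℂ) ≠ 0 := by exact_mod_cast hs.ne'
    symm
    apply Matrix.inv_eq_left_inv
    rw [smul_mul_smul_comm, inv_mul_cancel₀ hs', Matrix.nonsing_inv_mul _ hdet, one_smul]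
  · have hdet' : ¬ IsUnit ((s : ℂ) • ((1 : Mat N) + s⁻¹ • p)).det := by
      rw [Matrix.det_smul]
      intro h
      exact hdet (isUnit_of_mul_isUnit_right h)
    rw [Matrix.nonsing_inv_apply_not_isUnit _ hdet, Matrix.nonsing_inv_apply_not_isUnit _ hdet',
      smul_zero]

/-- `∫ tr (B G²) = tr (B p⁻¹)` when the integrand is nonnegative. -/
lemma int_G2 {p : Mat N} (hp : p.PosDef) (B : Mat N)
    (hB : ∀ r : ℝ, 0 < r → 0 ≤ rtr (B * (G p r * G p r))) :
    IntegrableOn (fun r => rtr (B * (G p r * G p r))) (Ioi 0) ∧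
    ∫ r in Ioi (0 : ℝ), rtr (B * (G p r * G p r)) = rtr (B * p⁻¹) := by
  have hd : ∀ r : ℝ, 0 ≤ r →
      HasDerivAt (fun s => -rtr (B * G p s)) (rtr (B * (G p r * G p r))) r := by
    intro r hr
    have h1 := (hasDerivAt_G hp hr).const_mul B
    have h2 := (rtrL N).hasFDerivAt.comp_hasDerivAt r h1
    have h3 := h2.neg
    have h4 : (-(rtrL N) (B * -(G p r * G p r))) = rtr (B * (G p r * G p r)) := by
      rw [rtrL_apply, mul_neg, rtr_neg, neg_neg]
    rw [h4] at h3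
    exact h3
  have hlim : Tendsto (fun s => -rtr (B * G p s)) atTop (𝓝 0) := by
    have h1 := (tendsto_G p).const_mul B
    have h2 := ((rtrL N).continuous.tendsto _).comp h1
    have h3 := h2.neg
    simpa using h3
  have hcont : ContinuousWithinAt (fun s => -rtr (B * G p s)) (Ici 0) 0 :=
    (hd 0 le_rfl).continuousAt.continuousWithinAt
  have hint := integrableOn_Ioi_deriv_of_nonneg hcont (fun x hx => hd x (le_of_lt hx))
    (fun x hx => hB x hx) hlim
  refine ⟨hint, ?_⟩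
  have := integral_Ioi_of_hasDerivAt_of_tendsto hcont (fun x hx => hd x (le_of_lt hx)) hint hlim
  rw [this]
  simp [G]

end StepOne

open StepOne

/-- Step 1 (half): `½ tr ((pq+qp) T_p(R)) ≤ N - tr (p R)`, `R = (p+q)⁻¹`. -/
theorem step1_half {p q : Mat N} (hp : p.PosDef) (hq : q.PosDef) :
    Tint ((1 / 2 : ℝ) • (p * q + q * p)) p ((p + q)⁻¹) ≤ N - rtr (p * (p + q)⁻¹) := by
  set X : Mat N := p + q with hXdef
  have hX : X.PosDef := hp.add_posSemidef hq.posSemidef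
  have hXX : X * X⁻¹ = 1 :=
    Matrix.mul_nonsing_inv _ ((Matrix.isUnit_iff_isUnit_det _).mp hX.isUnit)
  have hXX' : X⁻¹ * X = 1 :=
    Matrix.nonsing_inv_mul _ ((Matrix.isUnit_iff_isUnit_det _).mp hX.isUnit)
  have hpp : p * p⁻¹ = 1 :=
    Matrix.mul_nonsing_inv _ ((Matrix.isUnit_iff_isUnit_det _).mp hp.isUnit)
  -- nonnegativity of the two pieces
  have hB1 : ∀ r : ℝ, 0 < r → 0 ≤ rtr (p * (G p r * G p r)) := by
    intro r hr
    have h1 : p * (G p r * G p r) = G p r * p * (G p r)ᴴ := by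
      rw [(posDef_G hp hr.le).isHermitian.eq, G_comm hp hr.le, mul_assoc]
    rw [h1]
    exact (Complex.le_def.mp (hp.posSemidef.mul_mul_conjTranspose_same (G p r)).trace_nonneg).1
  have hcomm2 : ∀ r : ℝ, 0 < r → p * p * (G p r * G p r) = (G p r * p) * (G p r * p)ᴴ := by
    intro r hr
    rw [Matrix.conjTranspose_mul, (posDef_G hp hr.le).isHermitian.eq, hp.isHermitian.eq,
      G_comm hp hr.le]
    have := G_comm hp hr.le
    calc p * p * (G p r * G p r) = p * (p * G p r) * G p r := by noncomm_ring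
      _ = p * (G p r * p) * G p r := by rw [this]
      _ = p * G p r * (p * G p r) := by noncomm_ring
  have hB2 : ∀ r : ℝ, 0 < r → 0 ≤ rtr ((X⁻¹ * (p * p)) * (G p r * G p r)) := by
    intro r hr
    rw [mul_assoc, hcomm2 r hr]
    exact rtr_mul_psd hX.inv.posSemidef (Matrix.posSemidef_self_mul_conjTranspose _)
  obtain ⟨hi1, hv1⟩ := int_G2 hp p hB1
  obtain ⟨hi2, hv2⟩ := int_G2 hp (X⁻¹ * (p * p)) hB2
  have hval : N - rtr (p * X⁻¹) =
      ∫ r in Ioi (0 : ℝ), (rtr (p * (G p r * G p r)) - rtr ((X⁻¹ * (p * p)) * (G p r * G p r))) := by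
    rw [integral_sub hi1 hi2, hv1, hv2, hpp, rtr_one]
    congr 1
    rw [show X⁻¹ * (p * p) * p⁻¹ = X⁻¹ * p * (p * p⁻¹) by noncomm_ring, hpp, mul_one,
      rtr_mul_comm]
  -- pointwise inequality
  have hpt : ∀ r ∈ Ioi (0 : ℝ),
      rtr (((1 / 2 : ℝ) • (p * q + q * p)) * (p + r • (1 : Mat N))⁻¹ * X⁻¹ *
        (p + r • (1 : Mat N))⁻¹) ≤
      rtr (p * (G p r * G p r)) - rtr ((X⁻¹ * (p * p)) * (G p r * G p r)) := by
    intro r hr
    have hr' : (0 : ℝ) < r := hr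
    have hq' : q = X - p := by rw [hXdef]; abel
    have hk := key hX (posDef_G hp hr'.le).isHermitian
    change rtr (((1 / 2 : ℝ) • (p * q + q * p)) * G p r * X⁻¹ * G p r) ≤ _
    generalize hg : G p r = g at *
    have hpg : p * g = 1 - r • g := by rw [← hg]; exact p_mul_G hp hr'.le
    have hgp : g * p = 1 - r • g := by rw [← hg]; exact G_mul_p hp hr'.le
    have e0 : ((1 / 2 : ℝ) • (p * q + q * p)) * g * X⁻¹ * g =
        (1 / 2 : ℝ) • (p * (X * g * X⁻¹ * g) + X * (p * g) * X⁻¹ * g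
          - (2 : ℝ) • (p * (p * g) * X⁻¹ * g)) := by
      rw [hq']
      simp only [smul_mul_assoc]
      congr 1
      rw [two_smul]
      noncomm_ring
    rw [e0]
    simp only [rtr_smul, rtr_sub, rtr_add]
    have e1 : rtr (p * (X * g * X⁻¹ * g)) = rtr g - r * rtr (X * g * X⁻¹ * g) := by
      rw [rtr_mul_comm, show X * g * X⁻¹ * g * p = X * g * X⁻¹ * (g * p) by noncomm_ring, hgp,
        mul_sub, mul_one, mul_smul_comm, rtr_sub, rtr_smul]
      congr 1
      rw [rtr_mul_comm, ← mul_assoc, hXX', one_mul]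
    have e2 : rtr (X * (p * g) * X⁻¹ * g) = rtr g - r * rtr (X * g * X⁻¹ * g) := by
      rw [hpg, mul_sub, mul_one, mul_smul_comm, sub_mul, sub_mul, hXX, one_mul, smul_mul_assoc,
        smul_mul_assoc, rtr_sub, rtr_smul]
    have e3 : rtr (p * (p * g) * X⁻¹ * g) = rtr ((X⁻¹ * (p * p)) * (g * g)) := by
      rw [rtr_mul_comm, show g * (p * (p * g) * X⁻¹) = (g * p) * (p * g) * X⁻¹ by noncomm_ring,
        show g * p = p * g by rw [hgp, hpg], rtr_mul_comm]
      congr 1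
      have : p * g * (p * g) = p * p * (g * g) := by
        calc p * g * (p * g) = p * (g * p) * g := by noncomm_ring
          _ = p * (p * g) * g := by rw [hgp, hpg]
          _ = p * p * (g * g) := by noncomm_ring
      rw [this]; noncomm_ring
    have e4 : rtr (p * (g * g)) = rtr g - r * rtr (g * g) := by
      rw [← mul_assoc, hpg, sub_mul, one_mul, smul_mul_assoc, rtr_sub, rtr_smul]
    rw [e1, e2, e3, e4]
    nlinarith [mul_le_mul_of_nonneg_left hk hr'.le]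
  rw [hval]
  unfold Tint
  by_cases hint : IntegrableOn (fun r : ℝ => rtr (((1 / 2 : ℝ) • (p * q + q * p)) *
      (p + r • (1 : Mat N))⁻¹ * X⁻¹ * (p + r • (1 : Mat N))⁻¹)) (Ioi 0)
  · exact setIntegral_mono_on hint (hi1.sub hi2) measurableSet_Ioi hpt
  · rw [integral_undef hint, ← hval]
    -- `N - tr (p X⁻¹) = tr (q X⁻¹) ≥ 0`
    have h1 : (N : ℝ) = rtr (X * X⁻¹) := by rw [hXX, rtr_one]
    rw [h1, hXdef, add_mul, rtr_add, ← hXdef]
    have h2 := rtr_mul_psd hq.posSemidef hX.inv.posSemidef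
    linarith

/-- Step 1. -/
theorem step1 {p q : Mat N} (hp : p.PosDef) (hq : q.PosDef) :
    Tint ((1 / 2 : ℝ) • (p * q + q * p)) p ((p + q)⁻¹) +
      Tint ((1 / 2 : ℝ) • (p * q + q * p)) q ((p + q)⁻¹) ≤ N := by
  have h1 := step1_half hp hq
  have h2 := step1_half hq hp
  rw [add_comm (q * p) (p * q), add_comm q p] at h2
  have hX : (p + q).PosDef := hp.add_posSemidef hq.posSemidef
  have hXX : (p + q) * (p + q)⁻¹ = 1 :=
    Matrix.mul_nonsing_inv _ ((Matrix.isUnit_iff_isUnit_det _).mp hX.isUnit)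
  have h3 : rtr (p * (p + q)⁻¹) + rtr (q * (p + q)⁻¹) = N := by
    rw [← rtr_add, ← add_mul, hXX, rtr_one]
  linarith

end Vale.Agent.P371.Full
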