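import Vale.Agent.P371.Full.Gibbs
import Vale.Agent.P371.Full.LogDeriv
import Vale.Agent.P371.Full.Step1
import Vale.Agent.P371.Full.Asymp
import Vale.Agent.P371.Full.Scalars

/-!
# P371 (full): pointwise energy inequality
-/

open scoped Matrix.Norms.L2Operator ComplexOrder
open Matrix MeasureTheory Set Filter Topology

namespace Vale.Agent.P371.Full

variable {N : ℕ}

/-- `dg` as a continuous linear map. -/
noncomputable def ep_dgL (N : ℕ) : (Fin N → ℝ) →L[ℝ] Mat N :=
  LinearMap.toContinuousLinearMap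
    { toFun := dg
      map_add' := fun u v => by
        unfold dg; rw [Matrix.diagonal_add]; congr 1; funext j; simp
      map_smul' := fun c v => by
        unfold dg; rw [← Matrix.diagonal_smul]; congr 1; funext j; simp }

lemma ep_dgL_apply (v : Fin N → ℝ) : ep_dgL N v = dg v := rfl

/-- The derivative of `K_t`. -/
noncomputable def ep_R (e : Fin N → ℝ) (s : ℝ) : Mat N := dg fun j => 1 / (2 * √(e j + s))

lemma ep_hasDerivAt_Kt {e : Fin N → ℝ} (he : ∀ j, 0 ≤ e j) {s : ℝ} (hs : 0 < s) :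
    HasDerivAt (fun s => Kt e s) (ep_R e s) s := by
  have h1 : HasDerivAt (fun s : ℝ => (fun j : Fin N => √(e j + s)))
      (fun j => 1 / (2 * √(e j + s))) s := by
    rw [hasDerivAt_pi]
    intro j
    have hne : e j + s ≠ 0 := by have := he j; linarith
    have := ((hasDerivAt_id s).const_add (e j)).sqrt hne
    simpa using this
  exact (ep_dgL N).hasFDerivAt.comp_hasDerivAt s h1

lemma ep_continuousAt_R {e : Fin N → ℝ} (he : ∀ j, 0 ≤ e j) {s : ℝ} (hs : 0 < s) :
    ContinuousAt (ep_R e) s := by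
  have h1 : ContinuousAt (fun s : ℝ => (fun j : Fin N => 1 / (2 * √(e j + s)))) s := by
    rw [continuousAt_pi]
    intro j
    have hne : 2 * √(e j + s) ≠ 0 := by
      have := he j
      have : 0 < √(e j + s) := Real.sqrt_pos.2 (by linarith)
      positivity
    refine ContinuousAt.div continuousAt_const ?_ hne
    fun_prop
  exact (ep_dgL N).continuous.continuousAt.comp h1

lemma ep_inv {e : Fin N → ℝ} (he : ∀ j, 0 ≤ e j) (Y : Mat N) {s : ℝ} (hs : 0 < s) :
    ((Kt e s + Y) + (Kt e s - Y))⁻¹ = ep_R e s := by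
  have h1 : (Kt e s + Y) + (Kt e s - Y) = dg fun j => 2 * √(e j + s) := by
    unfold Kt dg
    ext i j
    by_cases hij : i = j
    · subst hij; simp; ring
    · simp [Matrix.diagonal_apply_ne _ hij]
  rw [h1]
  apply Matrix.inv_eq_right_inv
  unfold ep_R dg
  rw [Matrix.diagonal_mul_diagonal, ← Matrix.diagonal_one]
  congr 1
  funext j
  have := he j
  have h2 : √(e j + s) ≠ 0 := (Real.sqrt_pos.2 (by linarith)).ne'
  have h3 : ((√(e j + s) : ℝ) : ℂ) ≠ 0 := by exact_mod_cast h2
  push_cast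
  field_simp

lemma ep_Am {e : Fin N → ℝ} (he : ∀ j, 0 ≤ e j) (Y : Mat N) {s : ℝ} (hs : 0 < s) :
    (1 / 2 : ℝ) • ((Kt e s + Y) * (Kt e s - Y) + (Kt e s - Y) * (Kt e s + Y)) =
      Am e Y + s • (1 : Mat N) := by
  have h1 : Kt e s * Kt e s = dg e + s • (1 : Mat N) := by
    unfold Kt dg
    rw [Matrix.diagonal_mul_diagonal, ← Matrix.diagonal_one, ← Matrix.diagonal_smul,
      Matrix.diagonal_add]
    congr 1
    funext j
    have := he j
    have h2 : √(e j + s) * √(e j + s) = e j + s := Real.mul_self_sqrt (by linarith)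
    rw [← Complex.ofReal_mul, h2]
    simp
  have h2 : (Kt e s + Y) * (Kt e s - Y) + (Kt e s - Y) * (Kt e s + Y) =
      (2 : ℝ) • (Kt e s * Kt e s - Y * Y) := by
    rw [two_smul]
    noncomm_ring
  rw [h2, h1, smul_smul]
  norm_num
  unfold Am
  abel

lemma ep_Tint_add {B C X : Mat N} {p : Mat N} (hp : p.PosDef) (c : ℝ) :
    Tint (B + c • C) p X = Tint B p X + c * Tint C p X := by
  unfold Tint
  have hB := integrableOn_resolvent B X hp
  have hC := integrableOn_resolvent C X hp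
  rw [← integral_const_mul, ← integral_add hB (hC.const_mul c)]
  congr 1
  funext r
  rw [add_mul, add_mul, add_mul, smul_mul_assoc, smul_mul_assoc, smul_mul_assoc, rtr_add, rtr_smul]

/-- Derivative of `tr (B log (K_t ± Y))`. -/
lemma ep_deriv_add {e : Fin N → ℝ} {Y : Mat N} (h : Adm e Y) (B : Mat N) {t : ℝ} (ht : 0 < t) :
    HasDerivAt (fun s => rtr (B * mlog (Kt e s + Y))) (Tint B (Kt e t + Y) (ep_R e t)) t := by
  have hev : ∀ᶠ s in 𝓝 t, 0 < s := lt_mem_nhds ht
  refine hasDerivAt_rtr_mul_mlog (p := fun s => Kt e s + Y) (p' := ep_R e) B ?_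
    (ep_continuousAt_R h.nonneg ht) ?_ (h.posDef_add ht)
  · filter_upwards [hev] with s hs
    exact (ep_hasDerivAt_Kt h.nonneg hs).add_const Y
  · filter_upwards [hev] with s hs
    exact (h.posDef_add hs).isHermitian

lemma ep_deriv_sub {e : Fin N → ℝ} {Y : Mat N} (h : Adm e Y) (B : Mat N) {t : ℝ} (ht : 0 < t) :
    HasDerivAt (fun s => rtr (B * mlog (Kt e s - Y))) (Tint B (Kt e t - Y) (ep_R e t)) t := by
  have hev : ∀ᶠ s in 𝓝 t, 0 < s := lt_mem_nhds ht
  refine hasDerivAt_rtr_mul_mlog (p := fun s => Kt e s - Y) (p' := ep_R e) B ?_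
    (ep_continuousAt_R h.nonneg ht) ?_ (h.posDef_sub ht)
  · filter_upwards [hev] with s hs
    exact (ep_hasDerivAt_Kt h.nonneg hs).sub_const Y
  · filter_upwards [hev] with s hs
    exact (h.posDef_sub hs).isHermitian

lemma ep_rtr_mul_Ht (e : Fin N → ℝ) (Y B : Mat N) (s : ℝ) :
    rtr (B * Ht e s Y) = rtr (B * mlog (Kt e s + Y)) + rtr (B * mlog (Kt e s - Y)) -
      Real.log s * rtr B := by
  unfold Ht
  rw [mul_sub, mul_add, rtr_sub, rtr_add, mul_smul_comm, rtr_smul, mul_one]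

lemma ep_deriv_Ht {e : Fin N → ℝ} {Y : Mat N} (h : Adm e Y) (B : Mat N) {t : ℝ} (ht : 0 < t) :
    HasDerivAt (fun s => rtr (B * Ht e s Y))
      (Tint B (Kt e t + Y) (ep_R e t) + Tint B (Kt e t - Y) (ep_R e t) - t⁻¹ * rtr B) t := by
  have h1 := ((ep_deriv_add h B ht).add (ep_deriv_sub h B ht)).sub
    ((Real.hasDerivAt_log ht.ne').mul_const (rtr B))
  refine h1.congr_of_eventuallyEq (Eventually.of_forall fun s => ?_)
  exact ep_rtr_mul_Ht e Y B s

/-- Step 2 : `t z'(t) + w(t) ≤ 0`. -/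
theorem zf_deriv {e : Fin N → ℝ} {Y : Mat N} (h : Adm e Y) {t : ℝ} (ht : 0 < t) :
    ∃ D : ℝ, HasDerivAt (zf e Y) D t ∧ t * D + wf e Y t ≤ 0 := by
  have hA := ep_deriv_Ht h (Am e Y) ht
  have h1 := ep_deriv_Ht h (1 : Mat N) ht
  have hid := (hasDerivAt_id t).mul h1
  have hz := (hA.add hid).sub_const (rtr (Am e Y))
  refine ⟨_, hz.congr_of_eventuallyEq (Eventually.of_forall fun s => ?_), ?_⟩
  · simp only [zf, Pi.add_apply, id, Pi.mul_apply]
    rw [add_mul, rtr_add, smul_mul_assoc, rtr_smul]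
  · have hs := step1 (h.posDef_add ht) (h.posDef_sub ht)
    rw [ep_Am h.nonneg Y ht, ep_inv h.nonneg Y ht, ep_Tint_add (h.posDef_add ht),
      ep_Tint_add (h.posDef_sub ht)] at hs
    simp only [id, one_mul, rtr_one, wf]
    have ht' : t * t⁻¹ = 1 := mul_inv_cancel₀ ht.ne'
    set a1 := Tint (Am e Y) (Kt e t + Y) (ep_R e t)
    set a2 := Tint (Am e Y) (Kt e t - Y) (ep_R e t)
    set b1 := Tint 1 (Kt e t + Y) (ep_R e t)
    set b2 := Tint 1 (Kt e t - Y) (ep_R e t)
    have hfin : t * (a1 + a2 - t⁻¹ * rtr (Am e Y) + (rtr (Ht e t Y) +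
        t * (b1 + b2 - t⁻¹ * N))) + (rtr (Am e Y) - t * rtr (Ht e t Y)) =
        t * ((a1 + t * b1) + (a2 + t * b2) - N) := by
      field_simp
      ring
    rw [hfin]
    exact mul_nonpos_of_nonneg_of_nonpos ht.le (by linarith)

theorem zf_nonneg {e : Fin N → ℝ} {Y : Mat N} (h : Adm e Y) {t : ℝ} (ht : 0 < t) :
    0 ≤ zf e Y t := by
  have hanti : AntitoneOn (zf e Y) (Ioi 0) := by
    refine antitoneOn_of_deriv_nonpos (convex_Ioi 0) ?_ ?_ ?_
    · intro s hs
      obtain ⟨D, hD, _⟩ := zf_deriv h (mem_Ioi.1 hs)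
      exact hD.continuousAt.continuousWithinAt
    · intro s hs
      rw [interior_Ioi] at hs
      obtain ⟨D, hD, _⟩ := zf_deriv h (mem_Ioi.1 hs)
      exact hD.differentiableAt.differentiableWithinAt
    · intro s hs
      rw [interior_Ioi] at hs
      have hs0 : 0 < s := mem_Ioi.1 hs
      obtain ⟨D, hD, hle⟩ := zf_deriv h hs0
      rw [hD.deriv]
      have hw := wf_nonneg h hs0
      by_contra hcon
      push Not at hcon
      have := mul_pos hs0 hcon
      linarith
  refine le_of_tendsto (tendsto_zf h) ?_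
  filter_upwards [eventually_ge_atTop t] with s hs
  exact hanti (mem_Ioi.2 ht) (mem_Ioi.2 (lt_of_lt_of_le ht hs)) hs

/-- `t ↦ H_t` is continuous on `(0,∞)`. -/
theorem continuousOn_Ht {e : Fin N → ℝ} {Y : Mat N} (h : Adm e Y) :
    ContinuousOn (fun t => Ht e t Y) (Ioi 0) := by
  have hB : ∀ B : Mat N, ContinuousOn (fun t => rtr (B * Ht e t Y)) (Ioi 0) := fun B t ht =>
    (ep_deriv_Ht h B (mem_Ioi.1 ht)).continuousAt.continuousWithinAt
  have hent : ∀ (M : Mat N) (i j : Fin N), M i j =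
      ((rtr (Matrix.single j i (1 : ℂ) * M) : ℝ) : ℂ) +
        ((rtr (Matrix.single j i (-Complex.I) * M) : ℝ) : ℂ) * Complex.I := by
    intro M i j
    have h1 : ∀ c : ℂ, (Matrix.single j i c * M).trace = c * M i j := by
      intro c
      exact Matrix.trace_single_mul j i c M
    unfold rtr
    rw [h1, h1]
    apply Complex.ext <;> simp
  refine continuousOn_pi.2 fun i => continuousOn_pi.2 fun j => ?_
  have h2 : (fun t => Ht e t Y i j) = fun t =>
      ((rtr (Matrix.single j i (1 : ℂ) * Ht e t Y) : ℝ) : ℂ) +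
        ((rtr (Matrix.single j i (-Complex.I) * Ht e t Y) : ℝ) : ℂ) * Complex.I := by
    funext t
    exact hent _ i j
  rw [h2]
  exact (Complex.continuous_ofReal.comp_continuousOn (hB _)).add
    ((Complex.continuous_ofReal.comp_continuousOn (hB _)).mul continuousOn_const)

/-- The integrated pointwise inequality. -/
theorem ei_int {ν : ℝ} (hν : 0 < ν) (hν1 : ν < 1) {e : Fin N → ℝ} {Y Z : Mat N} (h : Adm e Y)
    (hZ : Z.PosSemidef) {ε T : ℝ} (hε : 0 < ε) (hT : ε < T) :
    -((1 + 1 / ν) * rtr (cfc (fun ζ : ℝ => ζ ^ (1 + ν) * Jn ν / (1 + ν)) Z))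
        - ε ^ ν * zf e Y ε / ν ≤
      ∫ t in ε..T, t ^ (ν - 1) * rtr (Ht e t Y * (Am e Y - (1 + 1 / ν) • Z)) := by
  have hpos : ∀ t ∈ Icc ε T, 0 < t := fun t ht => lt_of_lt_of_le hε ht.1
  have hc1 : 0 ≤ 1 + 1 / ν := by positivity
  -- the eigenvalues of `Z`
  set ζ : Fin N → ℝ := hZ.isHermitian.eigenvalues with hζ
  have hζ0 : ∀ j, 0 ≤ ζ j := fun j => hZ.eigenvalues_nonneg j
  have hPsi : ∀ t, rtr (cfc (Psi t) Z) = ∑ j, Psi t (ζ j) := fun t => rtr_cfc hZ.isHermitian _
  -- continuity facts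
  have hpow : ContinuousOn (fun t : ℝ => t ^ (ν - 1)) (Icc ε T) := fun t ht =>
    (Real.continuousAt_rpow_const _ _ (Or.inl (hpos t ht).ne')).continuousWithinAt
  have hHc : ContinuousOn (fun t => rtr (Ht e t Y * (Am e Y - (1 + 1 / ν) • Z))) (Icc ε T) := by
    have h1 : ContinuousOn (fun t => Ht e t Y) (Icc ε T) :=
      (continuousOn_Ht h).mono fun t ht => mem_Ioi.2 (hpos t ht)
    exact continuous_rtr.comp_continuousOn (h1.mul continuousOn_const)
  have hPc : ∀ j, ContinuousOn (fun t => Psi t (ζ j)) (Icc ε T) := by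
    intro j t ht
    have ht0 := hpos t ht
    unfold Psi
    have h2 : 1 + ζ j / t ≠ 0 := by
      have : 0 ≤ ζ j / t := div_nonneg (hζ0 j) ht0.le
      linarith
    have : ContinuousAt (fun t : ℝ => (t + ζ j) * Real.log (1 + ζ j / t) - ζ j) t := by
      have h3 : ContinuousAt (fun t : ℝ => 1 + ζ j / t) t :=
        continuousAt_const.add (continuousAt_const.div continuousAt_id ht0.ne')
      exact ((continuousAt_id.add continuousAt_const).mul (h3.log h2)).sub continuousAt_const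
    exact this.continuousWithinAt
  have hf : ContinuousOn (fun t => t ^ (ν - 1) * rtr (Ht e t Y * (Am e Y - (1 + 1 / ν) • Z)))
      (Icc ε T) := hpow.mul hHc
  have hPj : ∀ j, ContinuousOn (fun t => t ^ (ν - 1) * Psi t (ζ j)) (Icc ε T) := fun j =>
    hpow.mul (hPc j)
  have hii : ∀ {g : ℝ → ℝ}, ContinuousOn g (Icc ε T) → IntervalIntegrable g volume ε T := by
    intro g hg
    apply ContinuousOn.intervalIntegrable
    rwa [uIcc_of_le hT.le]
  -- the comparison
  have hcmp : T ^ ν * zf e Y T / ν - ε ^ ν * zf e Y ε / ν ≤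
      ∫ t in ε..T, (t ^ (ν - 1) * rtr (Ht e t Y * (Am e Y - (1 + 1 / ν) • Z)) +
        (1 + 1 / ν) * ∑ j, t ^ (ν - 1) * Psi t (ζ j)) := by
    choose! D hD using fun t (ht : 0 < t) => zf_deriv h ht
    have hder : ∀ t, 0 < t → HasDerivAt (fun t : ℝ => t ^ ν * zf e Y t / ν)
        ((ν * t ^ (ν - 1) * zf e Y t + t ^ ν * D t) / ν) t := by
      intro t ht
      have h1 := (Real.hasDerivAt_rpow_const (x := t) (p := ν) (Or.inl ht.ne')).mul (hD t ht).1
      exact h1.div_const ν
    refine intervalIntegral.sub_le_integral_of_hasDeriv_right_of_le hT.le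
      (fun t ht => (hder t (hpos t ht)).continuousAt.continuousWithinAt)
      (fun t ht => (hder t (hpos t (Ioo_subset_Icc_self ht))).hasDerivWithinAt) ?_ ?_
    · apply ContinuousOn.integrableOn_Icc
      refine hf.add (continuousOn_const.mul ?_)
      exact continuousOn_finsetSum _ fun j _ => hPj j
    · intro t ht
      have ht0 : 0 < t := hpos t (Ioo_subset_Icc_self ht)
      have hle := (hD t ht0).2
      have hZle := rtr_mul_Ht_le h hZ ht0
      rw [hPsi] at hZle
      have hpp : 0 < t ^ (ν - 1) := Real.rpow_pos_of_pos ht0 _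
      have htν : t ^ ν = t ^ (ν - 1) * t := by
        rw [← Real.rpow_add_one ht0.ne']
        congr 1
        ring
      have hsplit : rtr (Ht e t Y * (Am e Y - (1 + 1 / ν) • Z)) =
          (zf e Y t + wf e Y t) - (1 + 1 / ν) * rtr (Z * Ht e t Y) := by
        have hz1 : rtr ((Am e Y + t • (1 : Mat N)) * Ht e t Y) =
            rtr (Am e Y * Ht e t Y) + t * rtr (Ht e t Y) := by
          rw [add_mul (Am e Y), rtr_add, smul_mul_assoc, rtr_smul, one_mul]
        rw [mul_sub, rtr_sub, mul_smul_comm, rtr_smul, rtr_mul_comm _ Z, rtr_mul_comm _ (Am e Y)]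
        unfold zf wf
        rw [hz1]
        ring
      rw [hsplit, htν, ← Finset.mul_sum]
      set z := zf e Y t
      set w := wf e Y t
      set P := ∑ j, Psi t (ζ j)
      set X := rtr (Z * Ht e t Y)
      set c := t ^ (ν - 1)
      have h3 : (ν * c * z + c * t * D t) / ν = c * (z + t * D t / ν) := by
        field_simp
      rw [h3]
      have h4 : t * D t / ν ≤ -w / ν := by
        apply div_le_div_of_nonneg_right _ hν.le
        linarith
      have h5 : (1 + 1 / ν) * X ≤ (1 + 1 / ν) * (w + P) := mul_le_mul_of_nonneg_left hZle hc1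
      have h6 : z + t * D t / ν ≤ (z + w) - (1 + 1 / ν) * X + (1 + 1 / ν) * P := by
        have h7 : (1 + 1 / ν) * (w + P) = w + w / ν + (1 + 1 / ν) * P := by ring
        have h8 : -w / ν = -(w / ν) := by ring
        linarith
      calc c * (z + t * D t / ν) ≤ c * ((z + w) - (1 + 1 / ν) * X + (1 + 1 / ν) * P) :=
            mul_le_mul_of_nonneg_left h6 hpp.le
        _ = _ := by ring
  have hint : ∫ t in ε..T, (t ^ (ν - 1) * rtr (Ht e t Y * (Am e Y - (1 + 1 / ν) • Z)) +
        (1 + 1 / ν) * ∑ j, t ^ (ν - 1) * Psi t (ζ j)) =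
      (∫ t in ε..T, t ^ (ν - 1) * rtr (Ht e t Y * (Am e Y - (1 + 1 / ν) • Z))) +
        (1 + 1 / ν) * ∑ j, ∫ t in ε..T, t ^ (ν - 1) * Psi t (ζ j) := by
    have hsc : ContinuousOn (fun t => (1 + 1 / ν) * ∑ j, t ^ (ν - 1) * Psi t (ζ j)) (Icc ε T) :=
      continuousOn_const.mul (continuousOn_finsetSum _ fun j _ => hPj j)
    rw [intervalIntegral.integral_add (hii hf) (hii hsc),
      intervalIntegral.integral_const_mul, intervalIntegral.integral_finsetSum]
    intro j _
    exact hii (hPj j)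
  rw [hint] at hcmp
  have hsum : ∑ j, ∫ t in ε..T, t ^ (ν - 1) * Psi t (ζ j) ≤
      rtr (cfc (fun ζ : ℝ => ζ ^ (1 + ν) * Jn ν / (1 + ν)) Z) := by
    rw [rtr_cfc hZ.isHermitian]
    exact Finset.sum_le_sum fun j _ => integral_Psi_le hν hν1 (hζ0 j) hε hT
  have hsum' := mul_le_mul_of_nonneg_left hsum hc1
  have hzT : 0 ≤ T ^ ν * zf e Y T / ν := by
    have hT0 : 0 < T := hε.trans hT
    have := zf_nonneg h hT0
    positivity
  linarith

end Vale.Agent.P371.Full
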