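import Vale.Agent.P371.Full.TransDefs
import Vale.Agent.P371.Full.Scalars

/-!
# P371 (full): scalar Fenchel duality
-/

open scoped Matrix.Norms.L2Operator ComplexOrder ENNReal
open Matrix MeasureTheory Set Filter Topology

namespace Vale.Agent.P371.Full

variable {N m : ℕ}

theorem cL_pos {ν : ℝ} (hν : 0 < ν) : 0 < cL ν := Lone_pos hν

theorem fenchel {ν : ℝ} (hν : 0 < ν) {w p : ℝ} (hw : 0 ≤ w) (hp : 0 ≤ p) :
    w * p ≤ fF ν w + fS ν p := by
  have hL := cL_pos hν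
  have h1 : (0 : ℝ) < 1 + ν := by linarith
  set K : ℝ := (1 + ν) * cL ν with hK
  have hK0 : 0 < K := mul_pos h1 hL
  set s : ℝ := K ^ (1 / (1 + ν)) with hs
  have hs0 : 0 < s := Real.rpow_pos_of_pos hK0 _
  have hconj : (1 + ν).HolderConjugate (1 + 1 / ν) := by
    rw [Real.holderConjugate_iff]
    refine ⟨by linarith, ?_⟩
    field_simp
    ring
  have hy := Real.young_inequality_of_nonneg (mul_nonneg hw hs0.le) (div_nonneg hp hs0.le) hconj
  have e1 : w * s * (p / s) = w * p := by field_simp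
  have e2 : (w * s) ^ (1 + ν) / (1 + ν) = fF ν w := by
    rw [Real.mul_rpow hw hs0.le, hs, ← Real.rpow_mul hK0.le, one_div_mul_cancel h1.ne',
      Real.rpow_one, hK, fF]
    field_simp
  have e3 : (p / s) ^ (1 + 1 / ν) / (1 + 1 / ν) = fS ν p := by
    have e4 : (1 / (1 + ν)) * (1 + 1 / ν) = 1 / ν := by field_simp; ring
    rw [Real.div_rpow hp hs0.le, hs, ← Real.rpow_mul hK0.le, e4, fS, ← hK,
      Real.div_rpow zero_le_one hK0.le, Real.one_rpow]
    have : (0 : ℝ) < K ^ (1 / ν) := Real.rpow_pos_of_pos hK0 _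
    field_simp
    ring
  rw [e1, e2, e3] at hy
  exact hy

theorem fenchel_eq {ν : ℝ} (hν : 0 < ν) {p : ℝ} (hp : 0 ≤ p) :
    fD ν p * p = fF ν (fD ν p) + fS ν p := by
  have hL := cL_pos hν
  have h1 : (0 : ℝ) < 1 + ν := by linarith
  have hν' : 0 < 1 / ν := by positivity
  set K : ℝ := (1 + ν) * cL ν with hK
  have hK0 : 0 < K := mul_pos h1 hL
  have hpK : 0 ≤ p / K := div_nonneg hp hK0.le
  have e1 : fF ν (fD ν p) = p / (1 + ν) * fD ν p := by
    have e2 : fD ν p ^ (1 + ν) = (p / K) * fD ν p := by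
      rw [fD, ← hK, ← Real.rpow_mul hpK]
      have e3 : (1 / ν) * (1 + ν) = 1 + 1 / ν := by field_simp; ring
      rw [e3, Real.rpow_add_of_nonneg hpK zero_le_one hν'.le, Real.rpow_one]
    rw [fF, e2, hK]
    field_simp
  have e2 : fS ν p = ν / (1 + ν) * (p * fD ν p) := by
    rw [fS, fD, ← hK, Real.rpow_add_of_nonneg hp zero_le_one hν'.le, Real.rpow_one,
      Real.div_rpow hp hK0.le, Real.div_rpow zero_le_one hK0.le, Real.one_rpow]
    ring
  rw [e1, e2]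
  field_simp

/-- Algebraic step, `γ ≥ 1`. -/
theorem alg_ge {ν : ℝ} (hν : 1 / 2 ≤ ν) {x y : ℝ} (hx : 0 < x) (hy : 0 ≤ y) :
    x ^ (ν + 1 / 2) ≤
      (ν + 1 / 2) * x ^ (ν - 1 / 2) * x - (ν + 1 / 2) * x ^ (ν - 1 / 2) * y + y ^ (ν + 1 / 2) := by
  have hb := one_add_mul_self_le_rpow_one_add (s := y / x - 1) (p := ν + 1 / 2)
    (by have := div_nonneg hy hx.le; linarith) (by linarith)
  have e0 : 1 + (y / x - 1) = y / x := by ring
  rw [e0, Real.div_rpow hy hx.le] at hb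
  have hxg : 0 < x ^ (ν + 1 / 2) := Real.rpow_pos_of_pos hx _
  rw [le_div_iff₀ hxg] at hb
  have e1 : x ^ (ν + 1 / 2) = x ^ (ν - 1 / 2) * x := by
    rw [← Real.rpow_add_one hx.ne']
    congr 1
    ring
  have e2 : (1 + (ν + 1 / 2) * (y / x - 1)) * x ^ (ν + 1 / 2)
      = x ^ (ν + 1 / 2) + (ν + 1 / 2) * x ^ (ν - 1 / 2) * y
        - (ν + 1 / 2) * x ^ (ν - 1 / 2) * x := by
    rw [e1]
    field_simp
    ring
  rw [e2] at hb
  linarith

/-- Algebraic step, `γ ≤ 1`. -/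
theorem alg_le {ν : ℝ} (hν : 0 < ν) (hν1 : ν ≤ 1 / 2) {δ x y : ℝ} (hδ : 0 < δ) (hx : 0 < x)
    (hy : 0 ≤ y) :
    x ^ (ν + 1 / 2) - δ ^ (ν + 1 / 2) ≤
      (ν + 1 / 2) * (max y δ) ^ (ν - 1 / 2) * x - (ν + 1 / 2) * (max y δ) ^ (ν - 1 / 2) * y
        + y ^ (ν + 1 / 2) := by
  have hM : 0 < max y δ := lt_of_lt_of_le hδ (le_max_right _ _)
  have hyM : y ≤ max y δ := le_max_left _ _
  have hkey : (max y δ) ^ (ν + 1 / 2) - δ ^ (ν + 1 / 2) - y ^ (ν + 1 / 2) ≤ 0 := by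
    have h1 : 0 ≤ y ^ (ν + 1 / 2) := Real.rpow_nonneg hy _
    have h2 : 0 ≤ δ ^ (ν + 1 / 2) := Real.rpow_nonneg hδ.le _
    rcases le_total y δ with h | h
    · rw [max_eq_right h]
      linarith
    · rw [max_eq_left h]
      linarith
  set M := max y δ with hMdef
  have hb := rpow_one_add_le_one_add_mul_self (s := x / M - 1) (p := ν + 1 / 2)
    (by have := div_nonneg hx.le hM.le; linarith) (by linarith) (by linarith)
  have e0 : 1 + (x / M - 1) = x / M := by ring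
  rw [e0, Real.div_rpow hx.le hM.le] at hb
  have hMg : 0 < M ^ (ν + 1 / 2) := Real.rpow_pos_of_pos hM _
  rw [div_le_iff₀ hMg] at hb
  have e1 : M ^ (ν + 1 / 2) = M ^ (ν - 1 / 2) * M := by
    rw [← Real.rpow_add_one hM.ne']
    congr 1
    ring
  have e2 : (1 + (ν + 1 / 2) * (x / M - 1)) * M ^ (ν + 1 / 2)
      = M ^ (ν + 1 / 2) + (ν + 1 / 2) * M ^ (ν - 1 / 2) * x
        - (ν + 1 / 2) * M ^ (ν - 1 / 2) * M := by
    rw [e1]
    field_simp
    ring
  rw [e2] at hb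
  have h3 : 0 ≤ (ν + 1 / 2) * M ^ (ν - 1 / 2) :=
    mul_nonneg (by linarith) (Real.rpow_nonneg hM.le _)
  have h4 := mul_le_mul_of_nonneg_left hyM h3
  linarith

end Vale.Agent.P371.Full
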