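import Vale.Agent.P371.Full.Base

/-!
# P371 (full): definitions for the transfer
-/

open scoped Matrix.Norms.L2Operator ComplexOrder ENNReal
open Matrix MeasureTheory Set Filter Topology

namespace Vale.Agent.P371.Full

variable {N m : ℕ}

/-- The `m × N` matrix with columns `u_j(x)`. -/
def Um (u : Fin N → ℝ → Vec m) (x : ℝ) : Matrix (Fin m) (Fin N) ℂ := Matrix.of fun a j => u j x a

/-- `P(x) = V*V`, `V = U C`. -/
noncomputable def Pm (u : Fin N → ℝ → Vec m) (C : Mat N) (x : ℝ) : Mat N :=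
  (Um u x * C)ᴴ * (Um u x * C)

/-- The constant `L = L^{(1)}_γ`, `γ = ν + 1/2`. -/
noncomputable def cL (ν : ℝ) : ℝ := Lone (ν + 1 / 2)

/-- `f(w) = L w^{1+ν}`. -/
noncomputable def fF (ν w : ℝ) : ℝ := cL ν * w ^ (1 + ν)

/-- The Legendre conjugate `f*`. -/
noncomputable def fS (ν p : ℝ) : ℝ :=
  ν / (1 + ν) * (1 / ((1 + ν) * cL ν)) ^ (1 / ν) * p ^ (1 + 1 / ν)

/-- `f*' (p) = (p/((1+ν) L))^{1/ν}`. -/
noncomputable def fD (ν p : ℝ) : ℝ := (p / ((1 + ν) * cL ν)) ^ (1 / ν)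

/-- `J(C) = ∫ (tr V* W V - tr f*(V*V))`. -/
noncomputable def Jf (ν : ℝ) (W : ℝ → Matrix (Fin m) (Fin m) ℂ) (u : Fin N → ℝ → Vec m)
    (C : Mat N) : ℝ :=
  ∫ x, ((Matrix.trace ((Um u x * C)ᴴ * W x * (Um u x * C))).re - rtr (cfc (fS ν) (Pm u C x)))

end Vale.Agent.P371.Full
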