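import Vale.Agent.P371.Kinetic
import Vale.Agent.P371.Full.TransDefs

/-!
# P371 (full): completing the square
-/

open scoped Matrix.Norms.L2Operator ComplexOrder ENNReal
open Matrix MeasureTheory Set Filter Topology

namespace Vale.Agent.P371.Full

variable {N m : ℕ}

namespace SquareAux

/-- `Umᴴ Um` is the Gram matrix. -/
lemma Um_gram (u : Fin N → ℝ → Vec m) (x : ℝ) (i j : Fin N) :
    ((Um u x)ᴴ * Um u x) i j = inner ℂ (u i x) (u j x) := by
  rw [Matrix.mul_apply, PiLp.inner_apply]
  refine Finset.sum_congr rfl fun a _ => ?_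
  simp [Um, Matrix.conjTranspose_apply, mul_comm]

/-- `rtr (A P)` as a sum of inner products. -/
lemma rtr_mul_Pm (u : Fin N → ℝ → Vec m) (A C : Mat N) (x : ℝ) :
    rtr (A * Pm u C x) =
      (∑ j, ∑ i, (C * A * Cᴴ) j i * (inner ℂ (u i x) (u j x) : ℂ)).re := by
  have h1 : A * Pm u C x = (A * Cᴴ) * (((Um u x)ᴴ * Um u x) * C) := by
    unfold Pm
    rw [Matrix.conjTranspose_mul]
    simp only [Matrix.mul_assoc]
  have h2 : (A * Pm u C x).trace = ((C * A * Cᴴ) * ((Um u x)ᴴ * Um u x)).trace := by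
    rw [h1, Matrix.trace_mul_comm]
    have e : (Um u x)ᴴ * Um u x * C * (A * Cᴴ) = ((Um u x)ᴴ * Um u x) * (C * A * Cᴴ) := by
      simp only [Matrix.mul_assoc]
    rw [e, Matrix.trace_mul_comm]
  unfold rtr
  rw [h2]
  congr 1
  rw [Matrix.trace]
  refine Finset.sum_congr rfl fun j _ => ?_
  rw [Matrix.diag_apply, Matrix.mul_apply]
  refine Finset.sum_congr rfl fun i _ => ?_
  rw [Um_gram]

lemma integrable_inner {v w : ℝ → Vec m} (hv : MemLp v 2 volume) (hw : MemLp w 2 volume) :
    Integrable (fun x => (inner ℂ (v x) (w x) : ℂ)) := by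
  have h1 : Integrable fun x => ‖v x‖ ^ 2 := (memLp_two_iff_integrable_sq_norm hv.1).1 hv
  have h2 : Integrable fun x => ‖w x‖ ^ 2 := (memLp_two_iff_integrable_sq_norm hw.1).1 hw
  refine (h1.add h2).mono' (hv.1.inner hw.1) (Filter.Eventually.of_forall fun x => ?_)
  refine (norm_inner_le_norm _ _).trans ?_
  simp only [Pi.add_apply]
  nlinarith [sq_nonneg (‖v x‖ - ‖w x‖), sq_nonneg (‖v x‖ + ‖w x‖)]

lemma integrable_rtr_Pm {u : Fin N → ℝ → Vec m} (hu : ∀ j, MemLp (u j) 2 volume) (A C : Mat N) :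
    Integrable (fun x => rtr (A * Pm u C x)) := by
  simp_rw [rtr_mul_Pm]
  have h : Integrable fun x => ∑ j, ∑ i, (C * A * Cᴴ) j i * (inner ℂ (u i x) (u j x) : ℂ) :=
    integrable_finsetSum _ fun j _ => integrable_finsetSum _ fun i _ =>
      (integrable_inner (hu i) (hu j)).const_mul _
  exact h.re

lemma isPrim_const (c : ℂ) : IsPrim (fun _ => c) (fun _ => 0) := by
  refine ⟨fun a b => intervalIntegrable_const, fun a b => ?_⟩
  simp

lemma hasMPrim_Um {u u' : Fin N → ℝ → Vec m} (hu : ∀ j, IsH1 (u j) (u' j)) (C : Mat N) :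
    HasMPrim (fun x => Um u x * C) (fun x => Um u' x * C) := by
  have h1 : HasMPrim (fun x => Um u x) (fun x => Um u' x) := fun a j => (hu j).isPrim a
  have h2 : HasMPrim (fun _ : ℝ => C) (fun _ => 0) := fun i j => isPrim_const _
  have h3 := h1.mul h2
  simp only [Matrix.mul_zero, add_zero] at h3
  exact h3

/-- The derivative of `Pm`. -/
noncomputable def Pd (u u' : Fin N → ℝ → Vec m) (C : Mat N) (x : ℝ) : Mat N :=
  (Um u' x * C)ᴴ * (Um u x * C) + (Um u x * C)ᴴ * (Um u' x * C)

lemma hasMPrim_Pm {u u' : Fin N → ℝ → Vec m} (hu : ∀ j, IsH1 (u j) (u' j)) (C : Mat N) :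
    HasMPrim (Pm u C) (Pd u u' C) := (hasMPrim_Um hu C).star.mul (hasMPrim_Um hu C)

/-- Pointwise square. -/
lemma square_pt (u u' : Fin N → ℝ → Vec m) (C : Mat N) (x : ℝ) {S : Mat N}
    (hS : S.IsHermitian) :
    rtr (S * Pd u u' C x) ≤ rtr (Pm u' C x) + rtr (S * S * Pm u C x) := by
  unfold Pd Pm
  generalize Um u x * C = V
  generalize Um u' x * C = V'
  have h0 : (0 : ℂ) ≤ ((V' - V * S)ᴴ * (V' - V * S)).trace :=
    (Matrix.posSemidef_conjTranspose_mul_self (V' - V * S)).trace_nonneg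
  have h0' : 0 ≤ rtr ((V' - V * S)ᴴ * (V' - V * S)) := (Complex.le_def.1 h0).1
  have h1 : (V' - V * S)ᴴ * (V' - V * S) =
      V'ᴴ * V' - V'ᴴ * V * S - S * (Vᴴ * V') + S * (Vᴴ * V) * S := by
    rw [Matrix.conjTranspose_sub, Matrix.conjTranspose_mul, hS.eq]
    simp only [Matrix.sub_mul, Matrix.mul_sub, Matrix.mul_assoc]
    abel
  rw [h1] at h0'
  simp only [rtr_add, rtr_sub] at h0'
  have h2 : rtr (V'ᴴ * V * S) = rtr (S * (V'ᴴ * V)) := rtr_mul_comm _ _
  have h3 : rtr (S * (Vᴴ * V) * S) = rtr (S * S * (Vᴴ * V)) := by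
    rw [rtr_mul_comm]
    simp only [Matrix.mul_assoc]
  rw [h2, h3] at h0'
  rw [Matrix.mul_add, rtr_add]
  linarith

/-- Matrix entry as a continuous real linear functional. -/
noncomputable def entryL (i j : Fin N) : Mat N →L[ℝ] ℂ :=
  LinearMap.toContinuousLinearMap
    { toFun := fun A => A i j
      map_add' := fun _ _ => rfl
      map_smul' := fun _ _ => rfl }

lemma entryL_apply (i j : Fin N) (A : Mat N) : entryL i j A = A i j := rfl

lemma hasMPrim_integral {g : ℝ → Mat N} (hg : ∀ p q : ℝ, IntervalIntegrable g volume p q)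
    (A₀ : Mat N) (a : ℝ) : HasMPrim (fun x => A₀ + ∫ t in a..x, g t) g := by
  intro i j
  have hi : ∀ p q : ℝ, IntervalIntegrable (fun x => g x i j) volume p q := fun p q =>
    ⟨(entryL i j).integrable_comp (hg p q).1, (entryL i j).integrable_comp (hg p q).2⟩
  refine ⟨hi, fun p q => ?_⟩
  have h1 : (∫ t in a..q, g t) - ∫ t in a..p, g t = ∫ t in p..q, g t :=
    intervalIntegral.integral_interval_sub_left (hg a q) (hg a p)
  have h2 : (A₀ + ∫ t in a..q, g t) i j - (A₀ + ∫ t in a..p, g t) i j =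
      entryL i j (∫ t in p..q, g t) := by
    rw [← h1, map_sub, entryL_apply, entryL_apply, Matrix.add_apply, Matrix.add_apply]
    ring
  rw [h2, ← (entryL i j).intervalIntegral_comp_comm (hg p q)]
  rfl

lemma tendsto_rtr_Pm {u : Fin N → ℝ → Vec m} (A C : Mat N)
    {l : Filter ℝ} (hl : ∀ j, Tendsto (u j) l (𝓝 0)) :
    Tendsto (fun x => rtr (A * Pm u C x)) l (𝓝 0) := by
  simp_rw [rtr_mul_Pm]
  have h1 : Tendsto (fun x => ∑ j, ∑ i, (C * A * Cᴴ) j i * (inner ℂ (u i x) (u j x) : ℂ)) l
      (𝓝 (∑ j : Fin N, ∑ i : Fin N, (C * A * Cᴴ) j i * (0 : ℂ))) := by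
    refine tendsto_finsetSum _ fun j _ => tendsto_finsetSum _ fun i _ => ?_
    refine Tendsto.const_mul _ ?_
    have := (hl i).inner (𝕜 := ℂ) (hl j)
    simpa using this
  have h2 := (Complex.continuous_re.tendsto _).comp h1
  simpa [Function.comp_def] using h2

end SquareAux

open SquareAux

theorem integrable_Pm {u u' : Fin N → ℝ → Vec m} (hu : ∀ j, IsH1 (u j) (u' j)) (A C : Mat N) :
    Integrable (fun x => rtr (A * Pm u C x)) ∧ Integrable (fun x => rtr (A * Pm u' C x)) :=
  ⟨integrable_rtr_Pm (fun j => (hu j).memLp) A C, integrable_rtr_Pm (fun j => (hu j).memLp_deriv) A C⟩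

theorem continuous_Pm {u u' : Fin N → ℝ → Vec m} (hu : ∀ j, IsH1 (u j) (u' j)) (C : Mat N) :
    Continuous (Pm u C) := (hasMPrim_Pm hu C).continuous

theorem posSemidef_Pm (u : Fin N → ℝ → Vec m) (C : Mat N) (x : ℝ) : (Pm u C x).PosSemidef :=
  Matrix.posSemidef_conjTranspose_mul_self _

/-- `∫ V* V = C C` for orthonormal `u` and Hermitian `C`. -/
theorem integral_Pm {u u' : Fin N → ℝ → Vec m} (hu : ∀ j, IsH1 (u j) (u' j))
    (hon : ∀ i j, ∫ x, inner ℂ (u i x) (u j x) = if i = j then (1 : ℂ) else 0)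
    (A : Mat N) {C : Mat N} (hC : C.IsHermitian) :
    ∫ x, rtr (A * Pm u C x) = rtr (A * (C * C)) := by
  simp_rw [rtr_mul_Pm]
  have hi : ∀ j i : Fin N, Integrable fun x => (C * A * Cᴴ) j i * (inner ℂ (u i x) (u j x) : ℂ) :=
    fun j i => (integrable_inner (hu i).memLp (hu j).memLp).const_mul _
  have h : Integrable fun x => ∑ j, ∑ i, (C * A * Cᴴ) j i * (inner ℂ (u i x) (u j x) : ℂ) :=
    integrable_finsetSum _ fun j _ => integrable_finsetSum _ fun i _ => hi j i
  have h1 : ∫ x, (∑ j, ∑ i, (C * A * Cᴴ) j i * (inner ℂ (u i x) (u j x) : ℂ)).re =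
      (∫ x, ∑ j, ∑ i, (C * A * Cᴴ) j i * (inner ℂ (u i x) (u j x) : ℂ)).re := by
    exact integral_re h
  rw [h1, integral_finsetSum _ fun j _ => integrable_finsetSum _ fun i _ => hi j i]
  have h2 : ∀ j : Fin N, ∫ x, ∑ i, (C * A * Cᴴ) j i * (inner ℂ (u i x) (u j x) : ℂ) =
      (C * A * Cᴴ) j j := by
    intro j
    rw [integral_finsetSum _ fun i _ => hi j i]
    simp_rw [integral_const_mul, hon]
    simp
  simp_rw [h2]
  have h3 : rtr (A * (C * C)) = rtr (C * A * Cᴴ) := by
    rw [hC.eq, rtr_mul_comm (C * A) C, rtr_mul_comm A (C * C), Matrix.mul_assoc]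
  rw [h3]
  rfl

/-- Completing the square with a Riccati solution. -/
theorem square_ineq {u u' : Fin N → ℝ → Vec m} (hu : ∀ j, IsH1 (u j) (u' j)) (C : Mat N)
    {K : Mat N} (hK : K.IsHermitian) {a b : ℝ} (hab : a ≤ b) {Y W : ℝ → Mat N}
    (hYh : ∀ x ∈ Icc a b, (Y x).IsHermitian) (hWc : ContinuousOn W (Icc a b))
    (hY : ∀ x ∈ Icc a b, HasDerivWithinAt Y (K * K - Y x * Y x - W x) (Icc a b) x)
    (hYa : Y a = K) (hYb : Y b = -K) :
    ∫ x in a..b, rtr (W x * Pm u C x) ≤ (∫ x, rtr (Pm u' C x)) + ∫ x, rtr (K * K * Pm u C x) := by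
  have hYc : ContinuousOn Y (Icc a b) := fun x hx => (hY x hx).continuousWithinAt
  set g0 : ℝ → Mat N := fun t => K * K - Y t * Y t - W t with hg0
  have hg0c : ContinuousOn g0 (Icc a b) :=
    (continuousOn_const.sub (hYc.mul hYc)).sub hWc
  set g : ℝ → Mat N := (Ioc a b).indicator g0 with hg
  have hgi : Integrable g := by
    rw [hg, integrable_indicator_iff measurableSet_Ioc]
    exact (hg0c.integrableOn_Icc).mono_set Ioc_subset_Icc_self
  have hgii : ∀ p q : ℝ, IntervalIntegrable g volume p q := fun p q => hgi.intervalIntegrable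
  set F : ℝ → Mat N := fun x => K + ∫ t in a..x, g t with hF
  have hFg : HasMPrim F g := hasMPrim_integral hgii K a
  have hF1 : ∀ x, x ≤ a → F x = K := by
    intro x hx
    have : ∫ t in a..x, g t = 0 := by
      rw [intervalIntegral.integral_symm, intervalIntegral.integral_of_le hx,
        setIntegral_congr_fun (g := fun _ => (0 : Mat N)) measurableSet_Ioc]
      · simp
      · intro t ht
        exact indicator_of_notMem (fun h => absurd h.1 (not_lt.mpr ht.2)) _
    rw [hF]; simp only [this, add_zero]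
  have hF2 : ∀ x ∈ Icc a b, F x = Y x := by
    intro x hx
    have h1 : ∫ t in a..x, g t = ∫ t in a..x, g0 t := by
      rw [intervalIntegral.integral_of_le hx.1, intervalIntegral.integral_of_le hx.1]
      refine setIntegral_congr_fun measurableSet_Ioc fun t ht => ?_
      exact indicator_of_mem (show t ∈ Ioc a b from ⟨ht.1, ht.2.trans hx.2⟩) _
    have hsub : Icc a x ⊆ Icc a b := Icc_subset_Icc_right hx.2
    have h2 : ∫ t in a..x, g0 t = Y x - Y a := by
      refine intervalIntegral.integral_eq_sub_of_hasDerivAt_of_le hx.1 (hYc.mono hsub)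
        (fun t ht => ?_) ?_
      · exact (hY t (hsub ⟨ht.1.le, ht.2.le⟩)).hasDerivAt
          (Icc_mem_nhds ht.1 (ht.2.trans_le hx.2))
      · exact (hg0c.mono (by rw [uIcc_of_le hx.1]; exact hsub)).intervalIntegrable
    rw [hF]; simp only [h1, h2, hYa]; abel
  have hF3 : ∀ x, b ≤ x → F x = -K := by
    intro x hx
    have h1 : ∫ t in b..x, g t = 0 := by
      rw [intervalIntegral.integral_of_le hx,
        setIntegral_congr_fun (g := fun _ => (0 : Mat N)) measurableSet_Ioc]
      · simp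
      · intro t ht
        exact indicator_of_notMem (fun h => absurd h.2 (not_le.mpr ht.1)) _
    have h2 : F x = F b + ∫ t in b..x, g t := by
      rw [hF]
      simp only
      rw [← intervalIntegral.integral_add_adjacent_intervals (hgii a b) (hgii b x), add_assoc]
    rw [h2, h1, add_zero, hF2 b (right_mem_Icc.mpr hab), hYb]
  -- pointwise inequality
  set ind : ℝ → ℝ := (Ioc a b).indicator (fun x => rtr (W x * Pm u C x)) with hind
  have hpt : ∀ x, rtr (g x * Pm u C x + F x * Pd u u' C x) ≤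
      rtr (Pm u' C x) + rtr (K * K * Pm u C x) - ind x := by
    intro x
    rw [rtr_add]
    by_cases hx : x ∈ Ioc a b
    · have hx' : x ∈ Icc a b := Ioc_subset_Icc_self hx
      have e1 : g x = K * K - Y x * Y x - W x := indicator_of_mem hx _
      have e2 : ind x = rtr (W x * Pm u C x) := indicator_of_mem hx _
      have h := square_pt u u' C x (hYh x hx')
      rw [e1, e2, hF2 x hx', Matrix.sub_mul, Matrix.sub_mul, rtr_sub, rtr_sub]
      linarith
    · have e1 : g x = 0 := indicator_of_notMem hx _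
      have e2 : ind x = 0 := indicator_of_notMem hx _
      rw [e1, e2, Matrix.zero_mul, rtr_zero, zero_add, sub_zero]
      rcases le_or_gt x a with h | h
      · rw [hF1 x h]; exact square_pt u u' C x hK
      · have hb : b ≤ x := by
          by_contra hb
          exact hx ⟨h, (not_le.mp hb).le⟩
        have h4 := square_pt u u' C x hK.neg
        rw [hF3 x hb]
        simpa using h4
  have hprim := ((hFg.mul (hasMPrim_Pm hu C)).trace).re
  have hWPc : ContinuousOn (fun x => rtr (W x * Pm u C x)) (Icc a b) :=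
    continuous_rtr.comp_continuousOn (hWc.mul (continuous_Pm hu C).continuousOn)
  have hindi : Integrable ind := by
    rw [hind, integrable_indicator_iff measurableSet_Ioc]
    exact (hWPc.integrableOn_Icc).mono_set Ioc_subset_Icc_self
  have hPm' : Integrable (fun x => rtr (Pm u' C x)) := by
    have := (integrable_Pm hu 1 C).2
    simpa using this
  have hKK : Integrable (fun x => rtr (K * K * Pm u C x)) := (integrable_Pm hu (K * K) C).1
  have hB : Integrable (fun x => rtr (Pm u' C x) + rtr (K * K * Pm u C x) - ind x) :=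
    (hPm'.add hKK).sub hindi
  have hineq : ∀ r : ℝ, 0 ≤ r → rtr (F r * Pm u C r) - rtr (F (-r) * Pm u C (-r)) ≤
      ∫ x in (-r)..r, (rtr (Pm u' C x) + rtr (K * K * Pm u C x) - ind x) := by
    intro r hr
    have h1 := hprim.2 (-r) r
    have h2 : rtr (F r * Pm u C r) - rtr (F (-r) * Pm u C (-r)) =
        ∫ x in (-r)..r, rtr (g x * Pm u C x + F x * Pd u u' C x) := h1
    rw [h2]
    exact intervalIntegral.integral_mono_on (by linarith) (hprim.1 (-r) r)
      hB.intervalIntegrable fun x _ => hpt x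
  have hl1 : Tendsto (fun r => rtr (F r * Pm u C r)) atTop (𝓝 0) := by
    refine (tendsto_rtr_Pm (-K) C (l := atTop) fun j => (hu j).tendsto_atTop).congr' ?_
    filter_upwards [eventually_ge_atTop b] with r hr
    rw [hF3 r hr]
  have hl2 : Tendsto (fun r => rtr (F (-r) * Pm u C (-r))) atTop (𝓝 0) := by
    have h1 : Tendsto (fun x => rtr (F x * Pm u C x)) atBot (𝓝 0) := by
      refine (tendsto_rtr_Pm K C (l := atBot) fun j => (hu j).tendsto_atBot).congr' ?_
      filter_upwards [eventually_le_atBot a] with r hr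
      rw [hF1 r hr]
    exact h1.comp tendsto_neg_atTop_atBot
  have hl3 := intervalIntegral_tendsto_integral hB tendsto_neg_atTop_atBot tendsto_id
  have hfin := le_of_tendsto_of_tendsto (hl1.sub hl2) hl3
    ((eventually_ge_atTop 0).mono fun r hr => hineq r hr)
  have h5 : ∫ x, (rtr (Pm u' C x) + rtr (K * K * Pm u C x) - ind x) =
      (∫ x, rtr (Pm u' C x)) + (∫ x, rtr (K * K * Pm u C x)) - ∫ x, ind x := by
    rw [integral_sub (f := fun x => rtr (Pm u' C x) + rtr (K * K * Pm u C x))
      (hPm'.add hKK) hindi, integral_add hPm' hKK]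
  rw [sub_zero, h5, hind,
    integral_indicator measurableSet_Ioc, ← intervalIntegral.integral_of_le hab] at hfin
  linarith

end Vale.Agent.P371.Full
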