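import Vale.Agent.P371.Full.Base

/-!
# P371 (full): trace inequalities (Klein, Young, master lemma)
-/

open scoped Matrix.Norms.L2Operator ComplexOrder
open Matrix MeasureTheory Set Filter Topology

namespace Vale.Agent.P371.Full

variable {N : ℕ}

/-- the unitary of eigenvectors as a matrix -/
noncomputable def TraceConv.U {n : ℕ} {A : Matrix (Fin n) (Fin n) ℂ} (hA : A.IsHermitian) :
    Matrix (Fin n) (Fin n) ℂ := (hA.eigenvectorUnitary : Matrix (Fin n) (Fin n) ℂ)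

theorem TraceConv.U_star_mul {n : ℕ} {A : Matrix (Fin n) (Fin n) ℂ} (hA : A.IsHermitian) :
    (TraceConv.U hA)ᴴ * TraceConv.U hA = 1 := by
  have h := Unitary.coe_star_mul_self hA.eigenvectorUnitary
  rwa [star_eq_conjTranspose] at h

theorem TraceConv.U_mul_star {n : ℕ} {A : Matrix (Fin n) (Fin n) ℂ} (hA : A.IsHermitian) :
    TraceConv.U hA * (TraceConv.U hA)ᴴ = 1 := by
  have h := Unitary.mul_star_self_of_mem hA.eigenvectorUnitary.2
  rwa [star_eq_conjTranspose] at h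

theorem TraceConv.cfc_explicit {n : ℕ} {A : Matrix (Fin n) (Fin n) ℂ} (hA : A.IsHermitian)
    (f : ℝ → ℝ) : cfc f A = TraceConv.U hA *
      Matrix.diagonal (fun i => ((f (hA.eigenvalues i) : ℝ) : ℂ)) * (TraceConv.U hA)ᴴ := by
  rw [hA.cfc_eq f, Matrix.IsHermitian.cfc, Unitary.conjStarAlgAut_apply, star_eq_conjTranspose]
  rfl

theorem TraceConv.self_explicit {n : ℕ} {A : Matrix (Fin n) (Fin n) ℂ} (hA : A.IsHermitian) :
    A = TraceConv.U hA *
      Matrix.diagonal (fun i => ((hA.eigenvalues i : ℝ) : ℂ)) * (TraceConv.U hA)ᴴ := by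
  have h := hA.spectral_theorem
  rw [Unitary.conjStarAlgAut_apply, star_eq_conjTranspose] at h
  exact h

theorem TraceConv.cfc_mul_cfc {n : ℕ} {A : Matrix (Fin n) (Fin n) ℂ} (hA : A.IsHermitian)
    (f g : ℝ → ℝ) : cfc f A * cfc g A = cfc (fun x => f x * g x) A := by
  rw [TraceConv.cfc_explicit hA, TraceConv.cfc_explicit hA, TraceConv.cfc_explicit hA]
  have h := TraceConv.U_star_mul hA
  have e : Matrix.diagonal (fun i => (((f (hA.eigenvalues i) * g (hA.eigenvalues i) : ℝ)) : ℂ)) =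
      Matrix.diagonal (fun i => ((f (hA.eigenvalues i) : ℝ) : ℂ)) *
        Matrix.diagonal (fun i => ((g (hA.eigenvalues i) : ℝ) : ℂ)) := by
    rw [Matrix.diagonal_mul_diagonal]
    push_cast
    rfl
  rw [e]
  simp only [Matrix.mul_assoc]
  rw [← Matrix.mul_assoc (TraceConv.U hA)ᴴ (TraceConv.U hA), h, Matrix.one_mul]

theorem TraceConv.cfc_id {n : ℕ} {A : Matrix (Fin n) (Fin n) ℂ} (hA : A.IsHermitian) :
    cfc (fun x : ℝ => x) A = A := by
  rw [TraceConv.cfc_explicit hA]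
  exact (TraceConv.self_explicit hA).symm

theorem TraceConv.cfc_one {n : ℕ} {A : Matrix (Fin n) (Fin n) ℂ} (hA : A.IsHermitian) :
    cfc (fun _ : ℝ => (1 : ℝ)) A = 1 := by
  rw [TraceConv.cfc_explicit hA]
  simp only [Complex.ofReal_one, Matrix.diagonal_one, Matrix.mul_one]
  exact TraceConv.U_mul_star hA

theorem TraceConv.cfc_neg {n : ℕ} {A : Matrix (Fin n) (Fin n) ℂ} (hA : A.IsHermitian)
    (f : ℝ → ℝ) : cfc (fun x : ℝ => -f x) A = -cfc f A := by
  rw [TraceConv.cfc_explicit hA, TraceConv.cfc_explicit hA]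
  have e : Matrix.diagonal (fun i => ((-f (hA.eigenvalues i) : ℝ) : ℂ)) =
      -Matrix.diagonal (fun i => ((f (hA.eigenvalues i) : ℝ) : ℂ)) := by
    ext i j
    by_cases h : i = j
    · subst h
      simp
    · simp [h]
  rw [e, Matrix.mul_neg, Matrix.neg_mul]

theorem rtr_cfc {A : Mat N} (hA : A.IsHermitian) (f : ℝ → ℝ) :
    rtr (cfc f A) = ∑ i, f (hA.eigenvalues i) := by
  rw [TraceConv.cfc_explicit hA, rtr_mul_comm, ← Matrix.mul_assoc, TraceConv.U_star_mul hA,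
    Matrix.one_mul]
  simp [rtr, Matrix.trace]

theorem trPow_eq_rtr {A : Mat N} (hA : A.IsHermitian) (p : ℝ) :
    trPow A p = rtr (cfc (fun x : ℝ => x ^ p) A) := by
  rw [rtr_cfc hA]
  unfold trPow
  rw [dif_pos hA]

theorem TraceConv.double {A B : Mat N} (hA : A.IsHermitian) (hB : B.IsHermitian)
    (φ ψ : ℝ → ℝ) : rtr (cfc φ A * cfc ψ B) =
      ∑ i, ∑ j, ‖((TraceConv.U hA)ᴴ * TraceConv.U hB) i j‖ ^ 2 *
        (φ (hA.eigenvalues i) * ψ (hB.eigenvalues j)) := by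
  rw [TraceConv.cfc_explicit hA, TraceConv.cfc_explicit hB]
  set U := TraceConv.U hA
  set V := TraceConv.U hB
  set D := Matrix.diagonal (fun i => ((φ (hA.eigenvalues i) : ℝ) : ℂ))
  set E := Matrix.diagonal (fun i => ((ψ (hB.eigenvalues i) : ℝ) : ℂ))
  have h1 : rtr (U * D * Uᴴ * (V * E * Vᴴ)) = rtr (D * (Uᴴ * V) * E * (Uᴴ * V)ᴴ) := by
    have e1 : U * D * Uᴴ * (V * E * Vᴴ) = U * (D * (Uᴴ * V) * E * Vᴴ) := by
      simp only [Matrix.mul_assoc]
    rw [e1, rtr_mul_comm, Matrix.conjTranspose_mul, Matrix.conjTranspose_conjTranspose]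
    simp only [Matrix.mul_assoc]
  rw [h1]
  set W := Uᴴ * V
  unfold rtr Matrix.trace
  rw [Complex.re_sum]
  refine Finset.sum_congr rfl fun i _ => ?_
  rw [Matrix.diag_apply, Matrix.mul_apply, Complex.re_sum]
  refine Finset.sum_congr rfl fun j _ => ?_
  rw [Matrix.mul_diagonal, Matrix.diagonal_mul, Matrix.conjTranspose_apply]
  have h2 : ((φ (hA.eigenvalues i) : ℝ) : ℂ) * W i j * ((ψ (hB.eigenvalues j) : ℝ) : ℂ) *
      star (W i j) = ((‖W i j‖ ^ 2 * (φ (hA.eigenvalues i) * ψ (hB.eigenvalues j)) : ℝ) : ℂ) := by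
    have h3 : W i j * star (W i j) = ((‖W i j‖ ^ 2 : ℝ) : ℂ) := by
      rw [← Complex.normSq_eq_norm_sq, ← Complex.mul_conj]
      rfl
    have h4 : ((φ (hA.eigenvalues i) : ℝ) : ℂ) * W i j * ((ψ (hB.eigenvalues j) : ℝ) : ℂ) *
      star (W i j) = (W i j * star (W i j)) *
        (((φ (hA.eigenvalues i) : ℝ) : ℂ) * ((ψ (hB.eigenvalues j) : ℝ) : ℂ)) := by ring
    rw [h4, h3]
    push_cast
    ring
  rw [h2, Complex.ofReal_re]

/-- Master lemma (double spectral decomposition). -/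
theorem sum_rtr_nonneg {ι : Type*} (s : Finset ι) (φ ψ : ι → ℝ → ℝ) {A B : Mat N}
    (hA : A.IsHermitian) (hB : B.IsHermitian)
    (h : ∀ x ∈ spectrum ℝ A, ∀ y ∈ spectrum ℝ B, 0 ≤ ∑ k ∈ s, φ k x * ψ k y) :
    0 ≤ ∑ k ∈ s, rtr (cfc (φ k) A * cfc (ψ k) B) := by
  simp only [TraceConv.double hA hB]
  rw [Finset.sum_comm]
  refine Finset.sum_nonneg fun i _ => ?_
  rw [Finset.sum_comm]
  refine Finset.sum_nonneg fun j _ => ?_
  rw [← Finset.mul_sum]
  exact mul_nonneg (sq_nonneg _) (h _ (hA.eigenvalues_mem_spectrum_real i) _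
    (hB.eigenvalues_mem_spectrum_real j))

/-- Klein's inequality. -/
theorem klein {f f' : ℝ → ℝ} {A B : Mat N} (hA : A.IsHermitian) (hB : B.IsHermitian)
    (h : ∀ x ∈ spectrum ℝ A, ∀ y ∈ spectrum ℝ B, f x + f' x * (y - x) ≤ f y) :
    rtr (cfc f A) + rtr (cfc f' A * (B - A)) ≤ rtr (cfc f B) := by
  have h1 := sum_rtr_nonneg (Finset.univ : Finset (Fin 4))
    ![fun _ => 1, fun x => -f x, fun x => -f' x, fun x => f' x * x]
    ![f, fun _ => 1, fun y => y, fun _ => 1] hA hB (by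
      intro x hx y hy
      simp only [Fin.sum_univ_four]
      have := h x hx y hy
      change 0 ≤ 1 * f y + -f x * 1 + -f' x * y + f' x * x * 1
      linarith)
  simp only [Fin.sum_univ_four] at h1
  change 0 ≤ rtr (cfc (fun _ => 1) A * cfc f B) + rtr (cfc (fun x => -f x) A * cfc (fun _ => 1) B)
    + rtr (cfc (fun x => -f' x) A * cfc (fun y => y) B)
    + rtr (cfc (fun x => f' x * x) A * cfc (fun _ => 1) B) at h1
  rw [TraceConv.cfc_one hA, TraceConv.cfc_one hB, TraceConv.cfc_id hB, TraceConv.cfc_neg hA,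
    TraceConv.cfc_neg hA, ← TraceConv.cfc_mul_cfc hA f' (fun x => x), TraceConv.cfc_id hA,
    Matrix.one_mul, Matrix.mul_one, Matrix.mul_one, Matrix.neg_mul, rtr_neg, rtr_neg] at h1
  rw [Matrix.mul_sub, rtr_sub]
  linarith

/-- Trace of a product of positive semidefinite matrices. -/
theorem rtr_mul_nonneg {A B : Mat N} (hA : A.PosSemidef) (hB : B.PosSemidef) :
    0 ≤ rtr (A * B) := by
  -- a square root of `B`
  set C : Mat N := Matrix.diagonal (fun i => ((√(hB.1.eigenvalues i) : ℝ) : ℂ)) *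
    (TraceConv.U hB.1)ᴴ with hC
  have hBC : B = Cᴴ * C := by
    have e1 : (Matrix.diagonal (fun i => ((√(hB.1.eigenvalues i) : ℝ) : ℂ)))ᴴ *
        Matrix.diagonal (fun i => ((√(hB.1.eigenvalues i) : ℝ) : ℂ)) =
        Matrix.diagonal (fun i => ((hB.1.eigenvalues i : ℝ) : ℂ)) := by
      rw [Matrix.diagonal_conjTranspose, Matrix.diagonal_mul_diagonal]
      congr 1
      funext i
      rw [Pi.star_apply]
      have h1 : star ((√(hB.1.eigenvalues i) : ℝ) : ℂ) = ((√(hB.1.eigenvalues i) : ℝ) : ℂ) :=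
        Complex.conj_ofReal _
      rw [h1, ← Complex.ofReal_mul, Real.mul_self_sqrt (hB.eigenvalues_nonneg i)]
    have e2 : Cᴴ * C = TraceConv.U hB.1 *
        ((Matrix.diagonal (fun i => ((√(hB.1.eigenvalues i) : ℝ) : ℂ)))ᴴ *
        Matrix.diagonal (fun i => ((√(hB.1.eigenvalues i) : ℝ) : ℂ))) * (TraceConv.U hB.1)ᴴ := by
      rw [hC, Matrix.conjTranspose_mul, Matrix.conjTranspose_conjTranspose]
      simp only [Matrix.mul_assoc]
    rw [e2, e1]
    exact TraceConv.self_explicit hB.1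
  rw [hBC, ← Matrix.mul_assoc, rtr_mul_comm, ← Matrix.mul_assoc]
  have h1 := (hA.mul_mul_conjTranspose_same C).trace_nonneg
  exact (Complex.nonneg_iff.1 h1).1

/-- Rectangular trace Young inequality: `tr (W V V*) ≤ tr f(W) + tr f*(V* V)`. -/
theorem young_rect {m : ℕ} {f fs : ℝ → ℝ} (hf : ∀ w, 0 ≤ w → 0 ≤ f w) (hfs : ∀ p, 0 ≤ p → 0 ≤ fs p)
    (hy : ∀ w p, 0 ≤ w → 0 ≤ p → w * p ≤ f w + fs p)
    {W : Matrix (Fin m) (Fin m) ℂ} (hW : W.PosSemidef) (V : Matrix (Fin m) (Fin N) ℂ) :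
    (Matrix.trace (Vᴴ * W * V)).re ≤ rtr (cfc f W) + rtr (cfc fs (Vᴴ * V)) := by
  have hP : (Vᴴ * V).PosSemidef := Matrix.posSemidef_conjTranspose_mul_self V
  have hWH := hW.1
  have hPH := hP.1
  rw [rtr_cfc hWH, rtr_cfc hPH]
  set U := TraceConv.U hWH
  set Q := TraceConv.U hPH
  set w : Fin m → ℝ := hWH.eigenvalues
  set p : Fin N → ℝ := hPH.eigenvalues
  have hw : ∀ a, 0 ≤ w a := fun a => hW.eigenvalues_nonneg a
  have hp : ∀ k, 0 ≤ p k := fun k => hP.eigenvalues_nonneg k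
  obtain ⟨X, hX⟩ : ∃ X : Matrix (Fin m) (Fin N) ℂ, X = Uᴴ * V * Q := ⟨_, rfl⟩
  have hUU : U * Uᴴ = 1 := TraceConv.U_mul_star hWH
  have hQQ : Q * Qᴴ = 1 := TraceConv.U_mul_star hPH
  have hQQ' : Qᴴ * Q = 1 := TraceConv.U_star_mul hPH
  have hWe : W = U * Matrix.diagonal (fun i => ((w i : ℝ) : ℂ)) * Uᴴ :=
    TraceConv.self_explicit hWH
  have hPe : Vᴴ * V = Q * Matrix.diagonal (fun i => ((p i : ℝ) : ℂ)) * Qᴴ :=
    TraceConv.self_explicit hPH
  have hXX : Xᴴ * X = Matrix.diagonal (fun i => ((p i : ℝ) : ℂ)) := by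
    have e1 : Xᴴ * X = Qᴴ * (Vᴴ * (U * Uᴴ) * V) * Q := by
      rw [hX]
      simp only [Matrix.conjTranspose_mul, Matrix.conjTranspose_conjTranspose, Matrix.mul_assoc]
    rw [e1, hUU, Matrix.mul_one, hPe]
    have e2 : Qᴴ * (Q * Matrix.diagonal (fun i => ((p i : ℝ) : ℂ)) * Qᴴ) * Q =
        (Qᴴ * Q) * Matrix.diagonal (fun i => ((p i : ℝ) : ℂ)) * (Qᴴ * Q) := by
      simp only [Matrix.mul_assoc]
    rw [e2, hQQ', Matrix.one_mul, Matrix.mul_one]
  have htr : (Matrix.trace (Vᴴ * W * V)).re = ∑ k, ∑ a, w a * ‖X a k‖ ^ 2 := by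
    have e1 : Xᴴ * Matrix.diagonal (fun i => ((w i : ℝ) : ℂ)) * X = Qᴴ * (Vᴴ * W * V * Q) := by
      rw [hX]
      conv_rhs => rw [hWe]
      simp only [Matrix.conjTranspose_mul, Matrix.conjTranspose_conjTranspose, Matrix.mul_assoc]
    have e2 : Matrix.trace (Vᴴ * W * V) =
        Matrix.trace (Xᴴ * Matrix.diagonal (fun i => ((w i : ℝ) : ℂ)) * X) := by
      rw [e1, Matrix.trace_mul_comm Qᴴ, Matrix.mul_assoc (Vᴴ * W * V) Q Qᴴ, hQQ, Matrix.mul_one]
    rw [e2]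
    unfold Matrix.trace
    rw [Complex.re_sum]
    refine Finset.sum_congr rfl fun k _ => ?_
    rw [Matrix.diag_apply, Matrix.mul_apply, Complex.re_sum]
    refine Finset.sum_congr rfl fun a _ => ?_
    rw [Matrix.mul_diagonal, Matrix.conjTranspose_apply]
    have h3 : X a k * star (X a k) = ((‖X a k‖ ^ 2 : ℝ) : ℂ) := by
      rw [← Complex.normSq_eq_norm_sq, ← Complex.mul_conj]
      rfl
    have h4 : star (X a k) * ((w a : ℝ) : ℂ) * X a k = ((w a : ℝ) : ℂ) * (X a k * star (X a k)) := by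
      ring
    rw [h4, h3, ← Complex.ofReal_mul, Complex.ofReal_re]
  have hcol : ∀ k, ∑ a, ‖X a k‖ ^ 2 = p k := by
    intro k
    have h1 := congrFun (congrFun hXX k) k
    rw [Matrix.mul_apply, Matrix.diagonal_apply_eq] at h1
    have h2 : ((∑ a, ‖X a k‖ ^ 2 : ℝ) : ℂ) = ((p k : ℝ) : ℂ) := by
      rw [← h1]
      push_cast
      refine Finset.sum_congr rfl fun a _ => ?_
      rw [Matrix.conjTranspose_apply]
      have h3 : star (X a k) * X a k = ((‖X a k‖ ^ 2 : ℝ) : ℂ) := by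
        rw [← Complex.normSq_eq_norm_sq, ← Complex.mul_conj, mul_comm]
        rfl
      rw [h3]
      push_cast
      rfl
    exact_mod_cast h2
  -- normalised columns
  obtain ⟨c, hc⟩ : ∃ c : Fin N → ℝ, ∀ k, c k = if 0 < p k then (√(p k))⁻¹ else 0 :=
    ⟨_, fun _ => rfl⟩
  have hc1 : ∀ k, c k * c k * p k = if 0 < p k then 1 else 0 := by
    intro k
    rw [hc]
    split_ifs with h
    · have : √(p k) * √(p k) = p k := Real.mul_self_sqrt h.le
      have h0 : √(p k) ≠ 0 := (Real.sqrt_pos.2 h).ne'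
      calc (√(p k))⁻¹ * (√(p k))⁻¹ * p k = (√(p k))⁻¹ * (√(p k))⁻¹ * (√(p k) * √(p k)) := by
            rw [this]
        _ = 1 := by field_simp
    · ring
  obtain ⟨E, hE⟩ : ∃ E : Matrix (Fin m) (Fin N) ℂ, E = X * Matrix.diagonal (fun k => ((c k : ℝ) : ℂ)) :=
    ⟨_, rfl⟩
  have hEE : Eᴴ * E = Matrix.diagonal (fun k => (((if 0 < p k then (1 : ℝ) else 0) : ℝ) : ℂ)) := by
    have e1 : Eᴴ * E = (Matrix.diagonal (fun k => ((c k : ℝ) : ℂ)))ᴴ * (Xᴴ * X) *
        Matrix.diagonal (fun k => ((c k : ℝ) : ℂ)) := by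
      rw [hE, Matrix.conjTranspose_mul]
      simp only [Matrix.mul_assoc]
    rw [e1, hXX, Matrix.diagonal_conjTranspose, Matrix.diagonal_mul_diagonal,
      Matrix.diagonal_mul_diagonal]
    congr 1
    funext k
    rw [Pi.star_apply, ← hc1]
    have : star ((c k : ℝ) : ℂ) = ((c k : ℝ) : ℂ) := Complex.conj_ofReal _
    rw [this]
    push_cast
    ring
  have hEpi : E * Matrix.diagonal (fun k => (((if 0 < p k then (1 : ℝ) else 0) : ℝ) : ℂ)) = E := by
    rw [hE, Matrix.mul_assoc, Matrix.diagonal_mul_diagonal]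
    congr 2
    funext k
    rw [hc]
    split_ifs
    · simp
    · simp
  have hrow : ∀ a, ∑ k, ‖E a k‖ ^ 2 ≤ 1 := by
    intro a
    obtain ⟨M, hM⟩ : ∃ M : Matrix (Fin m) (Fin m) ℂ, M = E * Eᴴ := ⟨_, rfl⟩
    have hMH : Mᴴ = M := by
      rw [hM, Matrix.conjTranspose_mul, Matrix.conjTranspose_conjTranspose]
    have hMM : M * M = M := by
      have e1 : M * M = E * (Eᴴ * E) * Eᴴ := by
        rw [hM]
        simp only [Matrix.mul_assoc]
      rw [e1, hEE, hEpi, ← hM]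
    have hMa : M a a = ((∑ k, ‖E a k‖ ^ 2 : ℝ) : ℂ) := by
      rw [hM, Matrix.mul_apply]
      push_cast
      refine Finset.sum_congr rfl fun k _ => ?_
      rw [Matrix.conjTranspose_apply]
      have h3 : E a k * star (E a k) = ((‖E a k‖ ^ 2 : ℝ) : ℂ) := by
        rw [← Complex.normSq_eq_norm_sq, ← Complex.mul_conj]
        rfl
      rw [h3]
      push_cast
      rfl
    set S := ∑ k, ‖E a k‖ ^ 2 with hS
    have hS0 : 0 ≤ S := by positivity
    have h1 : ((∑ b, ‖M a b‖ ^ 2 : ℝ) : ℂ) = M a a := by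
      conv_rhs => rw [← hMM]
      rw [Matrix.mul_apply]
      push_cast
      refine Finset.sum_congr rfl fun b _ => ?_
      have h2 : M b a = star (M a b) := by
        conv_lhs => rw [← hMH]
        rw [Matrix.conjTranspose_apply]
      have h3 : M a b * star (M a b) = ((‖M a b‖ ^ 2 : ℝ) : ℂ) := by
        rw [← Complex.normSq_eq_norm_sq, ← Complex.mul_conj]
        rfl
      rw [h2, h3]
      push_cast
      rfl
    have h2 : ∑ b, ‖M a b‖ ^ 2 = S := by
      rw [hMa] at h1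
      exact_mod_cast h1
    have h3 : ‖M a a‖ ^ 2 ≤ ∑ b, ‖M a b‖ ^ 2 :=
      Finset.single_le_sum (f := fun b => ‖M a b‖ ^ 2) (fun b _ => sq_nonneg _)
        (Finset.mem_univ a)
    rw [h2, hMa, Complex.norm_real, Real.norm_of_nonneg hS0] at h3
    by_contra hcon
    push Not at hcon
    nlinarith
  have hEcol : ∀ k, ∑ a, ‖E a k‖ ^ 2 ≤ 1 := by
    intro k
    have e1 : ∀ a, ‖E a k‖ ^ 2 = ‖X a k‖ ^ 2 * (c k * c k) := by
      intro a
      rw [hE, Matrix.mul_diagonal, norm_mul, mul_pow, Complex.norm_real, Real.norm_eq_abs, sq_abs]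
      ring
    simp only [e1]
    rw [← Finset.sum_mul, hcol, mul_comm, hc1]
    split_ifs <;> norm_num
  have hterm : ∀ k a, w a * ‖X a k‖ ^ 2 ≤ ‖E a k‖ ^ 2 * (f (w a) + fs (p k)) := by
    intro k a
    have e1 : ‖E a k‖ ^ 2 = ‖X a k‖ ^ 2 * (c k * c k) := by
      rw [hE, Matrix.mul_diagonal, norm_mul, mul_pow, Complex.norm_real, Real.norm_eq_abs, sq_abs]
      ring
    rcases (hp k).eq_or_lt with h | h
    · have h1 : ‖X a k‖ ^ 2 ≤ 0 := by
        rw [← hcol k] at h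
        rw [h]
        exact Finset.single_le_sum (f := fun a => ‖X a k‖ ^ 2) (fun b _ => sq_nonneg _)
          (Finset.mem_univ a)
      have h2 : ‖X a k‖ ^ 2 = 0 := le_antisymm h1 (sq_nonneg _)
      rw [e1, h2]
      simp
    · have h1 : c k * c k * p k = 1 := by rw [hc1, if_pos h]
      have h2 : w a * ‖X a k‖ ^ 2 = ‖E a k‖ ^ 2 * (w a * p k) := by
        rw [e1]
        calc w a * ‖X a k‖ ^ 2 = w a * ‖X a k‖ ^ 2 * 1 := by ring
          _ = w a * ‖X a k‖ ^ 2 * (c k * c k * p k) := by rw [h1]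
          _ = _ := by ring
      rw [h2]
      exact mul_le_mul_of_nonneg_left (hy _ _ (hw a) (hp k)) (sq_nonneg _)
  rw [htr]
  calc ∑ k, ∑ a, w a * ‖X a k‖ ^ 2
      ≤ ∑ k, ∑ a, ‖E a k‖ ^ 2 * (f (w a) + fs (p k)) :=
        Finset.sum_le_sum fun k _ => Finset.sum_le_sum fun a _ => hterm k a
    _ = ∑ k, ∑ a, ‖E a k‖ ^ 2 * f (w a) + ∑ k, ∑ a, ‖E a k‖ ^ 2 * fs (p k) := by
        rw [← Finset.sum_add_distrib]
        refine Finset.sum_congr rfl fun k _ => ?_
        rw [← Finset.sum_add_distrib]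
        exact Finset.sum_congr rfl fun a _ => mul_add _ _ _
    _ ≤ ∑ a, f (w a) + ∑ k, fs (p k) := by
        refine add_le_add ?_ ?_
        · rw [Finset.sum_comm]
          refine Finset.sum_le_sum fun a _ => ?_
          rw [← Finset.sum_mul]
          exact mul_le_of_le_one_left (hf _ (hw a)) (hrow a)
        · refine Finset.sum_le_sum fun k _ => ?_
          rw [← Finset.sum_mul]
          exact mul_le_of_le_one_left (hfs _ (hp k)) (hEcol k)

end Vale.Agent.P371.Full
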