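import Vale.Agent.P371.Upper
import Vale.Agent.P371.Full.TransDefs
import Vale.Agent.P371.Full.Square
import Vale.Agent.P371.Full.Fenchel
import Vale.Agent.P371.Full.TraceConv

/-!
# P371 (full): eigenvalue identity and Young
-/

open scoped Matrix.Norms.L2Operator ComplexOrder ENNReal
open Matrix MeasureTheory Set Filter Topology

namespace Vale.Agent.P371.Full

variable {N m : ℕ}

namespace EigAux

theorem exists_factor {n : ℕ} {B : Matrix (Fin n) (Fin n) ℂ} (hB : B.PosSemidef) :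
    ∃ C : Matrix (Fin n) (Fin n) ℂ, B = Cᴴ * C := by
  refine ⟨Matrix.diagonal (fun i => ((√(hB.1.eigenvalues i) : ℝ) : ℂ)) *
    (TraceConv.U hB.1)ᴴ, ?_⟩
  have e1 : (Matrix.diagonal (fun i => ((√(hB.1.eigenvalues i) : ℝ) : ℂ)))ᴴ *
      Matrix.diagonal (fun i => ((√(hB.1.eigenvalues i) : ℝ) : ℂ)) =
      Matrix.diagonal (fun i => ((hB.1.eigenvalues i : ℝ) : ℂ)) := by
    rw [Matrix.diagonal_conjTranspose, Matrix.diagonal_mul_diagonal]
    congr 1
    funext i
    rw [Pi.star_apply]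
    have h1 : star ((√(hB.1.eigenvalues i) : ℝ) : ℂ) = ((√(hB.1.eigenvalues i) : ℝ) : ℂ) :=
      Complex.conj_ofReal _
    rw [h1, ← Complex.ofReal_mul, Real.mul_self_sqrt (hB.eigenvalues_nonneg i)]
  have e2 : (Matrix.diagonal (fun i => ((√(hB.1.eigenvalues i) : ℝ) : ℂ)) *
      (TraceConv.U hB.1)ᴴ)ᴴ * (Matrix.diagonal (fun i => ((√(hB.1.eigenvalues i) : ℝ) : ℂ)) *
      (TraceConv.U hB.1)ᴴ) = TraceConv.U hB.1 *
      ((Matrix.diagonal (fun i => ((√(hB.1.eigenvalues i) : ℝ) : ℂ)))ᴴ *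
      Matrix.diagonal (fun i => ((√(hB.1.eigenvalues i) : ℝ) : ℂ))) * (TraceConv.U hB.1)ᴴ := by
    rw [Matrix.conjTranspose_mul, Matrix.conjTranspose_conjTranspose]
    simp only [Matrix.mul_assoc]
  rw [e2, e1]
  exact TraceConv.self_explicit hB.1

theorem pairing_factor (B : Matrix (Fin m) (Fin m) ℂ) (v w : Vec m) :
    pairing (Bᴴ * B) v w = ∑ k, star (∑ a, B k a * v a) * (∑ b, B k b * w b) := by
  unfold pairing
  have h1 : ∀ a b : Fin m, (starRingEnd ℂ) (v a) * (Bᴴ * B) a b * w b =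
      ∑ k, (star (B k a * v a)) * (B k b * w b) := by
    intro a b
    rw [Matrix.mul_apply, Finset.mul_sum, Finset.sum_mul]
    refine Finset.sum_congr rfl fun k _ => ?_
    rw [Matrix.conjTranspose_apply, star_mul']
    have : (starRingEnd ℂ) (v a) = star (v a) := rfl
    rw [this]
    ring
  simp only [h1]
  have h2 : ∀ a : Fin m, ∑ b, ∑ k, (star (B k a * v a)) * (B k b * w b) =
      ∑ k, ∑ b, (star (B k a * v a)) * (B k b * w b) := fun a => Finset.sum_comm
  simp only [h2]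
  rw [Finset.sum_comm]
  refine Finset.sum_congr rfl fun k _ => ?_
  rw [star_sum, Finset.sum_mul_sum]

theorem pairing_le {A : Matrix (Fin m) (Fin m) ℂ} (hA : A.PosSemidef) (v w : Vec m) :
    ‖pairing A v w‖ ≤ (pr A v + pr A w) / 2 := by
  obtain ⟨B, rfl⟩ := exists_factor hA
  unfold pr
  rw [pairing_factor, pairing_factor, pairing_factor]
  set x : Fin m → ℂ := fun k => ∑ a, B k a * v a with hx
  set y : Fin m → ℂ := fun k => ∑ a, B k a * w a with hy
  have h1 : ∀ z : Fin m → ℂ, (∑ k, star (z k) * z k).re = ∑ k, ‖z k‖ ^ 2 := by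
    intro z
    rw [Complex.re_sum]
    refine Finset.sum_congr rfl fun k _ => ?_
    rw [Complex.star_def, ← Complex.normSq_eq_conj_mul_self, Complex.ofReal_re,
      Complex.normSq_eq_norm_sq]
  have e1 := h1 x
  have e2 := h1 y
  change ‖∑ k, star (x k) * y k‖ ≤ ((∑ k, star (x k) * x k).re + (∑ k, star (y k) * y k).re) / 2
  rw [e1, e2, ← Finset.sum_add_distrib, Finset.sum_div]
  refine (norm_sum_le _ _).trans (Finset.sum_le_sum fun k _ => ?_)
  rw [norm_mul, norm_star]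
  nlinarith [sq_nonneg (‖x k‖ - ‖y k‖)]

theorem pairing_one (v w : Vec m) : pairing (1 : Matrix (Fin m) (Fin m) ℂ) v w = inner ℂ v w := by
  unfold pairing
  rw [PiLp.inner_apply]
  refine Finset.sum_congr rfl fun a _ => ?_
  rw [Finset.sum_eq_single a]
  · simp [mul_comm]
  · intro b _ hb
    rw [Matrix.one_apply_ne (Ne.symm hb)]
    ring
  · intro h
    exact absurd (Finset.mem_univ a) h

theorem trace_CMC (M C : Mat N) : Matrix.trace (Cᴴ * M * C) =
    ∑ i, ∑ j, (∑ k, star (C i k) * C j k) * M i j := by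
  unfold Matrix.trace
  simp only [Matrix.diag_apply, Matrix.mul_apply, Matrix.conjTranspose_apply, Finset.sum_mul]
  have h3 : ∀ k : Fin N, ∑ j, ∑ i, star (C i k) * M i j * C j k =
      ∑ i, ∑ j, star (C i k) * C j k * M i j := by
    intro k
    rw [Finset.sum_comm]
    refine Finset.sum_congr rfl fun i _ => Finset.sum_congr rfl fun j _ => ?_
    ring
  simp only [h3]
  rw [Finset.sum_comm]
  refine Finset.sum_congr rfl fun i _ => ?_
  rw [Finset.sum_comm]

theorem trace_expand (A : Matrix (Fin m) (Fin m) ℂ) (u : Fin N → ℝ → Vec m) (C : Mat N) (x : ℝ) :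
    Matrix.trace ((Um u x * C)ᴴ * A * (Um u x * C)) =
      ∑ i, ∑ j, (∑ k, star (C i k) * C j k) * pairing A (u i x) (u j x) := by
  have h0 : (Um u x * C)ᴴ * A * (Um u x * C) = Cᴴ * ((Um u x)ᴴ * A * Um u x) * C := by
    rw [Matrix.conjTranspose_mul]
    simp only [Matrix.mul_assoc]
  have hM : ∀ i j, ((Um u x)ᴴ * A * Um u x) i j = pairing A (u i x) (u j x) := by
    intro i j
    rw [Matrix.mul_apply]
    unfold pairing
    simp only [Matrix.mul_apply, Finset.sum_mul]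
    rw [Finset.sum_comm]
    rfl
  rw [h0, trace_CMC]
  simp only [hM]

theorem meas_pairing {W : ℝ → Matrix (Fin m) (Fin m) ℂ}
    (hWm : ∀ a b, Measurable fun x => W x a b) {f g : ℝ → Vec m} (hf : Continuous f)
    (hg : Continuous g) : Measurable fun x => pairing (W x) (f x) (g x) := by
  unfold pairing
  refine Finset.measurable_sum _ fun a _ => Finset.measurable_sum _ fun b _ => ?_
  have h1 : Continuous fun x => f x a := (EuclideanSpace.proj (𝕜 := ℂ) a).continuous.comp hf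
  have h2 : Continuous fun x => g x b := (EuclideanSpace.proj (𝕜 := ℂ) b).continuous.comp hg
  exact ((Complex.continuous_conj.comp h1).measurable.mul (hWm a b)).mul h2.measurable

theorem integrable_inner_deriv {u u' : Fin N → ℝ → Vec m} (hu : ∀ j, IsH1 (u j) (u' j))
    (i j : Fin N) : Integrable fun x => (inner ℂ (u' i x) (u' j x) : ℂ) := by
  have h1 : Integrable fun x => (‖u' i x‖ ^ 2 + ‖u' j x‖ ^ 2) :=
    (hu i).integrable_sq_deriv.add (hu j).integrable_sq_deriv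
  refine h1.mono' ((hu i).memLp_deriv.1.inner (hu j).memLp_deriv.1)
    (Filter.Eventually.of_forall fun x => ?_)
  refine (norm_inner_le_norm _ _).trans ?_
  nlinarith [sq_nonneg (‖u' i x‖ - ‖u' j x‖), sq_nonneg (‖u' i x‖ + ‖u' j x‖)]

end EigAux

/-- The eigenvalue equations, tested with the eigenfunctions. -/
theorem eigen_identity {W : ℝ → Matrix (Fin m) (Fin m) ℂ} (hW : ∀ x, (W x).PosSemidef)
    (hWm : ∀ a b, Measurable fun x => W x a b) {lam : Fin N → ℝ}
    {u u' : Fin N → ℝ → Vec m} (hu : ∀ j, IsH1 (u j) (u' j)) (hneg : ∀ j, lam j < 0)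
    (he : ∀ j, ∀ φ φ' : ℝ → Vec m, IsH1 φ φ' →
      (∫ x, inner ℂ (φ' x) (u' j x)) - (∫ x, pairing (W x) (φ x) (u j x)) =
        (lam j : ℂ) * ∫ x, inner ℂ (φ x) (u j x))
    (hon : ∀ i j, ∫ x, inner ℂ (u i x) (u j x) = if i = j then (1 : ℂ) else 0)
    {C : Mat N} (hC : C.IsHermitian) :
    Integrable (fun x => (Matrix.trace ((Um u x * C)ᴴ * W x * (Um u x * C))).re) ∧
    ∫ x, (Matrix.trace ((Um u x * C)ᴴ * W x * (Um u x * C))).re =
      rtr (dg (fun j => -lam j) * (C * C)) + ∫ x, rtr (Pm u' C x) := by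
  have hpr : ∀ j, Integrable fun x => pr (W x) (u j x) := fun j =>
    (eigen_test (hneg j) (hu j) (by rw [hon j j, if_pos rfl]) (he j)).1
  have hij : ∀ i j, Integrable fun x => pairing (W x) (u i x) (u j x) := by
    intro i j
    refine Integrable.mono' (g := fun x => (pr (W x) (u i x) + pr (W x) (u j x)) / 2)
      (((hpr i).add (hpr j)).div_const 2)
      (EigAux.meas_pairing hWm (hu i).continuous (hu j).continuous).aestronglyMeasurable
      (Filter.Eventually.of_forall fun x => EigAux.pairing_le (hW x) _ _)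
  have hval : ∀ i j, ∫ x, pairing (W x) (u i x) (u j x) =
      (∫ x, inner ℂ (u' i x) (u' j x)) - (lam j : ℂ) * (if i = j then (1 : ℂ) else 0) := by
    intro i j
    have h1 := he j (u i) (u' i) (hu i)
    rw [hon i j] at h1
    linear_combination -h1
  set c : Fin N → Fin N → ℂ := fun i j => ∑ k, star (C i k) * C j k with hc
  have hFc : ∀ x, Matrix.trace ((Um u x * C)ᴴ * W x * (Um u x * C)) =
      ∑ i, ∑ j, c i j * pairing (W x) (u i x) (u j x) := fun x => EigAux.trace_expand _ _ _ _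
  have hGc : ∀ x, Matrix.trace (Pm u' C x) = ∑ i, ∑ j, c i j * inner ℂ (u' i x) (u' j x) := by
    intro x
    have h1 := EigAux.trace_expand (1 : Matrix (Fin m) (Fin m) ℂ) u' C x
    rw [Matrix.mul_one] at h1
    unfold Pm
    rw [h1]
    refine Finset.sum_congr rfl fun i _ => Finset.sum_congr rfl fun j _ => ?_
    rw [EigAux.pairing_one]
  have hFI : Integrable fun x => Matrix.trace ((Um u x * C)ᴴ * W x * (Um u x * C)) := by
    simp only [hFc]
    exact integrable_finsetSum _ fun i _ => integrable_finsetSum _ fun j _ =>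
      (hij i j).const_mul _
  have hGI : Integrable fun x => Matrix.trace (Pm u' C x) := by
    simp only [hGc]
    exact integrable_finsetSum _ fun i _ => integrable_finsetSum _ fun j _ =>
      (EigAux.integrable_inner_deriv hu i j).const_mul _
  refine ⟨hFI.re, ?_⟩
  have e1 : ∫ x, (Matrix.trace ((Um u x * C)ᴴ * W x * (Um u x * C))).re =
      (∫ x, Matrix.trace ((Um u x * C)ᴴ * W x * (Um u x * C))).re := integral_re hFI
  have e2 : ∫ x, rtr (Pm u' C x) = (∫ x, Matrix.trace (Pm u' C x)).re := integral_re hGI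
  have e3 : ∫ x, Matrix.trace ((Um u x * C)ᴴ * W x * (Um u x * C)) =
      ∑ i, ∑ j, c i j * ((∫ x, inner ℂ (u' i x) (u' j x)) -
        (lam j : ℂ) * (if i = j then (1 : ℂ) else 0)) := by
    simp only [hFc]
    rw [integral_finsetSum _ fun i _ => integrable_finsetSum _ fun j _ => (hij i j).const_mul _]
    refine Finset.sum_congr rfl fun i _ => ?_
    rw [integral_finsetSum _ fun j _ => (hij i j).const_mul _]
    refine Finset.sum_congr rfl fun j _ => ?_
    rw [integral_const_mul, hval i j]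
  have e4 : ∫ x, Matrix.trace (Pm u' C x) =
      ∑ i, ∑ j, c i j * (∫ x, inner ℂ (u' i x) (u' j x)) := by
    simp only [hGc]
    rw [integral_finsetSum _ fun i _ => integrable_finsetSum _ fun j _ =>
      (EigAux.integrable_inner_deriv hu i j).const_mul _]
    refine Finset.sum_congr rfl fun i _ => ?_
    rw [integral_finsetSum _ fun j _ => (EigAux.integrable_inner_deriv hu i j).const_mul _]
    refine Finset.sum_congr rfl fun j _ => ?_
    rw [integral_const_mul]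
  have e5 : (∫ x, Matrix.trace ((Um u x * C)ᴴ * W x * (Um u x * C))) =
      (∑ j, (-(lam j) : ℂ) * c j j) + ∫ x, Matrix.trace (Pm u' C x) := by
    rw [e3, e4, ← Finset.sum_add_distrib]
    refine Finset.sum_congr rfl fun i _ => ?_
    simp only [mul_sub, Finset.sum_sub_distrib]
    have : ∑ j, c i j * ((lam j : ℂ) * (if i = j then (1 : ℂ) else 0)) = (lam i : ℂ) * c i i := by
      rw [Finset.sum_eq_single i]
      · rw [if_pos rfl]; ring
      · intro j _ hj
        rw [if_neg (Ne.symm hj)]; ring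
      · intro h
        exact absurd (Finset.mem_univ i) h
    rw [this]
    ring
  have e6 : Matrix.trace (dg (fun j => -lam j) * (C * C)) = ∑ j, (-(lam j) : ℂ) * c j j := by
    unfold Matrix.trace dg
    refine Finset.sum_congr rfl fun j _ => ?_
    rw [Matrix.diag_apply, Matrix.diagonal_mul, Matrix.mul_apply]
    push_cast
    congr 1
    refine Finset.sum_congr rfl fun k _ => ?_
    have h2 : C k j = star (C j k) := by
      conv_lhs => rw [← hC.eq]
      rw [Matrix.conjTranspose_apply]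
    rw [h2]
    ring
  rw [e1, e2, e5, Complex.add_re, ← e6]
  rfl

namespace EigAux

theorem entry_le (C : Mat N) (j k : Fin N) : ‖C j k‖ ≤ ‖C‖ := by
  have h := Matrix.l2_opNorm_mulVec C (EuclideanSpace.single k (1 : ℂ))
  rw [PiLp.norm_single, norm_one, mul_one] at h
  refine le_trans ?_ h
  have h2 := PiLp.norm_apply_le ((EuclideanSpace.equiv (Fin N) ℂ).symm
    (C *ᵥ (EuclideanSpace.single k (1 : ℂ) : EuclideanSpace ℂ (Fin N)))) j
  refine le_trans (le_of_eq ?_) h2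
  congr 1
  simp

theorem rtr_Pm_le (u : Fin N → ℝ → Vec m) (C : Mat N) (x : ℝ) {M : ℝ} (hM : ‖C‖ ≤ M) :
    rtr (Pm u C x) ≤ (N : ℝ) ^ 2 * M ^ 2 * ∑ j, ‖u j x‖ ^ 2 := by
  have hM0 : 0 ≤ M := (norm_nonneg _).trans hM
  unfold rtr Pm
  rw [← sum_norm_sq]
  have h1 : ∀ (a : Fin m) (k : Fin N), ‖(Um u x * C) a k‖ ^ 2 ≤
      (N : ℝ) * M ^ 2 * ∑ j, ‖u j x a‖ ^ 2 := by
    intro a k
    have h2 : ‖(Um u x * C) a k‖ ≤ M * ∑ j, ‖u j x a‖ := by
      rw [Matrix.mul_apply, Finset.mul_sum]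
      refine (norm_sum_le _ _).trans (Finset.sum_le_sum fun j _ => ?_)
      rw [norm_mul, mul_comm]
      exact mul_le_mul_of_nonneg_right ((entry_le C j k).trans hM) (norm_nonneg _)
    have h3 : (∑ j, ‖u j x a‖) ^ 2 ≤ (N : ℝ) * ∑ j, ‖u j x a‖ ^ 2 := by
      have := sq_sum_le_card_mul_sum_sq (s := (Finset.univ : Finset (Fin N)))
        (f := fun j => ‖u j x a‖)
      simpa using this
    calc ‖(Um u x * C) a k‖ ^ 2 ≤ (M * ∑ j, ‖u j x a‖) ^ 2 :=
          pow_le_pow_left₀ (norm_nonneg _) h2 2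
      _ = M ^ 2 * (∑ j, ‖u j x a‖) ^ 2 := by ring
      _ ≤ M ^ 2 * ((N : ℝ) * ∑ j, ‖u j x a‖ ^ 2) := mul_le_mul_of_nonneg_left h3 (sq_nonneg _)
      _ = _ := by ring
  calc ∑ a, ∑ k, ‖(Um u x * C) a k‖ ^ 2
      ≤ ∑ a : Fin m, ∑ _k : Fin N, (N : ℝ) * M ^ 2 * ∑ j, ‖u j x a‖ ^ 2 :=
        Finset.sum_le_sum fun a _ => Finset.sum_le_sum fun k _ => h1 a k
    _ = (N : ℝ) ^ 2 * M ^ 2 * ∑ a, ∑ j, ‖u j x a‖ ^ 2 := by
        simp only [Finset.sum_const, Finset.card_univ, Fintype.card_fin, nsmul_eq_mul]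
        rw [Finset.mul_sum]
        refine Finset.sum_congr rfl fun a _ => ?_
        ring
    _ = _ := by
        rw [Finset.sum_comm]
        congr 1
        refine Finset.sum_congr rfl fun j _ => ?_
        rw [EuclideanSpace.norm_sq_eq]

/-- the coefficient of `f*` -/
noncomputable def cS (ν : ℝ) : ℝ := ν / (1 + ν) * (1 / ((1 + ν) * cL ν)) ^ (1 / ν)

theorem cS_nonneg {ν : ℝ} (hν : 0 < ν) : 0 ≤ cS ν := by
  have := cL_pos hν
  unfold cS
  positivity

theorem fS_eq (ν p : ℝ) : fS ν p = cS ν * p ^ (1 + 1 / ν) := rfl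

theorem fS_nonneg {ν p : ℝ} (hν : 0 < ν) (hp : 0 ≤ p) : 0 ≤ fS ν p := by
  rw [fS_eq]
  exact mul_nonneg (cS_nonneg hν) (Real.rpow_nonneg hp _)

theorem continuous_fS {ν : ℝ} (hν : 0 < ν) : Continuous (fS ν) := by
  have h : fS ν = fun p => cS ν * p ^ (1 + 1 / ν) := rfl
  rw [h]
  exact continuous_const.mul (Real.continuous_rpow_const (by positivity))

theorem rtr_fS_nonneg {ν : ℝ} (hν : 0 < ν) {P : Mat N} (hP : P.PosSemidef) :
    0 ≤ rtr (cfc (fS ν) P) := by
  rw [rtr_cfc hP.1]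
  exact Finset.sum_nonneg fun i _ => fS_nonneg hν (hP.eigenvalues_nonneg i)

theorem rtr_fS_le {ν : ℝ} (hν : 0 < ν) {P : Mat N} (hP : P.PosSemidef) :
    rtr (cfc (fS ν) P) ≤ cS ν * (rtr P * rtr P ^ (1 / ν)) := by
  have hτ : rtr P = ∑ i, hP.1.eigenvalues i := by
    conv_lhs => rw [← TraceConv.cfc_id hP.1]
    rw [rtr_cfc hP.1]
  rw [rtr_cfc hP.1]
  have h0 : ∀ i, 0 ≤ hP.1.eigenvalues i := fun i => hP.eigenvalues_nonneg i
  have h1 : ∀ i, fS ν (hP.1.eigenvalues i) ≤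
      cS ν * (hP.1.eigenvalues i * rtr P ^ (1 / ν)) := by
    intro i
    rw [fS_eq, Real.rpow_one_add' (h0 i) (by positivity)]
    refine mul_le_mul_of_nonneg_left ?_ (cS_nonneg hν)
    refine mul_le_mul_of_nonneg_left ?_ (h0 i)
    refine Real.rpow_le_rpow (h0 i) ?_ (by positivity)
    rw [hτ]
    exact Finset.single_le_sum (f := hP.1.eigenvalues) (fun k _ => h0 k) (Finset.mem_univ i)
  refine (Finset.sum_le_sum fun i _ => h1 i).trans (le_of_eq ?_)
  rw [← Finset.mul_sum, ← Finset.sum_mul, ← hτ]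

theorem bound_fS {ν : ℝ} (hν : 0 < ν) {u u' : Fin N → ℝ → Vec m}
    (hu : ∀ j, IsH1 (u j) (u' j)) (M : ℝ) :
    ∃ K : ℝ, 0 ≤ K ∧ ∀ C : Mat N, ‖C‖ ≤ M → ∀ x,
      rtr (cfc (fS ν) (Pm u C x)) ≤ K * ∑ j, ‖u j x‖ ^ 2 := by
  obtain ⟨B, hB0, hB⟩ := exists_bound_family hu
  set D : ℝ := (N : ℝ) ^ 2 * M ^ 2 with hD
  have hD0 : 0 ≤ D := by positivity
  set S : ℝ := (N : ℝ) * B ^ 2 with hS
  have hS0 : 0 ≤ S := by positivity
  have hsum : ∀ x, ∑ j, ‖u j x‖ ^ 2 ≤ S := by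
    intro x
    calc ∑ j, ‖u j x‖ ^ 2 ≤ ∑ _j : Fin N, B ^ 2 :=
          Finset.sum_le_sum fun j _ => pow_le_pow_left₀ (norm_nonneg _) (hB j x) 2
      _ = S := by simp [hS]
  refine ⟨cS ν * (D * (D * S) ^ (1 / ν)), ?_, ?_⟩
  · exact mul_nonneg (cS_nonneg hν) (mul_nonneg hD0 (Real.rpow_nonneg (mul_nonneg hD0 hS0) _))
  · intro C hC x
    have hP := posSemidef_Pm u C x
    have hs0 : 0 ≤ ∑ j, ‖u j x‖ ^ 2 := Finset.sum_nonneg fun j _ => sq_nonneg _
    have ht0 : 0 ≤ rtr (Pm u C x) := by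
      have := hP.trace_nonneg
      exact (Complex.nonneg_iff.1 this).1
    have ht := rtr_Pm_le u C x hC
    have h1 : rtr (Pm u C x) ^ (1 / ν) ≤ (D * S) ^ (1 / ν) := by
      refine Real.rpow_le_rpow ht0 ?_ (by positivity)
      exact ht.trans (mul_le_mul_of_nonneg_left (hsum x) hD0)
    refine (rtr_fS_le hν hP).trans ?_
    have h2 : rtr (Pm u C x) * rtr (Pm u C x) ^ (1 / ν) ≤
        (D * ∑ j, ‖u j x‖ ^ 2) * (D * S) ^ (1 / ν) :=
      mul_le_mul ht h1 (Real.rpow_nonneg ht0 _) (mul_nonneg hD0 hs0)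
    calc cS ν * (rtr (Pm u C x) * rtr (Pm u C x) ^ (1 / ν))
        ≤ cS ν * ((D * ∑ j, ‖u j x‖ ^ 2) * (D * S) ^ (1 / ν)) :=
          mul_le_mul_of_nonneg_left h2 (cS_nonneg hν)
      _ = _ := by ring

theorem continuous_rtr_fS {ν : ℝ} (hν : 0 < ν) {u u' : Fin N → ℝ → Vec m}
    (hu : ∀ j, IsH1 (u j) (u' j)) (C : Mat N) :
    Continuous fun x => rtr (cfc (fS ν) (Pm u C x)) := by
  refine continuous_rtr.comp ?_
  rw [← continuousOn_univ]
  exact (continuous_Pm hu C).continuousOn.cfc_of_mem_nhdsSet (fS ν) (s := univ) (by simp)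
    (fun x _ => (posSemidef_Pm u C x).1) (continuous_fS hν).continuousOn

theorem integrable_sum_sq {u u' : Fin N → ℝ → Vec m} (hu : ∀ j, IsH1 (u j) (u' j)) :
    Integrable fun x => ∑ j, ‖u j x‖ ^ 2 :=
  integrable_finsetSum _ fun j _ => (hu j).integrable_sq

end EigAux

/-- `f*(V*V)` is integrable, with uniformly small tails. -/
theorem integrable_fS {ν : ℝ} (hν : 0 < ν) {u u' : Fin N → ℝ → Vec m}
    (hu : ∀ j, IsH1 (u j) (u' j)) (C : Mat N) :
    Integrable fun x => rtr (cfc (fS ν) (Pm u C x)) := by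
  obtain ⟨K, hK0, hK⟩ := EigAux.bound_fS hν hu ‖C‖
  refine ((EigAux.integrable_sum_sq hu).const_mul K).mono'
    (EigAux.continuous_rtr_fS hν hu C).aestronglyMeasurable
    (Filter.Eventually.of_forall fun x => ?_)
  rw [Real.norm_eq_abs, abs_of_nonneg (EigAux.rtr_fS_nonneg hν (posSemidef_Pm u C x))]
  exact hK C le_rfl x

theorem tail_fS {ν : ℝ} (hν : 0 < ν) {u u' : Fin N → ℝ → Vec m}
    (hu : ∀ j, IsH1 (u j) (u' j)) (M : ℝ) {ε : ℝ} (hε : 0 < ε) :
    ∃ n : ℕ, ∀ C : Mat N, ‖C‖ ≤ M →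
      ∫ x in (Icc (-(n : ℝ)) n)ᶜ, rtr (cfc (fS ν) (Pm u C x)) ≤ ε := by
  obtain ⟨K, hK0, hK⟩ := EigAux.bound_fS hν hu M
  have hI := EigAux.integrable_sum_sq hu
  have htend : Tendsto (fun n : ℕ => ∫ x in (Icc (-(n : ℝ)) n)ᶜ, ∑ j, ‖u j x‖ ^ 2) atTop
      (𝓝 (∫ x in ⋂ n : ℕ, (Icc (-(n : ℝ)) n)ᶜ, ∑ j, ‖u j x‖ ^ 2)) := by
    refine tendsto_setIntegral_of_antitone (fun n => measurableSet_Icc.compl) ?_
      ⟨0, hI.integrableOn⟩
    intro a b hab
    have hab' : (a : ℝ) ≤ b := by exact_mod_cast hab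
    exact compl_subset_compl.2 (Icc_subset_Icc (by linarith) hab')
  have hempty : (⋂ n : ℕ, (Icc (-(n : ℝ)) n)ᶜ) = (∅ : Set ℝ) := by
    ext x
    simp only [mem_iInter, mem_compl_iff, mem_empty_iff_false, iff_false, not_forall, not_not]
    obtain ⟨n, hn⟩ := exists_nat_ge |x|
    exact ⟨n, ⟨by linarith [neg_abs_le x], (le_abs_self x).trans hn⟩⟩
  rw [hempty, setIntegral_empty] at htend
  have hpos : 0 < ε / (K + 1) := by positivity
  obtain ⟨n, hn⟩ := ((tendsto_order.1 htend).2 _ hpos).exists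
  refine ⟨n, fun C hC => ?_⟩
  calc ∫ x in (Icc (-(n : ℝ)) n)ᶜ, rtr (cfc (fS ν) (Pm u C x))
      ≤ ∫ x in (Icc (-(n : ℝ)) n)ᶜ, K * ∑ j, ‖u j x‖ ^ 2 :=
        setIntegral_mono (integrable_fS hν hu C).integrableOn (hI.const_mul K).integrableOn
          (fun x => hK C hC x)
    _ = K * ∫ x in (Icc (-(n : ℝ)) n)ᶜ, ∑ j, ‖u j x‖ ^ 2 := integral_const_mul _ _
    _ ≤ K * (ε / (K + 1)) := mul_le_mul_of_nonneg_left hn.le hK0
    _ ≤ ε := by
        rw [mul_div_assoc', div_le_iff₀ (by linarith)]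
        nlinarith

/-- Young's inequality: `J(C) ≤ ∫ tr f(W)`. -/
theorem Jf_le {ν : ℝ} (hν : 0 < ν) {W : ℝ → Matrix (Fin m) (Fin m) ℂ}
    (hW : ∀ x, (W x).PosSemidef) {u u' : Fin N → ℝ → Vec m} (hu : ∀ j, IsH1 (u j) (u' j))
    {C : Mat N}
    (hint : Integrable (fun x => (Matrix.trace ((Um u x * C)ᴴ * W x * (Um u x * C))).re)) :
    ENNReal.ofReal (Jf ν W u C) ≤ ENNReal.ofReal (cL ν) * potInt W (ν + 1 / 2 + 1 / 2) := by
  have hI := integrable_fS hν hu C
  unfold Jf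
  refine (ofReal_integral_le (hint.sub hI)).trans ?_
  unfold potInt
  rw [← lintegral_const_mul' _ _ ENNReal.ofReal_ne_top]
  refine lintegral_mono fun x => ?_
  rw [← ENNReal.ofReal_mul (cL_pos hν).le]
  refine ENNReal.ofReal_le_ofReal ?_
  have h1 := young_rect (f := fF ν) (fs := fS ν)
    (fun w hw => mul_nonneg (cL_pos hν).le (Real.rpow_nonneg hw _))
    (fun p hp => EigAux.fS_nonneg hν hp) (fun w p hw hp => fenchel hν hw hp) (hW x) (Um u x * C)
  have h2 : rtr (cfc (fF ν) (W x)) = cL ν * trPow (W x) (ν + 1 / 2 + 1 / 2) := by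
    rw [rtr_cfc (hW x).1]
    unfold trPow
    rw [dif_pos (hW x).1, Finset.mul_sum]
    refine Finset.sum_congr rfl fun i _ => ?_
    unfold fF
    congr 2
    ring
  rw [h2] at h1
  unfold Pm
  rw [Pi.sub_apply]
  linarith

end Vale.Agent.P371.Full
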