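import Vale.Agent.P371.Full.ExCmp

/-!
# The variational inequality on the box `k0 ≤ K ≤ M` of Hermitian matrices
-/

open Set Metric Filter Topology Matrix
open scoped NNReal Matrix.Norms.L2Operator ComplexOrder

namespace Vale.Agent.P371.Full

variable {N : ℕ}

lemma continuous_qf (v : EV N) : Continuous fun A : Mat N => qf A v := by
  unfold qf
  exact continuous_const.inner (((act N).continuous).clm_apply continuous_const)

lemma continuous_qf_vec (A : Mat N) : Continuous fun v : EV N => qf A v := by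
  unfold qf
  exact continuous_id.inner ((act N A).continuous)

lemma qf_smul_vec (A : Mat N) (c : ℝ) (v : EV N) : qf A (c • v) = c ^ 2 * qf A v := by
  simp only [qf, map_smul, inner_smul_left, inner_smul_right]
  simp
  ring

lemma qf_add_vec {A : Mat N} (hA : A.IsHermitian) (v w : EV N) :
    qf A (v + w) = qf A v + qf A w + 2 * inner ℝ w (act N A v) := by
  have h := act_symm hA v w
  rw [real_inner_comm] at h
  simp only [qf, map_add, inner_add_left, inner_add_right, h]
  ring

/-- Norm bound from the quadratic form. -/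
lemma norm_le_of_qf {A : Mat N} (hA : A.IsHermitian) {M : ℝ} (hM : 0 ≤ M)
    (h : ∀ v, |qf A v| ≤ M * ‖v‖ ^ 2) : ‖A‖ ≤ M := by
  have key : ∀ v w : EV N, 2 * inner ℝ w (act N A v) ≤ M * (‖v‖ ^ 2 + ‖w‖ ^ 2) := by
    intro v w
    have h1 := qf_add_vec hA v w
    have h2 := qf_add_vec hA v (-w)
    have e1 : qf A (-w) = qf A w := by
      have := qf_smul_vec A (-1) w
      simpa using this
    rw [e1, inner_neg_left] at h2
    have b1 := (abs_le.1 (h (v + w))).2
    have b2 := (abs_le.1 (h (v + -w))).1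
    have e2 : ‖v + w‖ ^ 2 + ‖v + -w‖ ^ 2 = 2 * (‖v‖ ^ 2 + ‖w‖ ^ 2) := by
      have := parallelogram_law_with_norm ℝ v w
      rw [← sub_eq_add_neg]
      nlinarith
    nlinarith
  have key2 : ∀ v : EV N, ‖act N A v‖ ≤ M * ‖v‖ := by
    intro v
    by_cases h0 : ‖act N A v‖ = 0
    · rw [h0]; positivity
    have hpos : 0 < ‖act N A v‖ := lt_of_le_of_ne (norm_nonneg _) (Ne.symm h0)
    have h1 := key v ((‖v‖ / ‖act N A v‖) • act N A v)
    rw [inner_smul_left, real_inner_self_eq_norm_sq, norm_smul, norm_div, norm_norm, norm_norm] at h1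
    have e : ‖v‖ / ‖act N A v‖ * ‖act N A v‖ = ‖v‖ := div_mul_cancel₀ _ h0
    rw [e] at h1
    have e3 : (starRingEnd ℝ) (‖v‖ / ‖act N A v‖) * ‖act N A v‖ ^ 2 = ‖v‖ * ‖act N A v‖ := by
      simp only [conj_trivial]
      rw [pow_two, ← mul_assoc, e]
    rw [e3] at h1
    by_cases hv : ‖v‖ = 0
    · have := norm_act_le A v
      rw [hv] at this ⊢
      linarith
    have hvpos : 0 < ‖v‖ := lt_of_le_of_ne (norm_nonneg _) (Ne.symm hv)
    have : ‖v‖ * ‖act N A v‖ ≤ ‖v‖ * (M * ‖v‖) := by nlinarith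
    exact le_of_mul_le_mul_left this hvpos
  have e : ‖A‖ = ‖Matrix.toEuclideanCLM (n := Fin N) (𝕜 := ℂ) A‖ := rfl
  rw [e]
  exact ContinuousLinearMap.opNorm_le_bound _ hM key2

lemma eq_zero_of_qf {A : Mat N} (hA : A.IsHermitian) (h : ∀ v, qf A v = 0) : A = 0 := by
  have := norm_le_of_qf hA le_rfl (fun v => by rw [h v]; simp)
  exact norm_le_zero_iff.1 this

/-- The rank one matrix `w w*`. -/
noncomputable def pr1 (w : EV N) : Mat N := Matrix.vecMulVec (w : Fin N → ℂ) (star (w : Fin N → ℂ))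

lemma pr1_isHermitian (w : EV N) : (pr1 w).IsHermitian := by
  unfold pr1
  ext i j
  simp [Matrix.vecMulVec_apply, mul_comm]

lemma act_pr1 (w v : EV N) : act N (pr1 w) v = (inner ℂ w v : ℂ) • w := by
  rw [act_apply]
  ext i
  simp only [ofLp_toEuclideanCLM, pr1, PiLp.smul_apply, smul_eq_mul, PiLp.inner_apply,
    Matrix.vecMulVec_mulVec, RCLike.inner_apply]
  simp [dotProduct, mul_comm]

lemma qf_pr1 (w v : EV N) : qf (pr1 w) v = ‖(inner ℂ w v : ℂ)‖ ^ 2 := by
  unfold qf
  rw [act_pr1, inner_re, inner_smul_right, ← inner_conj_symm v w, ← Complex.normSq_eq_norm_sq]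
  rw [Complex.mul_conj]
  simp

lemma rtr_mul_pr1 (A : Mat N) (w : EV N) : rtr (A * pr1 w) = qf A w := by
  rw [qf_eq_re, rtr, pr1, Matrix.mul_vecMulVec, Matrix.trace_vecMulVec, dotProduct_comm]

lemma qf_pr1_le (w v : EV N) (hw : ‖w‖ = 1) : qf (pr1 w) v ≤ ‖v‖ ^ 2 := by
  rw [qf_pr1]
  have := norm_inner_le_norm (𝕜 := ℂ) w v
  rw [hw, one_mul] at this
  exact pow_le_pow_left₀ (norm_nonneg _) this 2

lemma qf_pr1_nonneg (w v : EV N) : 0 ≤ qf (pr1 w) v := by
  rw [qf_pr1]; positivity

/-- A positive semidefinite form is either uniformly positive or has a kernel. -/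
lemma posdef_or_kernel {D : Mat N} (hD : D.PosSemidef) :
    (∃ ε > 0, ∀ v, ε * ‖v‖ ^ 2 ≤ qf D v) ∨ ∃ b : EV N, ‖b‖ = 1 ∧ act N D b = 0 := by
  by_cases hne : (sphere (0 : EV N) 1).Nonempty
  · obtain ⟨b, hb, hmin⟩ := (isCompact_sphere (0 : EV N) 1).exists_isMinOn hne
      (continuous_qf_vec D).continuousOn
    have hb1 : ‖b‖ = 1 := by simpa using hb
    rcases eq_or_lt_of_le ((posSemidef_iff_qf.1 hD).2 b) with h0 | hpos
    · right
      refine ⟨b, hb1, ?_⟩
      rw [qf_eq_re] at h0
      have h1 := hD.dotProduct_mulVec_zero_iff (b : Fin N → ℂ)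
      have h2 : star (b : Fin N → ℂ) ⬝ᵥ D *ᵥ (b : Fin N → ℂ) = 0 := by
        apply Complex.ext
        · simpa using h0.symm
        · have := hD.1.im_star_dotProduct_mulVec_self (b : Fin N → ℂ)
          simpa using this
      have h3 := h1.1 h2
      rw [act_apply]
      ext i
      simp [h3]
    · left
      refine ⟨qf D b, hpos, fun v => ?_⟩
      by_cases hv : v = 0
      · subst hv; simp [qf]
      have hvn : 0 < ‖v‖ := norm_pos_iff.2 hv
      have h1 := hmin (show (‖v‖⁻¹ • v) ∈ sphere (0 : EV N) 1 by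
        simp [norm_smul, hvn.ne'])
      simp only [mem_setOf_eq, qf_smul_vec] at h1
      have h2 : ‖v‖⁻¹ ^ 2 * qf D v * ‖v‖ ^ 2 = qf D v := by
        field_simp
      nlinarith [sq_nonneg ‖v‖, mul_le_mul_of_nonneg_right h1 (sq_nonneg ‖v‖)]
  · left
    refine ⟨1, one_pos, fun v => ?_⟩
    by_cases hv : v = 0
    · subst hv; simp [qf]
    · exfalso
      apply hne
      exact ⟨‖v‖⁻¹ • v, by simp [norm_smul, (norm_pos_iff.2 hv).ne']⟩

/-- The box `k0 ≤ K ≤ M`. -/
def box (N : ℕ) (k0 M : ℝ) : Set (Mat N) :=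
  {K | K.IsHermitian ∧ (∀ v, k0 * ‖v‖ ^ 2 ≤ qf K v) ∧ ∀ v, qf K v ≤ M * ‖v‖ ^ 2}

lemma isClosed_hermitian : IsClosed {K : Mat N | K.IsHermitian} := by
  have : {K : Mat N | K.IsHermitian} = {K | Kᴴ = K} := rfl
  rw [this]
  exact isClosed_eq continuous_star continuous_id

lemma box_norm {k0 M : ℝ} (hk : 0 ≤ k0) (hM : 0 ≤ M) {K : Mat N} (hK : K ∈ box N k0 M) : ‖K‖ ≤ M := by
  refine norm_le_of_qf hK.1 hM fun v => ?_
  have h1 := hK.2.1 v
  have h2 := hK.2.2 v
  rw [abs_of_nonneg (le_trans (by positivity) h1)]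
  exact h2

lemma isCompact_box {k0 M : ℝ} (hk : 0 ≤ k0) (hM : 0 ≤ M) : IsCompact (box N k0 M) := by
  refine Metric.isCompact_of_isClosed_isBounded ?_ ?_
  · have : box N k0 M = {K | K.IsHermitian} ∩ ((⋂ v, {K | k0 * ‖v‖ ^ 2 ≤ qf K v}) ∩
        (⋂ v, {K | qf K v ≤ M * ‖v‖ ^ 2})) := by
      ext K; simp [box]
    rw [this]
    refine isClosed_hermitian.inter (IsClosed.inter ?_ ?_)
    · exact isClosed_iInter fun v => isClosed_le continuous_const (continuous_qf v)
    · exact isClosed_iInter fun v => isClosed_le (continuous_qf v) continuous_const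
  · refine (isBounded_iff_forall_norm_le).2 ⟨M, fun K hK => box_norm hk hM hK⟩

lemma convex_box {k0 M : ℝ} : Convex ℝ (box N k0 M) := by
  intro K hK L hL s t hs ht hst
  refine ⟨?_, fun v => ?_, fun v => ?_⟩
  · have h1 := hK.1
    have h2 := hL.1
    unfold Matrix.IsHermitian at *
    simp [Matrix.conjTranspose_add, Matrix.conjTranspose_smul, h1, h2]
  · have h1 := hK.2.1 v
    have h2 := hL.2.1 v
    simp only [qf_add, qf_smul]
    have : t = 1 - s := by linarith
    subst this
    nlinarith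
  · have h1 := hK.2.2 v
    have h2 := hL.2.2 v
    simp only [qf_add, qf_smul]
    have : t = 1 - s := by linarith
    subst this
    nlinarith

lemma isHermitian_smul_real {A : Mat N} (hA : A.IsHermitian) (c : ℝ) : (c • A).IsHermitian := by
  unfold Matrix.IsHermitian at *
  simp [Matrix.conjTranspose_smul, hA]

lemma posSemidef_top {k0 M : ℝ} {K : Mat N} (hK : K ∈ box N k0 M) :
    (M • (1 : Mat N) - K).PosSemidef :=
  posSemidef_iff_qf.2 ⟨(isHermitian_smul_real Matrix.isHermitian_one M).sub hK.1, fun v => by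
    simpa using hK.2.2 v⟩

lemma posSemidef_bot {k0 M : ℝ} {K : Mat N} (hK : K ∈ box N k0 M) :
    (K - k0 • (1 : Mat N)).PosSemidef :=
  posSemidef_iff_qf.2 ⟨hK.1.sub (isHermitian_smul_real Matrix.isHermitian_one k0), fun v => by
    simpa using hK.2.1 v⟩

/-- An eigenprojection can be split off. -/
lemma qf_ge_pr1 {D : Mat N} (hD : D.PosSemidef) {b : EV N} (hb : ‖b‖ = 1) {c : ℝ}
    (h : act N D b = c • b) (v : EV N) : c * qf (pr1 b) v ≤ qf D v := by
  set α : ℂ := inner ℂ b v with hα
  set x : EV N := α • b with hx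
  set z : EV N := v - x with hz
  have hv : v = x + z := by rw [hz]; abel
  have hDx : act N D x = c • x := by
    have h' : Matrix.toEuclideanCLM (n := Fin N) (𝕜 := ℂ) D b = c • b := h
    rw [act_apply, hx, map_smul, h', smul_comm]
  have horth : (inner ℂ b z : ℂ) = 0 := by
    rw [hz, inner_sub_right, hx, inner_smul_right, inner_self_eq_norm_sq_to_K, hb, ← hα]
    simp
  have hzx : inner ℝ z x = 0 := by
    rw [inner_re, hx, inner_smul_right, ← inner_conj_symm z b, horth]
    simp
  have h1 := qf_add_vec hD.1 x z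
  rw [← hv, hDx, inner_smul_right, hzx] at h1
  have h2 : qf D x = c * ‖x‖ ^ 2 := by
    unfold qf
    rw [hDx, inner_smul_right, real_inner_self_eq_norm_sq]
  have h3 : ‖x‖ ^ 2 = qf (pr1 b) v := by
    rw [qf_pr1, hx, norm_smul, hb, mul_one]
  have h4 := (posSemidef_iff_qf.1 hD).2 z
  rw [h1, h2, h3]
  linarith

theorem box_VI {k0 M : ℝ} (hk0 : 0 ≤ k0) (hk : k0 < M) (J : Mat N → Mat N)
    (hJ : ContinuousOn J (box N k0 M)) (hJh : ∀ K ∈ box N k0 M, (J K).IsHermitian)
    (htop : ∀ K ∈ box N k0 M, ∀ b : EV N, ‖b‖ = 1 → act N K b = M • b → 0 < qf (J K) b)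
    (hbot : ∀ K ∈ box N k0 M, (∀ v, 0 ≤ qf (J K) v) → ∀ b : EV N, ‖b‖ = 1 → act N K b ≠ k0 • b) :
    ∃ K ∈ box N k0 M, J K = 0 := by
  have hM : 0 ≤ M := hk0.trans hk.le
  have hne : (box N k0 M).Nonempty := ⟨k0 • (1 : Mat N),
    isHermitian_smul_real Matrix.isHermitian_one k0, fun v => by simp, fun v => by
      simp only [qf_smul, qf_one]
      exact mul_le_mul_of_nonneg_right hk.le (by positivity)⟩
  obtain ⟨K, hK, hVI⟩ := exists_VI_dual hne (isCompact_box hk0 hM) convex_box
    (J := fun K => (rtrL N).comp (ContinuousLinearMap.mul ℝ (Mat N) (J K))) (by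
      apply ContinuousOn.clm_comp continuousOn_const
      exact (ContinuousLinearMap.mul ℝ (Mat N)).continuous.comp_continuousOn hJ)
  have hVI' : ∀ w : EV N, ∀ s : ℝ, K + s • pr1 w ∈ box N k0 M → 0 ≤ s * qf (J K) w := by
    intro w s hs
    have := hVI _ hs
    simp only [add_sub_cancel_left, ContinuousLinearMap.comp_apply, ContinuousLinearMap.mul_apply',
      rtrL_apply, mul_smul_comm, rtr_smul, rtr_mul_pr1] at this
    exact this
  have hherm : ∀ w : EV N, ∀ s : ℝ, (K + s • pr1 w).IsHermitian := fun w s =>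
    hK.1.add (isHermitian_smul_real (pr1_isHermitian w) s)
  -- no eigenvalue `M`
  have hJ0 : ∀ v, 0 ≤ qf (J K) v := by
    rcases posdef_or_kernel (posSemidef_top hK) with ⟨ε, hε, h⟩ | ⟨b, hb, h⟩
    · have h1 : ∀ v : EV N, ‖v‖ = 1 → 0 ≤ qf (J K) v := by
        intro v hv
        have := hVI' v ε ⟨hherm v ε, fun w => by
          have h2 := hK.2.1 w
          have h3 := qf_pr1_nonneg v w
          simp only [qf_add, qf_smul]
          nlinarith, fun w => by
          have h2 := h w
          have h3 := qf_pr1_le v w hv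
          simp only [qf_add, qf_smul, qf_sub, qf_one] at h2 ⊢
          nlinarith⟩
        exact nonneg_of_mul_nonneg_right this hε
      intro v
      by_cases hv : v = 0
      · subst hv; simp [qf]
      have hvn : 0 < ‖v‖ := norm_pos_iff.2 hv
      have h2 := h1 (‖v‖⁻¹ • v) (by simp [norm_smul, hvn.ne'])
      rw [qf_smul_vec] at h2
      exact nonneg_of_mul_nonneg_right h2 (by positivity)
    · exfalso
      have hKb : act N K b = M • b := by
        have h2 : act N (M • (1 : Mat N) - K) b = M • b - act N K b := by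
          rw [map_sub, map_smul]
          simp
        rw [h2] at h
        exact (sub_eq_zero.1 h).symm
      have h1 := htop K hK b hb hKb
      have hD : act N (K - k0 • (1 : Mat N)) b = (M - k0) • b := by
        rw [map_sub, map_smul]
        simp [hKb, sub_smul]
      have h2 := hVI' b (-(M - k0)) ⟨hherm b _, fun w => by
          have h3 := qf_ge_pr1 (posSemidef_bot hK) hb hD w
          simp only [qf_add, qf_smul, qf_sub, qf_one] at h3 ⊢
          linarith, fun w => by
          have h2 := hK.2.2 w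
          have h3 := qf_pr1_nonneg b w
          simp only [qf_add, qf_smul]
          nlinarith⟩
      nlinarith
  have hJ1 : ∀ v, qf (J K) v ≤ 0 := by
    rcases posdef_or_kernel (posSemidef_bot hK) with ⟨ε, hε, h⟩ | ⟨b, hb, h⟩
    · have h1 : ∀ v : EV N, ‖v‖ = 1 → qf (J K) v ≤ 0 := by
        intro v hv
        have := hVI' v (-ε) ⟨hherm v _, fun w => by
          have h2 := h w
          have h3 := qf_pr1_le v w hv
          simp only [qf_add, qf_smul, qf_sub, qf_one] at h2 ⊢
          nlinarith, fun w => by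
          have h2 := hK.2.2 w
          have h3 := qf_pr1_nonneg v w
          simp only [qf_add, qf_smul]
          nlinarith⟩
        nlinarith
      intro v
      by_cases hv : v = 0
      · subst hv; simp [qf]
      have hvn : 0 < ‖v‖ := norm_pos_iff.2 hv
      have h2 := h1 (‖v‖⁻¹ • v) (by simp [norm_smul, hvn.ne'])
      rw [qf_smul_vec] at h2
      have h3 : 0 < ‖v‖⁻¹ ^ 2 := by positivity
      nlinarith
    · exfalso
      refine hbot K hK hJ0 b hb ?_
      have h2 : act N (K - k0 • (1 : Mat N)) b = act N K b - k0 • b := by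
        rw [map_sub, map_smul]
        simp
      rw [h2] at h
      exact sub_eq_zero.1 h
  exact ⟨K, hK, eq_zero_of_qf (hJh K hK) fun v => le_antisymm (hJ1 v) (hJ0 v)⟩

end Vale.Agent.P371.Full
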