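import Vale.Agent.P371.Full.ExODE
import Vale.Agent.P371.Full.Base

/-!
# Quadratic forms of matrices and the comparison principle for matrix differential equations
-/

open Set Metric Filter Topology Matrix
open scoped NNReal Matrix.Norms.L2Operator ComplexOrder

namespace Vale.Agent.P371.Full

variable {N : ℕ}

/-- The vector space on which matrices act. -/
abbrev EV (N : ℕ) := EuclideanSpace ℂ (Fin N)

/-- The action of matrices on vectors, as a continuous real linear map. -/
noncomputable def act (N : ℕ) : Mat N →L[ℝ] (EV N →L[ℝ] EV N) :=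
  LinearMap.toContinuousLinearMap
    { toFun := fun A => (Matrix.toEuclideanCLM (n := Fin N) (𝕜 := ℂ) A).restrictScalars ℝ
      map_add' := fun A B => by ext v; simp
      map_smul' := fun c A => by
        ext v i
        have : (c • A : Mat N) = ((c : ℂ) • A : Mat N) := by
          ext i j; simp
        rw [this, map_smul]
        simp }

theorem act_apply (A : Mat N) (v : EV N) :
    act N A v = Matrix.toEuclideanCLM (n := Fin N) (𝕜 := ℂ) A v := rfl

@[simp] theorem act_mul (A B : Mat N) (v : EV N) : act N (A * B) v = act N A (act N B v) := by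
  simp [act_apply]

@[simp] theorem act_one (v : EV N) : act N 1 v = v := by
  simp [act_apply]

theorem inner_re (x y : EV N) : inner ℝ x y = (inner ℂ x y).re := by
  simp only [PiLp.inner_apply, Complex.re_sum]
  refine Finset.sum_congr rfl fun i _ => ?_
  rw [Complex.inner]
  simp [mul_comm]

theorem act_symm {A : Mat N} (hA : A.IsHermitian) (v w : EV N) :
    inner ℝ (act N A v) w = inner ℝ v (act N A w) := by
  have h : Matrix.toEuclideanCLM (n := Fin N) (𝕜 := ℂ) A =
      ContinuousLinearMap.adjoint (Matrix.toEuclideanCLM (n := Fin N) (𝕜 := ℂ) A) := by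
    rw [← ContinuousLinearMap.star_eq_adjoint, ← map_star]
    congr 1
    exact hA.symm
  rw [act_apply, act_apply, inner_re, inner_re]
  conv_lhs => rw [h, ContinuousLinearMap.adjoint_inner_left]

theorem norm_act_le (A : Mat N) (v : EV N) : ‖act N A v‖ ≤ ‖A‖ * ‖v‖ := by
  rw [act_apply]
  exact ContinuousLinearMap.le_opNorm _ _

/-- Quadratic form of a matrix. -/
noncomputable def qf (A : Mat N) (v : EV N) : ℝ := inner ℝ v (act N A v)

@[simp] lemma qf_add (A B : Mat N) (v : EV N) : qf (A + B) v = qf A v + qf B v := by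
  simp [qf, inner_add_right]
@[simp] lemma qf_sub (A B : Mat N) (v : EV N) : qf (A - B) v = qf A v - qf B v := by
  simp [qf, inner_sub_right]
@[simp] lemma qf_neg (A : Mat N) (v : EV N) : qf (-A) v = - qf A v := by
  simp [qf, inner_neg_right]
@[simp] lemma qf_smul (c : ℝ) (A : Mat N) (v : EV N) : qf (c • A) v = c * qf A v := by
  simp [qf, inner_smul_right]
@[simp] lemma qf_zero (v : EV N) : qf (0 : Mat N) v = 0 := by simp [qf]
@[simp] lemma qf_one (v : EV N) : qf (1 : Mat N) v = ‖v‖ ^ 2 := by
  simp [qf]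

lemma abs_qf_le (A : Mat N) (v : EV N) : |qf A v| ≤ ‖A‖ * ‖v‖ ^ 2 := by
  unfold qf
  refine (abs_real_inner_le_norm _ _).trans ?_
  have := norm_act_le A v
  nlinarith [norm_nonneg v]

lemma qf_eq_re (A : Mat N) (v : EV N) :
    qf A v = (star (v : Fin N → ℂ) ⬝ᵥ (A *ᵥ (v : Fin N → ℂ))).re := by
  unfold qf
  rw [inner_re, act_apply, PiLp.inner_apply]
  simp only [dotProduct, Pi.star_apply, ofLp_toEuclideanCLM, RCLike.inner_apply]
  congr 1
  refine Finset.sum_congr rfl fun i _ => ?_
  rw [mul_comm]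
  rfl

lemma posSemidef_iff_qf {A : Mat N} : A.PosSemidef ↔ A.IsHermitian ∧ ∀ v, 0 ≤ qf A v := by
  rw [posSemidef_iff_dotProduct_mulVec]
  constructor
  · rintro ⟨h1, h2⟩
    refine ⟨h1, fun v => ?_⟩
    rw [qf_eq_re]
    exact (Complex.le_def.1 (h2 v)).1
  · rintro ⟨h1, h2⟩
    refine ⟨h1, fun x => ?_⟩
    have h3 := h2 (WithLp.toLp 2 x)
    rw [qf_eq_re] at h3
    refine Complex.le_def.2 ⟨h3, ?_⟩
    have h4 := h1.im_star_dotProduct_mulVec_self x
    simpa using h4.symm

/-- Forward comparison principle. -/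
theorem qf_nonneg_forward {a b : ℝ} {Z B S : ℝ → Mat N}
    (hB : ContinuousOn B (Icc a b)) (hBh : ∀ t ∈ Icc a b, (B t).IsHermitian)
    (hZ : ∀ t ∈ Icc a b, HasDerivWithinAt Z (B t * Z t + Z t * B t + S t) (Icc a b) t)
    (hS : ∀ t ∈ Icc a b, ∀ v, 0 ≤ qf (S t) v) (ha : ∀ v, 0 ≤ qf (Z a) v) :
    ∀ t ∈ Icc a b, ∀ v, 0 ≤ qf (Z t) v := by
  intro t ht v
  have hsub : Icc a t ⊆ Icc a b := Icc_subset_Icc_right ht.2
  obtain ⟨w, hw, hwd⟩ := exists_linear_flow_back (A := fun s => -(act N (B s))) ht.1
    (((act N).continuous.comp_continuousOn (hB.mono hsub)).neg) v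
  have hder : ∀ s ∈ Icc a t, HasDerivWithinAt (fun s => qf (Z s) (w s)) (qf (S s) (w s)) (Icc a t) s := by
    intro s hs
    have h1 : HasDerivWithinAt (fun s => act N (Z s)) (act N (B s * Z s + Z s * B s + S s))
        (Icc a t) s :=
      (act N).hasFDerivAt.comp_hasDerivWithinAt s ((hZ s (hsub hs)).mono hsub)
    have h2 := (hwd s hs).inner ℝ (h1.clm_apply (hwd s hs))
    refine h2.congr_deriv ?_
    have h3 := act_symm (hBh s (hsub hs)) (w s) (act N (Z s) (w s))
    simp only [_root_.neg_apply, map_add, _root_.add_apply, act_mul,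
      map_neg, inner_add_right, inner_neg_left, inner_neg_right, qf, h3]
    ring
  have hmono : MonotoneOn (fun s => qf (Z s) (w s)) (Icc a t) := by
    refine monotoneOn_of_hasDerivWithinAt_nonneg (convex_Icc a t)
      (fun s hs => (hder s hs).continuousWithinAt) (f' := fun s => qf (S s) (w s)) ?_ ?_
    · intro s hs
      exact (hder s (interior_subset hs)).mono interior_subset
    · intro s hs
      exact hS s (hsub (interior_subset hs)) _
  have h4 := hmono (left_mem_Icc.2 ht.1) (right_mem_Icc.2 ht.1) ht.1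
  simp only [hw] at h4
  exact (ha _).trans h4

/-- Backward comparison principle. -/
theorem qf_nonneg_backward {a b : ℝ} {Z B S : ℝ → Mat N}
    (hB : ContinuousOn B (Icc a b)) (hBh : ∀ t ∈ Icc a b, (B t).IsHermitian)
    (hZ : ∀ t ∈ Icc a b, HasDerivWithinAt Z (-(B t * Z t + Z t * B t + S t)) (Icc a b) t)
    (hS : ∀ t ∈ Icc a b, ∀ v, 0 ≤ qf (S t) v) (hb : ∀ v, 0 ≤ qf (Z b) v) :
    ∀ t ∈ Icc a b, ∀ v, 0 ≤ qf (Z t) v := by
  have hmaps : MapsTo (fun t => a + b - t) (Icc a b) (Icc a b) := fun t ht =>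
    ⟨by linarith [ht.2], by linarith [ht.1]⟩
  have h := qf_nonneg_forward (a := a) (b := b) (Z := fun t => Z (a + b - t))
    (B := fun t => B (a + b - t)) (S := fun t => S (a + b - t))
    (hB.comp (by fun_prop) hmaps) (fun t ht => hBh _ (hmaps ht)) (fun t ht => by
      have h3 : HasDerivWithinAt (fun t : ℝ => a + b - t) (-1) (Icc a b) t := by
        simpa using (hasDerivWithinAt_id t (Icc a b)).const_sub (a + b)
      have h4 := (hZ _ (hmaps ht)).scomp t h3 hmaps
      simpa [Function.comp_def, add_comm] using h4) (fun t ht => hS _ (hmaps ht)) (by simpa using hb)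
  intro t ht v
  have := h (a + b - t) (hmaps ht) v
  simpa using this

end Vale.Agent.P371.Full
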