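import Vale.Agent.P371.Full.ExVI

/-!
# ODE tools for the existence part of P371: bounded Lipschitz fields, dependence on parameters,
linear equations
-/

open Set Metric Filter Topology
open scoped NNReal

namespace Vale.Agent.P371.Full

section flow

variable {E : Type*} [NormedAddCommGroup E] [NormedSpace ℝ E]

/-- Global solutions for bounded Lipschitz fields. -/
theorem exists_flow [CompleteSpace E] {f : ℝ → E → E} {a b t0 : ℝ} (ht0 : t0 ∈ Icc a b) {L C : ℝ≥0}
    (hlip : ∀ t ∈ Icc a b, LipschitzWith L (f t))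
    (hcont : ∀ x, ContinuousOn (fun t => f t x) (Icc a b))
    (hbd : ∀ t ∈ Icc a b, ∀ x, ‖f t x‖ ≤ C) (x0 : E) :
    ∃ α : ℝ → E, α t0 = x0 ∧ ∀ t ∈ Icc a b, HasDerivWithinAt α (f t (α t)) (Icc a b) t := by
  have h : IsPicardLindelof f (⟨t0, ht0⟩ : Icc a b) x0 (C * (b - a).toNNReal) 0 C L := by
    refine ⟨fun t ht => (hlip t ht).lipschitzOnWith, fun x _ => hcont x, fun t ht x _ => hbd t ht x, ?_⟩
    have h1 : a ≤ b := ht0.1.trans ht0.2
    have : max (b - t0) (t0 - a) ≤ b - a := max_le (by linarith [ht0.1]) (by linarith [ht0.2])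
    simp only [NNReal.coe_mul, NNReal.coe_zero, sub_zero, Real.coe_toNNReal _ (sub_nonneg.2 h1)]
    exact mul_le_mul_of_nonneg_left this C.2
  exact h.exists_eq_forall_mem_Icc_hasDerivWithinAt₀

theorem hasDerivWithinAt_Ici_of_Icc {α : ℝ → E} {α' : E} {a b t : ℝ} (ht : t ∈ Ico a b)
    (h : HasDerivWithinAt α α' (Icc a b) t) : HasDerivWithinAt α α' (Ici t) t := by
  have : HasDerivWithinAt α α' (Icc t b) t := h.mono (Icc_subset_Icc_left ht.1)
  exact this.mono_of_mem_nhdsWithin (Icc_mem_nhdsGE ht.2)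

/-- Dependence of solutions on the field and on the initial value. -/
theorem flow_dist {f g : ℝ → E → E} {a b ε : ℝ} {L : ℝ≥0}
    (hlip : ∀ t ∈ Icc a b, LipschitzWith L (f t))
    (hfg : ∀ t ∈ Icc a b, ∀ x, ‖g t x - f t x‖ ≤ ε) {α β : ℝ → E}
    (hα : ∀ t ∈ Icc a b, HasDerivWithinAt α (f t (α t)) (Icc a b) t)
    (hβ : ∀ t ∈ Icc a b, HasDerivWithinAt β (g t (β t)) (Icc a b) t) :
    ∀ t ∈ Icc a b, ‖α t - β t‖ ≤ gronwallBound ‖α a - β a‖ L ε (t - a) := by
  intro t ht
  have := dist_le_of_approx_trajectories_ODE_of_mem (f := α) (g := β)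
    (f' := fun t => f t (α t)) (g' := fun t => g t (β t)) (s := fun _ => univ) (v := f)
    (K := L) (a := a) (b := b) (εf := 0) (εg := ε) (δ := ‖α a - β a‖)
    (fun t ht => (hlip t (Ico_subset_Icc_self ht)).lipschitzOnWith)
    (fun t ht => (hα t ht).continuousWithinAt)
    (fun t ht => hasDerivWithinAt_Ici_of_Icc ht (hα t (Ico_subset_Icc_self ht)))
    (fun t ht => by simp) (fun _ _ => mem_univ _)
    (fun t ht => (hβ t ht).continuousWithinAt)
    (fun t ht => hasDerivWithinAt_Ici_of_Icc ht (hβ t (Ico_subset_Icc_self ht)))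
    (fun t ht => by rw [dist_eq_norm]; exact hfg t (Ico_subset_Icc_self ht) _)
    (fun _ _ => mem_univ _) (by rw [dist_eq_norm]) t ht
  rwa [dist_eq_norm, zero_add] at this

theorem gronwallBound_tendsto {ι : Type*} {l : Filter ι} {δ ε : ι → ℝ} (K x : ℝ)
    (hδ : Tendsto δ l (𝓝 0)) (hε : Tendsto ε l (𝓝 0)) :
    Tendsto (fun i => gronwallBound (δ i) K (ε i) x) l (𝓝 0) := by
  by_cases hK : K = 0
  · subst hK
    simp only [gronwallBound_K0]
    simpa using hδ.add (hε.mul_const x)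
  · simp only [gronwallBound_of_K_ne_0 hK]
    simpa using (hδ.mul_const (Real.exp (K * x))).add
      ((hε.div_const K).mul_const (Real.exp (K * x) - 1))

/-- Continuous dependence on a parameter of the value at the right end point. -/
theorem flow_continuousOn {P : Type*} [TopologicalSpace P] {S : Set P} {f : P → ℝ → E → E}
    {a b : ℝ} (hab : a ≤ b) {L : ℝ≥0} {x0 : P → E}
    (hlip : ∀ p ∈ S, ∀ t ∈ Icc a b, LipschitzWith L (f p t))
    (ε : P → P → ℝ) (hε : ∀ p ∈ S, ∀ q ∈ S, ∀ t ∈ Icc a b, ∀ x, ‖f q t x - f p t x‖ ≤ ε p q)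
    (hε0 : ∀ p ∈ S, Tendsto (ε p) (𝓝[S] p) (𝓝 0))
    (hx0 : ContinuousOn x0 S) {α : P → ℝ → E} (hα0 : ∀ p ∈ S, α p a = x0 p)
    (hα : ∀ p ∈ S, ∀ t ∈ Icc a b, HasDerivWithinAt (α p) (f p t (α p t)) (Icc a b) t) :
    ContinuousOn (fun p => α p b) S := by
  intro p hp
  have h1 : Tendsto (fun q => ‖x0 p - x0 q‖) (𝓝[S] p) (𝓝 0) := by
    have := (tendsto_const_nhds (x := x0 p)).sub (hx0 p hp)
    rw [sub_self] at this
    simpa using this.norm
  have h2 := gronwallBound_tendsto (L : ℝ) (b - a) h1 (hε0 p hp)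
  refine tendsto_iff_norm_sub_tendsto_zero.2 ?_
  refine squeeze_zero' (Eventually.of_forall fun _ => norm_nonneg _) ?_ h2
  filter_upwards [self_mem_nhdsWithin] with q hq
  have := flow_dist (hlip p hp) (hε p hp q hq) (hα p hp) (hα q hq) b (right_mem_Icc.2 hab)
  rw [hα0 p hp, hα0 q hq] at this
  rwa [norm_sub_rev] at this

end flow

section linear

variable {V : Type*} [NormedAddCommGroup V] [InnerProductSpace ℝ V] [FiniteDimensional ℝ V]

/-- Linear equations, forward in time. -/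
theorem exists_linear_flow {A : ℝ → V →L[ℝ] V} {a b : ℝ} (hab : a ≤ b)
    (hA : ContinuousOn A (Icc a b)) (x0 : V) :
    ∃ α : ℝ → V, α a = x0 ∧ ∀ t ∈ Icc a b, HasDerivWithinAt α (A t (α t)) (Icc a b) t := by
  obtain ⟨L0, hL0⟩ := (isCompact_Icc.image_of_continuousOn hA).isBounded.exists_norm_le
  have hL : ∀ t ∈ Icc a b, ‖A t‖ ≤ max L0 0 := fun t ht => (hL0 _ (mem_image_of_mem _ ht)).trans (le_max_left _ _)
  set L : ℝ≥0 := ⟨max L0 0, le_max_right _ _⟩ with hLdef
  set ρ : ℝ := ‖x0‖ * Real.exp (L * (b - a)) with hρ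
  have hρ0 : 0 ≤ ρ := by positivity
  obtain ⟨π, h1, h2⟩ := exists_proj (C := closedBall (0 : V) ρ) ⟨0, by simp [hρ0]⟩
    isClosed_closedBall.isComplete (convex_closedBall _ _)
  have hlip := proj_lipschitz h1 h2
  have hfix : ∀ z ∈ closedBall (0 : V) ρ, π z = z := by
    intro z hz
    have := h2 z z hz
    rw [real_inner_self_eq_norm_sq] at this
    have h0 : ‖z - π z‖ = 0 := by
      have := sq_nonneg ‖z - π z‖
      nlinarith [norm_nonneg (z - π z)]
    exact (sub_eq_zero.1 (norm_eq_zero.1 h0)).symm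
  have hπ0 : π 0 = 0 := hfix 0 (by simp [hρ0])
  have hπn : ∀ x, ‖π x‖ ≤ ‖x‖ := fun x => by simpa [hπ0] using hlip x 0
  obtain ⟨α, hα0, hα⟩ := exists_flow (f := fun t x => A t (π x)) (left_mem_Icc.2 hab) (L := L)
    (C := L * ⟨ρ, hρ0⟩)
    (fun t ht => LipschitzWith.of_dist_le_mul fun x y => by
      rw [dist_eq_norm, dist_eq_norm, ← map_sub]
      refine ((A t).le_opNorm _).trans (mul_le_mul (hL t ht) (hlip x y) (norm_nonneg _) L.2))
    (fun x => by
      exact hA.clm_apply continuousOn_const)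
    (fun t ht x => by
      refine ((A t).le_opNorm _).trans ?_
      have := h1 x
      rw [mem_closedBall_zero_iff] at this
      exact mul_le_mul (hL t ht) this (norm_nonneg _) L.2) x0
  refine ⟨α, hα0, fun t ht => ?_⟩
  have hb := norm_le_gronwallBound_of_norm_deriv_right_le (f := α) (f' := fun t => A t (π (α t)))
    (δ := ‖x0‖) (K := L) (ε := 0) (a := a) (b := b) (fun t ht => (hα t ht).continuousWithinAt)
    (fun t ht => hasDerivWithinAt_Ici_of_Icc ht (hα t (Ico_subset_Icc_self ht)))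
    (by rw [hα0]) (fun t ht => by
      rw [add_zero]
      exact ((A t).le_opNorm _).trans
        (mul_le_mul (hL t (Ico_subset_Icc_self ht)) (hπn _) (norm_nonneg _) L.2)) t ht
  rw [gronwallBound_ε0] at hb
  have : α t ∈ closedBall (0 : V) ρ := by
    rw [mem_closedBall_zero_iff]
    refine hb.trans (mul_le_mul_of_nonneg_left (Real.exp_le_exp.2 ?_) (norm_nonneg _))
    exact mul_le_mul_of_nonneg_left (by linarith [ht.2]) L.2
  have h3 := hα t ht
  simp only [hfix _ this] at h3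
  exact h3

/-- Linear equations, backward in time. -/
theorem exists_linear_flow_back {A : ℝ → V →L[ℝ] V} {a b : ℝ} (hab : a ≤ b)
    (hA : ContinuousOn A (Icc a b)) (x0 : V) :
    ∃ α : ℝ → V, α b = x0 ∧ ∀ t ∈ Icc a b, HasDerivWithinAt α (A t (α t)) (Icc a b) t := by
  have hmaps : MapsTo (fun t => a + b - t) (Icc a b) (Icc a b) := fun t ht =>
    ⟨by linarith [ht.2], by linarith [ht.1]⟩
  obtain ⟨β, h0, h1⟩ := exists_linear_flow (A := fun t => -(A (a + b - t))) hab
    ((hA.comp (by fun_prop) hmaps).neg) x0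
  refine ⟨fun t => β (a + b - t), by simp [h0], fun t ht => ?_⟩
  have h2 := h1 (a + b - t) (hmaps ht)
  have h3 : HasDerivWithinAt (fun t : ℝ => a + b - t) (-1) (Icc a b) t := by
    simpa using (hasDerivWithinAt_id t (Icc a b)).const_sub (a + b)
  have h4 := h2.scomp t h3 hmaps
  simpa [Function.comp_def] using h4

end linear

end Vale.Agent.P371.Full
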