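import Vale.Agent.P371.Full.Brouwer

/-!
# Variational inequalities (Hartman-Stampacchia) from Brouwer
-/

open Set Metric

namespace Vale.Agent.P371.Full

section inner

variable {V : Type*} [NormedAddCommGroup V] [InnerProductSpace ℝ V]

theorem exists_proj {C : Set V} (hne : C.Nonempty) (hcomp : IsComplete C) (hconv : Convex ℝ C) :
    ∃ π : V → V, (∀ x, π x ∈ C) ∧ (∀ x, ∀ w ∈ C, inner ℝ (x - π x) (w - π x) ≤ 0) := by
  have h : ∀ x : V, ∃ v ∈ C, ∀ w ∈ C, inner ℝ (x - v) (w - v) ≤ 0 := by
    intro x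
    obtain ⟨v, hv, h⟩ := exists_norm_eq_iInf_of_complete_convex hne hcomp hconv x
    exact ⟨v, hv, (norm_eq_iInf_iff_real_inner_le_zero hconv hv).1 h⟩
  choose π h1 h2 using h
  exact ⟨π, h1, h2⟩

theorem proj_lipschitz {C : Set V} {π : V → V} (h1 : ∀ x, π x ∈ C)
    (h2 : ∀ x, ∀ w ∈ C, inner ℝ (x - π x) (w - π x) ≤ 0) (x y : V) :
    ‖π x - π y‖ ≤ ‖x - y‖ := by
  have a := h2 x (π y) (h1 y)
  have b := h2 y (π x) (h1 x)
  have c : ‖π x - π y‖ ^ 2 ≤ inner ℝ (x - y) (π x - π y) := by
    rw [← real_inner_self_eq_norm_sq]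
    have e1 : inner ℝ (x - π x) (π y - π x) = inner ℝ (π x - x) (π x - π y) := by
      rw [← neg_sub (π x) x, ← neg_sub (π x) (π y), inner_neg_neg]
    have e2 : inner ℝ (π x - π y) (π x - π y) =
        inner ℝ (x - y) (π x - π y) + inner ℝ (π x - x) (π x - π y)
          + inner ℝ (y - π y) (π x - π y) := by
      rw [← inner_add_left, ← inner_add_left]
      congr 1
      abel
    rw [e2]
    linarith
  have d := real_inner_le_norm (x - y) (π x - π y)
  by_contra hcon
  push Not at hcon
  have : 0 < ‖π x - π y‖ := lt_of_le_of_lt (norm_nonneg _) hcon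
  nlinarith

/-- Variational inequality. -/
theorem exists_VI [FiniteDimensional ℝ V] {C : Set V} (hne : C.Nonempty) (hc : IsCompact C)
    (hconv : Convex ℝ C) {J : V → V} (hJ : ContinuousOn J C) :
    ∃ x ∈ C, ∀ y ∈ C, 0 ≤ inner ℝ (J x) (y - x) := by
  obtain ⟨π, h1, h2⟩ := exists_proj hne hc.isComplete hconv
  have hlip := proj_lipschitz h1 h2
  have hπ : Continuous π := by
    have : LipschitzWith 1 π := LipschitzWith.of_dist_le_mul fun x y => by
      rw [dist_eq_norm, dist_eq_norm]; simpa using hlip x y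
    exact this.continuous
  obtain ⟨R0, hR0⟩ := hc.isBounded.exists_norm_le
  set R := max R0 1 with hR
  have hRpos : 0 < R := lt_of_lt_of_le one_pos (le_max_right _ _)
  have hJπ : Continuous fun x => J (π x) := hJ.comp_continuous hπ h1
  set F : V → V := fun x => x - π (π x - J (π x)) with hF
  have hFc : Continuous F := continuous_id.sub (hπ.comp (hπ.sub hJπ))
  obtain ⟨x, -, hx⟩ := exists_zero_of_outward hRpos (hFc.continuousOn) (by
    intro x hx
    simp only [hF, inner_sub_left]
    rw [real_inner_self_eq_norm_sq]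
    have a := real_inner_le_norm (π (π x - J (π x))) x
    have b : ‖π (π x - J (π x))‖ ≤ R := (hR0 _ (h1 _)).trans (le_max_left _ _)
    rw [hx] at a ⊢
    nlinarith)
  have hx' : x = π (π x - J (π x)) := sub_eq_zero.1 hx
  have hxC : x ∈ C := by rw [hx']; exact h1 _
  have hfix : ∀ z ∈ C, π z = z := by
    intro z hz
    have := h2 z z hz
    rw [real_inner_self_eq_norm_sq] at this
    have h0 : ‖z - π z‖ = 0 := by
      have := sq_nonneg ‖z - π z‖
      nlinarith [norm_nonneg (z - π z)]
    exact (sub_eq_zero.1 (norm_eq_zero.1 h0)).symm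
  refine ⟨x, hxC, fun y hy => ?_⟩
  rw [hfix x hxC] at hx'
  have := h2 (x - J x) y hy
  rw [← hx'] at this
  have e : x - J x - x = -J x := by abel
  rw [e, inner_neg_left] at this
  linarith

end inner

/-- Variational inequality, dual form. -/
theorem exists_VI_dual {W : Type*} [NormedAddCommGroup W] [NormedSpace ℝ W] [FiniteDimensional ℝ W]
    {C : Set W} (hne : C.Nonempty) (hc : IsCompact C)
    (hconv : Convex ℝ C) {J : W → (W →L[ℝ] ℝ)} (hJ : ContinuousOn J C) :
    ∃ x ∈ C, ∀ y ∈ C, 0 ≤ J x (y - x) := by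
  let e := (toEuclidean : W ≃L[ℝ] EuclideanSpace ℝ (Fin (Module.finrank ℝ W)))
  let D := InnerProductSpace.toDual ℝ (EuclideanSpace ℝ (Fin (Module.finrank ℝ W)))
  let C' := e.symm ⁻¹' C
  have hC' : C' = e '' C := by
    ext z
    constructor
    · intro hz; exact ⟨e.symm z, hz, by simp⟩
    · rintro ⟨w, hw, rfl⟩; simpa [C'] using hw
  obtain ⟨x, hx, h⟩ := exists_VI (C := C') (by rw [hC']; exact hne.image _)
    (by rw [hC']; exact hc.image e.continuous)
    (hconv.is_linear_preimage e.symm.toLinearEquiv.toLinearMap.isLinear)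
    (J := fun v => D.symm ((J (e.symm v)).comp (e.symm : EuclideanSpace ℝ _ →L[ℝ] W))) (by
      apply D.symm.continuous.comp_continuousOn
      apply ContinuousOn.clm_comp _ continuousOn_const
      exact hJ.comp e.symm.continuous.continuousOn (fun v hv => hv))
  refine ⟨e.symm x, hx, fun y hy => ?_⟩
  have := h (e y) (by simpa [C'] using hy)
  have e1 : inner ℝ (D.symm ((J (e.symm x)).comp (e.symm : EuclideanSpace ℝ _ →L[ℝ] W))) (e y - x)
      = (J (e.symm x)) (y - e.symm x) := by
    rw [← InnerProductSpace.toDual_apply_apply, LinearIsometryEquiv.apply_symm_apply]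
    simp
  linarith

end Vale.Agent.P371.Full
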