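import Vale.Agent.P371.Full.Base

/-!
# Golden–Thompson inequality
-/

open scoped Matrix.Norms.L2Operator ComplexOrder
open Matrix MeasureTheory Set Filter Topology

namespace Vale.Agent.P371.Full

section generic

variable {𝔸 : Type*} [NormedRing 𝔸] [NormedAlgebra ℝ 𝔸] [CompleteSpace 𝔸] [NormOneClass 𝔸]

omit [CompleteSpace 𝔸] [NormedAlgebra ℝ 𝔸] in
/-- telescoping -/
lemma gt_telescope {S T : 𝔸} {M : ℝ} (hM : 1 ≤ M) (hS : ‖S‖ ≤ M) (hT : ‖T‖ ≤ M)
    (n : ℕ) : ‖S ^ n - T ^ n‖ ≤ n * ‖S - T‖ * M ^ n := by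
  induction n with
  | zero => simp
  | succ n ih =>
    have hM0 : 0 ≤ M := by linarith
    have e : S ^ (n + 1) - T ^ (n + 1) = S ^ n * (S - T) + (S ^ n - T ^ n) * T := by
      rw [pow_succ, pow_succ]
      noncomm_ring
    rw [e]
    have h1 : ‖S ^ n‖ ≤ M ^ n := (norm_pow_le S n).trans (pow_le_pow_left₀ (norm_nonneg _) hS n)
    calc ‖S ^ n * (S - T) + (S ^ n - T ^ n) * T‖
        ≤ ‖S ^ n * (S - T)‖ + ‖(S ^ n - T ^ n) * T‖ := norm_add_le _ _
      _ ≤ ‖S ^ n‖ * ‖S - T‖ + ‖S ^ n - T ^ n‖ * ‖T‖ :=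
          add_le_add (norm_mul_le _ _) (norm_mul_le _ _)
      _ ≤ M ^ n * ‖S - T‖ + (n * ‖S - T‖ * M ^ n) * M := by
          apply add_le_add
          · exact mul_le_mul_of_nonneg_right h1 (norm_nonneg _)
          · exact mul_le_mul ih hT (norm_nonneg _) (by positivity)
      _ ≤ M ^ (n + 1) * ‖S - T‖ + (n * ‖S - T‖ * M ^ n) * M := by
          gcongr
          exact Nat.le_succ n
      _ = _ := by push_cast; ring

omit [CompleteSpace 𝔸] in
lemma gt_norm_exp_le (x : 𝔸) : ‖NormedSpace.exp x‖ ≤ Real.exp ‖x‖ := by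
  have h1 : Summable fun n : ℕ => ‖((n.factorial : ℝ)⁻¹) • x ^ n‖ :=
    NormedSpace.norm_expSeries_summable' (𝕂 := ℝ) x
  have h2 : Summable fun n : ℕ => ((n.factorial : ℝ)⁻¹) • ‖x‖ ^ n :=
    NormedSpace.expSeries_summable' (𝕂 := ℝ) ‖x‖
  rw [NormedSpace.exp_eq_tsum ℝ, Real.exp_eq_exp_ℝ, NormedSpace.exp_eq_tsum ℝ]
  refine (norm_tsum_le_tsum_norm h1).trans ?_
  refine h1.tsum_le_tsum (fun n => ?_) h2
  rw [norm_smul, norm_inv, Real.norm_natCast, smul_eq_mul]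
  exact mul_le_mul_of_nonneg_left (norm_pow_le x n) (by positivity)

/-- the product formula -/
theorem gt_lie (A B : 𝔸) :
    Tendsto (fun n : ℕ => (NormedSpace.exp ((n : ℝ)⁻¹ • A) * NormedSpace.exp ((n : ℝ)⁻¹ • B)) ^ n)
      atTop (𝓝 (NormedSpace.exp (A + B))) := by
  let _ : NormedAlgebra ℚ 𝔸 := NormedAlgebra.restrictScalars ℚ ℝ 𝔸
  set f : ℝ → 𝔸 := fun t => NormedSpace.exp (t • A) * NormedSpace.exp (t • B) -
    NormedSpace.exp (t • (A + B)) with hf
  have hd : HasDerivAt f 0 0 := by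
    have h1 := hasDerivAt_exp_smul_const (𝕂 := ℝ) A 0
    have h2 := hasDerivAt_exp_smul_const (𝕂 := ℝ) B 0
    have h3 := hasDerivAt_exp_smul_const (𝕂 := ℝ) (A + B) 0
    have h4 := (h1.mul h2).sub h3
    simp only [zero_smul, NormedSpace.exp_zero, one_mul, mul_one] at h4
    have e : A + B - (A + B) = 0 := sub_self _
    rw [e] at h4
    exact h4
  have hf0 : f 0 = 0 := by
    rw [hf]
    simp only [zero_smul, NormedSpace.exp_zero, one_mul, sub_self]
  have h5 := hd.tendsto_slope_zero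
  simp only [zero_add, hf0, sub_zero] at h5
  have h6 : Tendsto (fun n : ℕ => ((n : ℝ)⁻¹)) atTop (𝓝[≠] (0 : ℝ)) := by
    rw [tendsto_nhdsWithin_iff]
    refine ⟨tendsto_inv_atTop_nhds_zero_nat, ?_⟩
    filter_upwards [eventually_gt_atTop 0] with n hn
    have : (n : ℝ) ≠ 0 := by exact_mod_cast hn.ne'
    exact inv_ne_zero this
  have h7 := h5.comp h6
  have h8 : Tendsto (fun n : ℕ => ‖(n : ℝ) • f ((n : ℝ)⁻¹)‖ * Real.exp (‖A‖ + ‖B‖)) atTop (𝓝 0) := by
    have h9 : Tendsto (fun n : ℕ => ‖(n : ℝ) • f ((n : ℝ)⁻¹)‖) atTop (𝓝 0) := by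
      have := h7.norm
      simp only [Function.comp_def, inv_inv, norm_zero] at this
      exact this
    have := h9.mul_const (Real.exp (‖A‖ + ‖B‖))
    rwa [zero_mul] at this
  rw [tendsto_iff_norm_sub_tendsto_zero]
  refine squeeze_zero' (Eventually.of_forall fun n => norm_nonneg _) ?_ h8
  filter_upwards [eventually_gt_atTop 0] with n hn
  have hn0 : (0 : ℝ) < n := by exact_mod_cast hn
  have hT : NormedSpace.exp ((n : ℝ)⁻¹ • (A + B)) ^ n = NormedSpace.exp (A + B) := by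
    rw [← NormedSpace.exp_nsmul, ← Nat.cast_smul_eq_nsmul ℝ, smul_smul,
      mul_inv_cancel₀ hn0.ne', one_smul]
  rw [← hT]
  have hnorm : ∀ x : 𝔸, ‖(n : ℝ)⁻¹ • x‖ = (n : ℝ)⁻¹ * ‖x‖ := by
    intro x
    rw [norm_smul, norm_inv, Real.norm_natCast]
  have hM : (1 : ℝ) ≤ Real.exp ((n : ℝ)⁻¹ * (‖A‖ + ‖B‖)) := Real.one_le_exp (by positivity)
  have hS' : ‖NormedSpace.exp ((n : ℝ)⁻¹ • A) * NormedSpace.exp ((n : ℝ)⁻¹ • B)‖ ≤
      Real.exp ((n : ℝ)⁻¹ * (‖A‖ + ‖B‖)) := by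
    refine (norm_mul_le _ _).trans ?_
    rw [mul_add, Real.exp_add]
    apply mul_le_mul _ _ (norm_nonneg _) (Real.exp_pos _).le
    · rw [← hnorm]; exact gt_norm_exp_le _
    · rw [← hnorm]; exact gt_norm_exp_le _
  have hT' : ‖NormedSpace.exp ((n : ℝ)⁻¹ • (A + B))‖ ≤ Real.exp ((n : ℝ)⁻¹ * (‖A‖ + ‖B‖)) := by
    refine (gt_norm_exp_le _).trans ?_
    rw [hnorm]
    apply Real.exp_le_exp.mpr
    exact mul_le_mul_of_nonneg_left (norm_add_le _ _) (by positivity)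
  refine (gt_telescope hM hS' hT' n).trans ?_
  have e1 : Real.exp ((n : ℝ)⁻¹ * (‖A‖ + ‖B‖)) ^ n = Real.exp (‖A‖ + ‖B‖) := by
    rw [← Real.exp_nat_mul, ← mul_assoc, mul_inv_cancel₀ hn0.ne', one_mul]
  rw [e1, norm_smul, Real.norm_natCast]

end generic

variable {N : ℕ}

lemma gt_pow_succ (A B : Mat N) (m : ℕ) : (A * B) ^ (m + 1) = A * (B * A) ^ m * B := by
  induction m with
  | zero => simp
  | succ m ih =>
    rw [pow_succ', ih, pow_succ' (B * A)]
    simp only [mul_assoc]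

lemma gt_cyc (A B : Mat N) (n : ℕ) : ((A * B) ^ n).trace = ((B * A) ^ n).trace := by
  cases n with
  | zero => simp
  | succ m =>
    rw [gt_pow_succ, Matrix.trace_mul_comm, ← mul_assoc, ← pow_succ']

lemma gt_trace_eq_inner (X Y : Mat N) :
    (Xᴴ * Y).trace = inner ℂ (WithLp.toLp 2 (fun p : Fin N × Fin N => X p.1 p.2))
      (WithLp.toLp 2 (fun p : Fin N × Fin N => Y p.1 p.2)) := by
  rw [PiLp.inner_apply, Fintype.sum_prod_type_right]
  simp only [Matrix.trace, Matrix.diag_apply, Matrix.mul_apply, Matrix.conjTranspose_apply]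
  refine Finset.sum_congr rfl fun i _ => Finset.sum_congr rfl fun j _ => ?_
  simp [mul_comm]

lemma gt_cs (X Y : Mat N) : ‖(Xᴴ * Y).trace‖ ≤ √(rtr (Xᴴ * X)) * √(rtr (Yᴴ * Y)) := by
  have h1 : ∀ Z : Mat N, rtr (Zᴴ * Z) =
      ‖(WithLp.toLp 2 (fun p : Fin N × Fin N => Z p.1 p.2))‖ ^ 2 := by
    intro Z
    rw [rtr, gt_trace_eq_inner, inner_self_eq_norm_sq_to_K]
    norm_cast
  rw [h1, h1, Real.sqrt_sq (norm_nonneg _), Real.sqrt_sq (norm_nonneg _), gt_trace_eq_inner]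
  exact norm_inner_le_norm _ _

lemma gt_rtr_cyc (A B : Mat N) (n : ℕ) : rtr ((A * B) ^ n) = rtr ((B * A) ^ n) := by
  rw [rtr, rtr, gt_cyc]

lemma gt_rtr_self_nonneg (Z : Mat N) : 0 ≤ rtr (Zᴴ * Z) := by
  have h := (Matrix.posSemidef_conjTranspose_mul_self Z).trace_nonneg
  exact (Complex.le_def.mp h).1

/-- Hilbert–Schmidt bound for a square -/
lemma gt_sq (Z : Mat N) : ‖(Z * Z).trace‖ ≤ rtr (Z * Zᴴ) := by
  have h := gt_cs Zᴴ Z
  rw [Matrix.conjTranspose_conjTranspose, rtr_mul_comm Zᴴ Z,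
    Real.mul_self_sqrt] at h
  · exact h
  · rw [rtr_mul_comm]; exact gt_rtr_self_nonneg Z

/-- Cauchy–Schwarz for Hermitian matrices -/
lemma gt_cs_herm {P Q : Mat N} (hP : P.IsHermitian) (hQ : Q.IsHermitian) :
    rtr (P * Q) ≤ √(rtr (P * P)) * √(rtr (Q * Q)) := by
  have h := gt_cs P Q
  rw [hP.eq, hQ.eq] at h
  refine le_trans ?_ h
  exact (le_abs_self _).trans (Complex.abs_re_le_norm _)

theorem gt_main (k : ℕ) :
    (∀ X Y : Mat N, X.PosSemidef → Y.PosSemidef →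
      rtr ((X * Y) ^ (2 ^ k)) ≤ rtr (X ^ (2 ^ k) * Y ^ (2 ^ k))) ∧
    (∀ Z : Mat N, ‖(Z ^ (2 ^ (k + 1))).trace‖ ≤ rtr ((Z * Zᴴ) ^ (2 ^ k))) := by
  induction k with
  | zero =>
    refine ⟨fun X Y _ _ => by simp, fun Z => ?_⟩
    simp only [zero_add, pow_one, pow_zero]
    rw [sq]
    exact gt_sq Z
  | succ k ih =>
    obtain ⟨hS, hT⟩ := ih
    have hT' : ∀ Z : Mat N, ‖(Z ^ (2 ^ (k + 1 + 1))).trace‖ ≤ rtr ((Z * Zᴴ) ^ (2 ^ (k + 1))) := by
      intro Z
      have hPS : (Z * Zᴴ).PosSemidef := Matrix.posSemidef_self_mul_conjTranspose Z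
      have hQS : (Zᴴ * Z).PosSemidef := Matrix.posSemidef_conjTranspose_mul_self Z
      have e1 : Z ^ (2 ^ (k + 1 + 1)) = (Z * Z) ^ (2 ^ (k + 1)) := by
        rw [← sq, ← pow_mul, ← pow_succ']
      rw [e1]
      refine (hT (Z * Z)).trans ?_
      have e2 : Z * Z * (Z * Z)ᴴ = Z * (Z * Zᴴ * Zᴴ) := by
        rw [Matrix.conjTranspose_mul]
        simp only [mul_assoc]
      have e3 : Z * Zᴴ * Zᴴ * Z = (Z * Zᴴ) * (Zᴴ * Z) := by
        simp only [mul_assoc]
      rw [e2, gt_rtr_cyc, e3]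
      refine (hS _ _ hPS hQS).trans ?_
      refine (gt_cs_herm (hPS.isHermitian.pow _) (hQS.isHermitian.pow _)).trans ?_
      rw [← pow_add, ← pow_add, ← two_mul, ← pow_succ', gt_rtr_cyc Zᴴ Z, Real.mul_self_sqrt]
      have h1 : (Z * Zᴴ) ^ (2 ^ (k + 1)) = ((Z * Zᴴ) ^ (2 ^ k))ᴴ * (Z * Zᴴ) ^ (2 ^ k) := by
        rw [(hPS.isHermitian.pow _).eq, ← pow_add, ← two_mul, ← pow_succ']
      rw [h1]
      exact gt_rtr_self_nonneg _
    refine ⟨fun X Y hX hY => ?_, hT'⟩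
    have h1 : rtr ((X * Y) ^ (2 ^ (k + 1))) ≤ ‖((X * Y) ^ (2 ^ (k + 1))).trace‖ :=
      (le_abs_self _).trans (Complex.abs_re_le_norm _)
    refine h1.trans ((hT (X * Y)).trans ?_)
    have e1 : X * Y * (X * Y)ᴴ = X * (Y * Y * X) := by
      rw [Matrix.conjTranspose_mul, hX.isHermitian.eq, hY.isHermitian.eq]
      simp only [mul_assoc]
    have e2 : Y * Y * X * X = (Y * Y) * (X * X) := by simp only [mul_assoc]
    have hXX : (X * X).PosSemidef := by
      have := Matrix.posSemidef_conjTranspose_mul_self X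
      rwa [hX.isHermitian.eq] at this
    have hYY : (Y * Y).PosSemidef := by
      have := Matrix.posSemidef_conjTranspose_mul_self Y
      rwa [hY.isHermitian.eq] at this
    rw [e1, gt_rtr_cyc, e2]
    refine (hS _ _ hYY hXX).trans ?_
    rw [← sq, ← sq, ← pow_mul, ← pow_mul, ← pow_succ', rtr_mul_comm]


lemma gt_exp_psd {A : Mat N} (hA : A.IsHermitian) : (NormedSpace.exp A).PosSemidef := by
  have h1 : ((2 : ℝ)⁻¹ • A).IsHermitian := by
    rw [Matrix.IsHermitian, Matrix.conjTranspose_smul, hA.eq, star_trivial]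
  have h2 : NormedSpace.exp A =
      (NormedSpace.exp ((2 : ℝ)⁻¹ • A))ᴴ * NormedSpace.exp ((2 : ℝ)⁻¹ • A) := by
    rw [(Matrix.IsHermitian.exp h1).eq, ← sq, ← Matrix.exp_nsmul, ← Nat.cast_smul_eq_nsmul ℝ,
      smul_smul]
    norm_num
  rw [h2]
  exact Matrix.posSemidef_conjTranspose_mul_self _

/-- Golden–Thompson: `tr e^{A+B} ≤ tr (e^A e^B)` for Hermitian `A`, `B`. -/
theorem golden_thompson {A B : Mat N} (hA : A.IsHermitian) (hB : B.IsHermitian) :
    rtr (NormedSpace.exp (A + B)) ≤ rtr (NormedSpace.exp A * NormedSpace.exp B) := by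
  rcases N with _ | N
  · simp [rtr, Matrix.trace]
  · have h1 := gt_lie A B
    have h2 : Tendsto (fun k : ℕ => 2 ^ k) atTop atTop :=
      tendsto_pow_atTop_atTop_of_one_lt (by norm_num)
    have h3 := (continuous_rtr.tendsto _).comp (h1.comp h2)
    refine le_of_tendsto h3 (Eventually.of_forall fun k => ?_)
    simp only [Function.comp_def]
    set c : ℝ := (((2 ^ k : ℕ) : ℝ))⁻¹ with hc
    have hherm : ∀ X : Mat (N + 1), X.IsHermitian → (c • X).IsHermitian := by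
      intro X hX
      rw [Matrix.IsHermitian, Matrix.conjTranspose_smul, hX.eq, star_trivial]
    have hpow : ∀ X : Mat (N + 1), NormedSpace.exp (c • X) ^ (2 ^ k) = NormedSpace.exp X := by
      intro X
      rw [← Matrix.exp_nsmul, ← Nat.cast_smul_eq_nsmul ℝ, smul_smul, hc, mul_inv_cancel₀,
        one_smul]
      positivity
    have h4 := (gt_main k).1 _ _ (gt_exp_psd (hherm A hA)) (gt_exp_psd (hherm B hB))
    rw [hpow, hpow] at h4
    exact h4

/-- Golden–Thompson for logarithms: for positive definite `p`, `q`. -/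
theorem golden_thompson_log {p q : Mat N} (hp : p.PosDef) (hq : q.PosDef) :
    rtr (cfc Real.exp (mlog p + mlog q)) ≤ rtr (p * q) := by
  have hlog : ∀ X : Mat N, (mlog X).IsHermitian := by
    intro X
    have : IsSelfAdjoint (mlog X) := cfc_predicate _ X
    exact this
  have hexp : ∀ X : Mat N, X.PosDef → NormedSpace.exp (mlog X) = X := by
    intro X hX
    have h1 : NormedSpace.exp (mlog X) = cfc Real.exp (mlog X) :=
      (CFC.real_exp_eq_normedSpace_exp (a := mlog X) (hlog X)).symm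
    have hpos : ∀ x ∈ spectrum ℝ X, 0 < x := by
      intro x hx
      rw [hX.isHermitian.spectrum_real_eq_range_eigenvalues] at hx
      obtain ⟨i, rfl⟩ := hx
      exact hX.eigenvalues_pos i
    have hsa : IsSelfAdjoint X := hX.isHermitian
    have hcont : ContinuousOn Real.log (spectrum ℝ X) := fun x hx =>
      (Real.continuousAt_log (hpos x hx).ne').continuousWithinAt
    rw [h1, mlog, ← cfc_comp' Real.exp Real.log X (Real.continuous_exp.continuousOn) hcont hsa]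
    conv_rhs => rw [← cfc_id (R := ℝ) X hsa]
    refine cfc_congr fun x hx => ?_
    simp [Real.exp_log (hpos x hx)]
  have h2 : cfc Real.exp (mlog p + mlog q) = NormedSpace.exp (mlog p + mlog q) :=
    CFC.real_exp_eq_normedSpace_exp (a := mlog p + mlog q) ((hlog p).add (hlog q))
  rw [h2]
  have h3 := golden_thompson (hlog p) (hlog q)
  rwa [hexp p hp, hexp q hq] at h3

end Vale.Agent.P371.Full
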