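import Vale.Agent.P371.Full.TraceConv
import Vale.Agent.P371.Full.GoldenThompson

/-!
# P371 (full): Gibbs + Golden-Thompson
-/

open scoped Matrix.Norms.L2Operator ComplexOrder
open Matrix MeasureTheory Set Filter Topology

namespace Vale.Agent.P371.Full

variable {N : ℕ}

namespace GibbsAux

lemma contOn (f : ℝ → ℝ) (A : Mat N) : ContinuousOn f (spectrum ℝ A) :=
  (Matrix.finite_real_spectrum (A := A)).continuousOn f

lemma spec_pos {M : Mat N} (hM : M.PosDef) {x : ℝ} (hx : x ∈ spectrum ℝ M) : 0 < x := by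
  rw [hM.isHermitian.spectrum_real_eq_range_eigenvalues] at hx
  obtain ⟨i, rfl⟩ := hx
  exact hM.eigenvalues_pos i

/-- Scalar Young inequality `x y ≤ e^y + x log x - x`. -/
lemma scalar {x y : ℝ} (hx : 0 < x) : x * y ≤ Real.exp y + eta x := by
  unfold eta
  have h := Real.add_one_le_exp (y - Real.log x)
  have h2 : Real.exp (y - Real.log x) = Real.exp y / x := by
    rw [Real.exp_sub, Real.exp_log hx]
  rw [h2, le_div_iff₀ hx] at h
  nlinarith

end GibbsAux

open GibbsAux

/-- Gibbs variational inequality. -/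
theorem gibbs {M G : Mat N} (hM : M.PosDef) (hG : G.IsHermitian) :
    rtr (M * G) ≤ rtr (cfc Real.exp G) + rtr (cfc eta M) := by
  have h := sum_rtr_nonneg (Finset.univ : Finset (Fin 3))
    ![fun _ => 1, eta, fun x => -x] ![Real.exp, fun _ => 1, fun y => y]
    hM.isHermitian hG (by
      intro x hx y _
      have := scalar (y := y) (spec_pos hM hx)
      simp only [Fin.sum_univ_three, Matrix.cons_val_zero, Matrix.cons_val_one, Matrix.cons_val]
      linarith)
  have hM' : IsSelfAdjoint M := hM.isHermitian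
  have hG' : IsSelfAdjoint G := hG
  simp only [Fin.sum_univ_three, Matrix.cons_val_zero, Matrix.cons_val_one, Matrix.cons_val] at h
  have e1 : cfc (fun x : ℝ => -x) M = -M := by
    rw [cfc_neg (fun x : ℝ => x) M, cfc_id' ℝ M]
  rw [cfc_const_one ℝ M, cfc_const_one ℝ G, e1, cfc_id' ℝ G] at h
  simp only [one_mul, mul_one, neg_mul, rtr_neg] at h
  linarith

theorem gibbs_gt {p q M : Mat N} (hp : p.PosDef) (hq : q.PosDef) (hM : M.PosDef) {t : ℝ}
    (ht : 0 < t) :
    t * rtr (M * (mlog p + mlog q - Real.log t • (1 : Mat N))) ≤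
      rtr (p * q) + t * rtr (cfc eta M) := by
  set L : Mat N := mlog p + mlog q with hL
  have hLs : IsSelfAdjoint L :=
    IsSelfAdjoint.add (cfc_predicate Real.log p) (cfc_predicate Real.log q)
  set c : ℝ := Real.log t with hc
  have hGeq : cfc (fun x : ℝ => x - c) L = L - c • (1 : Mat N) := by
    rw [cfc_sub (fun x : ℝ => x) (fun _ => c) L (contOn _ _) (contOn _ _), cfc_id' ℝ L,
      cfc_const c L, Algebra.algebraMap_eq_smul_one]
  have hGs : (L - c • (1 : Mat N)).IsHermitian := by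
    rw [← hGeq]; exact cfc_predicate (fun x : ℝ => x - c) L
  have h1 := gibbs hM hGs
  have h2 : cfc Real.exp (L - c • (1 : Mat N)) = t⁻¹ • cfc Real.exp L := by
    rw [← hGeq, ← cfc_comp' Real.exp (fun x : ℝ => x - c) L
      (Real.continuous_exp.continuousOn) (contOn _ _)]
    rw [← cfc_smul (t⁻¹) Real.exp L (contOn _ _)]
    refine cfc_congr fun x _ => ?_
    simp only [smul_eq_mul]
    rw [Real.exp_sub, hc, Real.exp_log ht]
    field_simp
  rw [h2, rtr_smul] at h1
  have h3 := golden_thompson_log hp hq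
  rw [← hL] at h3
  have h4 := mul_le_mul_of_nonneg_left h1 ht.le
  rw [mul_add, ← mul_assoc, mul_inv_cancel₀ ht.ne', one_mul] at h4
  linarith

/-- Key inequality (Step 3): `tr (Z H_t) ≤ w(t) + tr Ψ_t(Z)`. -/
theorem rtr_mul_Ht_le {e : Fin N → ℝ} {Y Z : Mat N} (h : Adm e Y) (hZ : Z.PosSemidef) {t : ℝ}
    (ht : 0 < t) :
    rtr (Z * Ht e t Y) ≤ wf e Y t + rtr (cfc (Psi t) Z) := by
  have hZs : IsSelfAdjoint Z := hZ.isHermitian
  set M : Mat N := 1 + t⁻¹ • Z with hMdef
  have hM : M.PosDef := by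
    refine Matrix.PosDef.one.add_posSemidef ?_
    exact hZ.smul (a := t⁻¹) (inv_nonneg.mpr ht.le)
  have h1 := gibbs_gt (h.posDef_add ht) (h.posDef_sub ht) hM ht
  have hH : mlog (Kt e t + Y) + mlog (Kt e t - Y) - Real.log t • (1 : Mat N) = Ht e t Y := rfl
  rw [hH] at h1
  -- left-hand side
  have h2 : t * rtr (M * Ht e t Y) = t * rtr (Ht e t Y) + rtr (Z * Ht e t Y) := by
    rw [hMdef, add_mul, one_mul, smul_mul_assoc, rtr_add, rtr_smul, mul_add, ← mul_assoc,
      mul_inv_cancel₀ ht.ne', one_mul]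
  -- `K²`
  have hK : Kt e t * Kt e t = dg e + t • (1 : Mat N) := by
    unfold Kt dg
    rw [Matrix.diagonal_mul_diagonal]
    ext i j
    by_cases hij : i = j
    · subst hij
      have h0 : 0 ≤ e i + t := add_nonneg (h.nonneg i) ht.le
      have := Real.mul_self_sqrt h0
      simp only [Matrix.diagonal_apply_eq, Matrix.add_apply, Matrix.smul_apply, Matrix.one_apply_eq]
      rw [← Complex.ofReal_mul, this]
      simp
    · simp [Matrix.diagonal_apply_ne _ hij, Matrix.one_apply_ne hij]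
  have h3 : rtr ((Kt e t + Y) * (Kt e t - Y)) = rtr (Am e Y) + t * N := by
    have e1 : (Kt e t + Y) * (Kt e t - Y) =
        Kt e t * Kt e t - Kt e t * Y + Y * Kt e t - Y * Y := by noncomm_ring
    rw [e1, hK]
    simp only [rtr_add, rtr_sub, rtr_smul, rtr_one, Am]
    rw [rtr_mul_comm Y (Kt e t)]
    ring
  have hMc : M = cfc (fun x : ℝ => 1 + t⁻¹ * x) Z := by
    rw [cfc_const_add (1 : ℝ) (fun x : ℝ => t⁻¹ * x) Z (contOn _ _),
      cfc_const_mul_id t⁻¹ Z, map_one]
  have hspec : ∀ x ∈ spectrum ℝ Z, 0 ≤ x := by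
    intro x hx
    rw [hZ.isHermitian.spectrum_real_eq_range_eigenvalues] at hx
    obtain ⟨i, rfl⟩ := hx
    exact hZ.eigenvalues_nonneg i
  have h4 : t * rtr (cfc eta M) = rtr (cfc (Psi t) Z) - t * N := by
    have hcont : ContinuousOn eta ((fun x : ℝ => 1 + t⁻¹ * x) '' spectrum ℝ Z) :=
      ((Matrix.finite_real_spectrum (A := Z)).image _).continuousOn _
    rw [hMc, ← cfc_comp' eta (fun x : ℝ => 1 + t⁻¹ * x) Z hcont (contOn _ _)]
    have e1 : t • cfc (fun x => eta (1 + t⁻¹ * x)) Z = cfc (Psi t) Z - t • (1 : Mat N) := by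
      rw [← cfc_smul t (fun x => eta (1 + t⁻¹ * x)) Z (contOn _ _)]
      have e2 : cfc (fun x => Psi t x - t) Z = cfc (Psi t) Z - t • (1 : Mat N) := by
        rw [cfc_sub (Psi t) (fun _ => t) Z (contOn _ _) (contOn _ _), cfc_const t Z,
          Algebra.algebraMap_eq_smul_one]
      rw [← e2]
      refine cfc_congr fun x _ => ?_
      simp only [smul_eq_mul, eta, Psi]
      have e3 : t⁻¹ * x = x / t := by ring
      rw [e3]
      field_simp
      ring
    have e5 := congrArg rtr e1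
    rw [rtr_smul, rtr_sub, rtr_smul, rtr_one] at e5
    exact e5
  rw [h2, h3, h4] at h1
  unfold wf
  linarith

theorem wf_nonneg {e : Fin N → ℝ} {Y : Mat N} (h : Adm e Y) {t : ℝ} (ht : 0 < t) :
    0 ≤ wf e Y t := by
  have h1 := rtr_mul_Ht_le h (Matrix.PosSemidef.zero (n := Fin N) (R := ℂ)) ht
  rw [zero_mul, rtr_zero, cfc_apply_zero] at h1
  have h2 : Psi t 0 = 0 := by simp [Psi]
  rw [h2, map_zero, rtr_zero, add_zero] at h1
  exact h1

end Vale.Agent.P371.Full
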