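import Vale.Agent.P371.Full.Chain

/-!
# P371 (full): the sharp upper bound
-/

open scoped Matrix.Norms.L2Operator ComplexOrder ENNReal
open Matrix MeasureTheory Set Filter Topology

namespace Vale.Agent.P371.Full

variable {N m : ℕ}

/-! ### auxiliary facts on the functional calculus -/

theorem Main.continuousOn_cfc {X : Type*} [TopologicalSpace X] {t : Set X} {A : X → Mat N}
    (hA : ContinuousOn A t) (hh : ∀ x ∈ t, (A x).IsHermitian) {f : ℝ → ℝ} (hf : Continuous f) :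
    ContinuousOn (fun x => cfc f (A x)) t :=
  ContinuousOn.cfc_of_mem_nhdsSet (s := Set.univ) f Filter.univ_mem hA
    (fun x hx => (hh x hx).isSelfAdjoint) hf.continuousOn

theorem Main.isHermitian_cfc {A : Mat N} (hA : A.IsHermitian) (f : ℝ → ℝ) :
    (cfc f A).IsHermitian := by
  rw [TraceConv.cfc_explicit hA]
  refine Matrix.isHermitian_mul_mul_conjTranspose _ ?_
  exact isHermitian_dg _

theorem Main.posSemidef_cfc {A : Mat N} (hA : A.IsHermitian) {f : ℝ → ℝ}
    (h : ∀ i, 0 ≤ f (hA.eigenvalues i)) : (cfc f A).PosSemidef := by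
  rw [TraceConv.cfc_explicit hA]
  refine Matrix.PosSemidef.mul_mul_conjTranspose_same ?_ _
  exact posSemidef_dg h

theorem Main.spectrum_nonneg {A : Mat N} (hA : A.PosSemidef) {x : ℝ} (hx : x ∈ spectrum ℝ A) :
    0 ≤ x := by
  rw [hA.1.spectrum_real_eq_range_eigenvalues] at hx
  obtain ⟨i, rfl⟩ := hx
  exact hA.eigenvalues_nonneg i

theorem Main.spectrum_dg_pos {v : Fin N → ℝ} (hv : ∀ j, 0 < v j) {x : ℝ}
    (hx : x ∈ spectrum ℝ (dg v)) : 0 < x := by
  rw [(posDef_dg hv).1.spectrum_real_eq_range_eigenvalues] at hx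
  obtain ⟨i, rfl⟩ := hx
  exact (posDef_dg hv).eigenvalues_pos i

theorem Main.psd_sq {K : Mat N} (hK : K.IsHermitian) : (K * K).PosSemidef := by
  have h : Kᴴ = K := hK
  have h1 := Matrix.posSemidef_conjTranspose_mul_self K
  rwa [h] at h1

theorem Main.rtr_cfc_sq {ν : ℝ} (hν : 0 < ν) {K : Mat N} (hK : K.PosSemidef) :
    rtr (cfc (fun y : ℝ => y ^ (ν + 1 / 2)) (K * K)) =
      rtr (cfc (fun k : ℝ => k ^ (2 * ν + 1)) K) := by
  have h1 : K * K = cfc (fun k : ℝ => k * k) K := by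
    rw [← TraceConv.cfc_mul_cfc hK.1, TraceConv.cfc_id hK.1]
  have hc1 : Continuous fun y : ℝ => y ^ (ν + 1 / 2) :=
    Real.continuous_rpow_const (by linarith)
  have hc2 : Continuous fun k : ℝ => k * k := continuous_id.mul continuous_id
  have h2 := cfc_comp (fun y : ℝ => y ^ (ν + 1 / 2)) (fun k : ℝ => k * k) K
    hK.1.isSelfAdjoint hc1.continuousOn hc2.continuousOn
  rw [h1, ← h2, rtr_cfc hK.1, rtr_cfc hK.1]
  refine Finset.sum_congr rfl fun i _ => ?_
  have h0 : 0 ≤ hK.1.eigenvalues i := hK.eigenvalues_nonneg i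
  change (hK.1.eigenvalues i * hK.1.eigenvalues i) ^ (ν + 1 / 2) = _
  rw [Real.mul_rpow h0 h0, ← Real.rpow_add_of_nonneg h0 (by linarith) (by linarith)]
  congr 1
  ring

/-! ### bounds for `Pm` -/

theorem Main.Um_bound {u u' : Fin N → ℝ → Vec m} (hu : ∀ j, IsH1 (u j) (u' j)) :
    ∃ B : ℝ, 0 ≤ B ∧ ∀ x, ‖Um u x‖ ≤ B := by
  obtain ⟨C, hC0, hC⟩ := exists_bound_family hu
  refine ⟨∑ a : Fin m, ∑ j : Fin N, C * ‖Matrix.single a j (1 : ℂ)‖,
    by positivity, fun x => ?_⟩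
  rw [Matrix.matrix_eq_sum_single (Um u x)]
  refine (norm_sum_le _ _).trans (Finset.sum_le_sum fun a _ => ?_)
  refine (norm_sum_le _ _).trans (Finset.sum_le_sum fun j _ => ?_)
  have h1 : Matrix.single a j (Um u x a j) = (Um u x a j) • Matrix.single a j (1 : ℂ) := by
    rw [Matrix.smul_single, smul_eq_mul, mul_one]
  rw [h1, norm_smul]
  refine mul_le_mul_of_nonneg_right ?_ (norm_nonneg _)
  exact (IsH1.norm_apply_le x a).trans (hC j x)

theorem Main.fD_cont {ν : ℝ} (hν : 0 < ν) : Continuous (fD ν) :=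
  (Real.continuous_rpow_const (by positivity)).comp (continuous_id.div_const _)

theorem Main.fD_nonneg {ν : ℝ} (hν : 0 < ν) {p : ℝ} (hp : 0 ≤ p) : 0 ≤ fD ν p := by
  have := cL_pos hν
  unfold fD
  positivity

theorem Main.fD_mono {ν : ℝ} (hν : 0 < ν) {p q : ℝ} (hp : 0 ≤ p) (hpq : p ≤ q) :
    fD ν p ≤ fD ν q := by
  have := cL_pos hν
  unfold fD
  refine Real.rpow_le_rpow (by positivity) ?_ (by positivity)
  exact div_le_div_of_nonneg_right hpq (by positivity)

theorem Main.fS_nonneg {ν : ℝ} (hν : 0 < ν) {p : ℝ} (hp : 0 ≤ p) : 0 ≤ fS ν p := by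
  have := cL_pos hν
  unfold fS
  positivity

theorem Main.fD_bound {ν : ℝ} (hν : 0 < ν) {u u' : Fin N → ℝ → Vec m}
    (hu : ∀ j, IsH1 (u j) (u' j)) (M : ℝ) :
    ∃ w : ℝ, 0 ≤ w ∧ ∀ C : Mat N, ‖C‖ ≤ M → ∀ x, ‖cfc (fD ν) (Pm u C x)‖ ≤ w := by
  obtain ⟨B, hB0, hB⟩ := Main.Um_bound hu
  refine ⟨fD ν ((B * |M|) * (B * |M|) * ‖(1 : Mat N)‖), Main.fD_nonneg hν (by positivity),
    fun C hC x => ?_⟩
  refine norm_cfc_le (Main.fD_nonneg hν (by positivity)) fun y hy => ?_
  have hpsd := posSemidef_Pm u C x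
  have hy0 : 0 ≤ y := Main.spectrum_nonneg hpsd hy
  rw [Real.norm_of_nonneg (Main.fD_nonneg hν hy0)]
  refine Main.fD_mono hν hy0 ?_
  have h1 : ‖y‖ ≤ ‖Pm u C x‖ * ‖(1 : Mat N)‖ := spectrum.norm_le_norm_mul_of_mem hy
  rw [Real.norm_of_nonneg hy0] at h1
  refine h1.trans (mul_le_mul_of_nonneg_right ?_ (norm_nonneg _))
  have h2 : ‖Um u x * C‖ ≤ B * |M| :=
    (Matrix.l2_opNorm_mul _ _).trans
      (mul_le_mul (hB x) (hC.trans (le_abs_self M)) (norm_nonneg _) hB0)
  unfold Pm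
  refine (Matrix.l2_opNorm_mul _ _).trans ?_
  rw [Matrix.l2_opNorm_conjTranspose]
  exact mul_le_mul h2 h2 (norm_nonneg _) (by positivity)

theorem Main.continuousOn_mul {X : Type*} [TopologicalSpace X] {t : Set X}
    {P : X → Matrix (Fin m) (Fin N) ℂ} {Q : X → Mat N} (hP : ContinuousOn P t)
    (hQ : ContinuousOn Q t) : ContinuousOn (fun x => P x * Q x) t := by
  rw [continuousOn_iff_continuous_domRestrict] at *
  exact Continuous.matrix_mul hP hQ

theorem Main.continuous_star_mul :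
    Continuous fun q : Matrix (Fin m) (Fin N) ℂ => qᴴ * q :=
  Continuous.matrix_mul (Continuous.matrix_conjTranspose continuous_id) continuous_id

theorem Main.continuous_Um {u u' : Fin N → ℝ → Vec m} (hu : ∀ j, IsH1 (u j) (u' j)) :
    Continuous (Um u) :=
  continuous_matrix fun a j => (hu j).continuous_apply a

/-! ### the core construction -/

theorem Main.core {ν : ℝ} (hν : 0 < ν) (hν1 : ν < 1) {W : ℝ → Matrix (Fin m) (Fin m) ℂ}
    (hW : ∀ x, (W x).PosSemidef)
    (hWm : ∀ a b, Measurable fun x => W x a b) {lam : Fin N → ℝ}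
    {u u' : Fin N → ℝ → Vec m} (hu : ∀ j, IsH1 (u j) (u' j)) (hneg : ∀ j, lam j < 0)
    (he : ∀ j, ∀ φ φ' : ℝ → Vec m, IsH1 φ φ' →
      (∫ x, inner ℂ (φ' x) (u' j x)) - (∫ x, pairing (W x) (φ x) (u j x)) =
        (lam j : ℂ) * ∫ x, inner ℂ (φ x) (u j x))
    (hon : ∀ i j, ∫ x, inner ℂ (u i x) (u j x) = if i = j then (1 : ℂ) else 0)
    (Cf : Mat N → Mat N) (hCc : ContinuousOn Cf {E | E.IsHermitian})
    (hCh : ∀ E : Mat N, E.IsHermitian → (Cf E).IsHermitian) {M : ℝ}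
    (hCM : ∀ E : Mat N, E.IsHermitian → ‖Cf E‖ ≤ M) {ε : ℝ} (hε : 0 < ε) :
    ∃ K : Mat N, K.PosSemidef ∧
      rtr (dg (fun j => -lam j) * (Cf (K * K) * Cf (K * K))) -
        rtr (K * K * (Cf (K * K) * Cf (K * K)))
        + rtr (cfc (fun k : ℝ => k ^ (2 * ν + 1)) K) - ε ≤ Jf ν W u (Cf (K * K)) := by
  obtain ⟨n, hn⟩ := tail_fS hν hu M (half_pos hε)
  obtain ⟨w, hw0, hw⟩ := Main.fD_bound hν hu M
  set R : ℝ := (n : ℝ) + 1 with hR
  have hR0 : 0 < R := by positivity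
  -- the tail
  have htail : ∀ C : Mat N, ‖C‖ ≤ M →
      ∫ x in (Icc (-R) R)ᶜ, rtr (cfc (fS ν) (Pm u C x)) ≤ ε / 2 := by
    intro C hC
    refine le_trans ?_ (hn C hC)
    refine setIntegral_mono_set (integrable_fS hν hu C).integrableOn ?_ ?_
    · refine Filter.Eventually.of_forall fun x => ?_
      change 0 ≤ rtr (cfc (fS ν) (Pm u C x))
      have hpsd := posSemidef_Pm u C x
      rw [rtr_cfc hpsd.1]
      exact Finset.sum_nonneg fun i _ => Main.fS_nonneg hν (hpsd.eigenvalues_nonneg i)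
    · refine Filter.Eventually.of_forall fun x hx => ?_
      intro hx'
      apply hx
      exact ⟨by linarith [hx'.1], by linarith [hx'.2]⟩
  -- the small parameter
  have hF : Continuous (fF ν) := by
    unfold fF
    exact continuous_const.mul (Real.continuous_rpow_const (by linarith))
  obtain ⟨η, hη0, hη⟩ : ∃ η : ℝ, 0 < η ∧ (R - (-R)) * N * (fF ν (w + η) - fF ν w) < ε / 2 := by
    have h1 : Tendsto (fun η : ℝ => (R - (-R)) * N * (fF ν (w + η) - fF ν w)) (𝓝[>] 0)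
        (𝓝 ((R - (-R)) * N * (fF ν (w + 0) - fF ν w))) := by
      have hcont : Continuous fun η : ℝ => (R - (-R)) * N * (fF ν (w + η) - fF ν w) :=
        continuous_const.mul ((hF.comp (continuous_const.add continuous_id)).sub
          continuous_const)
      exact (hcont.tendsto 0).mono_left nhdsWithin_le_nhds
    rw [add_zero, sub_self, mul_zero] at h1
    have h2 := (h1.eventually (gt_mem_nhds (half_pos hε))).and self_mem_nhdsWithin
    obtain ⟨η, hη⟩ := h2.exists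
    exact ⟨η, hη.2, hη.1⟩
  -- the full kernel
  have hPmH : ∀ C x, (Pm u C x).IsHermitian := fun C x => (posSemidef_Pm u C x).1
  obtain ⟨K, Y, hK, hYh, hlo, hhi, hY, hYa, hYb⟩ := exists_full_kernel hR0 hw0 hη0
    (fun E x => cfc (fD ν) (Pm u (Cf E) x))
    (by
      refine Main.continuousOn_cfc (A := fun p : Mat N × ℝ => Pm u (Cf p.1) p.2) ?_
        (fun p _ => hPmH _ _) (Main.fD_cont hν)
      have h1 : ContinuousOn (fun p : Mat N × ℝ => Um u p.2 * Cf p.1)
          ({E | E.IsHermitian} ×ˢ univ) := by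
        have h2 : ContinuousOn (fun p : Mat N × ℝ => Um u p.2) ({E | E.IsHermitian} ×ˢ univ) :=
          ((Main.continuous_Um hu).comp continuous_snd).continuousOn
        have h3 : ContinuousOn (fun p : Mat N × ℝ => Cf p.1) ({E | E.IsHermitian} ×ˢ univ) :=
          hCc.comp continuous_fst.continuousOn fun p hp => hp.1
        exact Main.continuousOn_mul h2 h3
      exact Main.continuous_star_mul.comp_continuousOn h1)
    (fun E hE x => Main.posSemidef_cfc (hPmH _ _)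
      fun i => Main.fD_nonneg hν ((posSemidef_Pm u (Cf E) x).eigenvalues_nonneg i))
    (fun E hE x => hw (Cf E) (hCM E hE) x)
  have hKK : (K * K).IsHermitian := (Main.psd_sq hK.1).1
  refine ⟨K, hK, ?_⟩
  have hch := chain hν hν1 hW hWm hu hneg he hon (hCh _ hKK) (a := -R) (b := R)
    (by linarith) hη0.le hw0 (fun x _ => hw (Cf (K * K)) (hCM _ hKK) x) hK hYh hlo hhi hY hYa hYb
  have ht := htail (Cf (K * K)) (hCM _ hKK)
  linarith

theorem Main.norm_cfc_le_const {f : ℝ → ℝ} {c : ℝ} (hc : 0 ≤ c) (h : ∀ x, |f x| ≤ c) (A : Mat N) :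
    ‖cfc f A‖ ≤ c :=
  norm_cfc_le hc fun x _ => h x

/-- Existence of good test matrices. -/
theorem exists_Jf {ν : ℝ} (hν : 0 < ν) (hν1 : ν < 1) {W : ℝ → Matrix (Fin m) (Fin m) ℂ}
    (hW : ∀ x, (W x).PosSemidef)
    (hWm : ∀ a b, Measurable fun x => W x a b) {lam : Fin N → ℝ}
    {u u' : Fin N → ℝ → Vec m} (hu : ∀ j, IsH1 (u j) (u' j)) (hneg : ∀ j, lam j < 0)
    (he : ∀ j, ∀ φ φ' : ℝ → Vec m, IsH1 φ φ' →
      (∫ x, inner ℂ (φ' x) (u' j x)) - (∫ x, pairing (W x) (φ x) (u j x)) =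
        (lam j : ℂ) * ∫ x, inner ℂ (φ x) (u j x))
    (hon : ∀ i j, ∫ x, inner ℂ (u i x) (u j x) = if i = j then (1 : ℂ) else 0)
    {ε : ℝ} (hε : 0 < ε) :
    ∃ C : Mat N, C.IsHermitian ∧ ∑ j, (-lam j) ^ (ν + 1 / 2) - ε ≤ Jf ν W u C := by
  have hlam : ∀ j, 0 < -lam j := fun j => neg_pos.2 (hneg j)
  set A : Mat N := dg (fun j => -lam j) with hA
  have hAH : A.IsHermitian := isHermitian_dg _
  have hsum : rtr (cfc (fun x : ℝ => x ^ (ν + 1 / 2)) A) = ∑ j, (-lam j) ^ (ν + 1 / 2) :=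
    pd_rtr_cfc_dg _ _
  rcases le_or_gt (1 / 2) ν with hcase | hcase
  · -- the case `γ ≥ 1`
    set g : ℝ → ℝ := fun x => (ν + 1 / 2) * x ^ (ν - 1 / 2) with hg
    have hgnn : ∀ x, 0 ≤ x → 0 ≤ g x := fun x hx => by
      rw [hg]
      positivity
    set C : Mat N := cfc (fun x => √(g x)) A with hC
    have hCC : C * C = cfc g A := by
      rw [hC, TraceConv.cfc_mul_cfc hAH, TraceConv.cfc_explicit hAH, TraceConv.cfc_explicit hAH]
      congr 3
      funext i
      have h0 : 0 < hAH.eigenvalues i :=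
        Main.spectrum_dg_pos hlam (hAH.eigenvalues_mem_spectrum_real i)
      rw [Real.mul_self_sqrt (hgnn _ h0.le)]
    obtain ⟨K, hK, hle⟩ := Main.core hν hν1 hW hWm hu hneg he hon (fun _ => C)
      continuousOn_const (fun _ _ => Main.isHermitian_cfc hAH _) (fun _ _ => le_refl ‖C‖) hε
    refine ⟨C, Main.isHermitian_cfc hAH _, le_trans ?_ hle⟩
    have hKK := Main.psd_sq hK.1
    have hm := sum_rtr_nonneg (Finset.univ : Finset (Fin 4))
      ![fun x => x * g x, fun x => -g x, fun _ => 1, fun x => -x ^ (ν + 1 / 2)]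
      ![fun _ => 1, fun y => y, fun y => y ^ (ν + 1 / 2), fun _ => 1] hAH hKK.1 (by
        intro x hx y hy
        simp only [Fin.sum_univ_four]
        change 0 ≤ x * g x * 1 + -g x * y + 1 * y ^ (ν + 1 / 2) + -x ^ (ν + 1 / 2) * 1
        have h1 := alg_ge hcase (Main.spectrum_dg_pos hlam hx) (Main.spectrum_nonneg hKK hy)
        have h2 : x * g x = (ν + 1 / 2) * x ^ (ν - 1 / 2) * x := by rw [hg]; ring
        have h3 : g x * y = (ν + 1 / 2) * x ^ (ν - 1 / 2) * y := by rw [hg]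
        linarith)
    simp only [Fin.sum_univ_four] at hm
    change 0 ≤ rtr (cfc (fun x => x * g x) A * cfc (fun _ => 1) (K * K)) +
      rtr (cfc (fun x => -g x) A * cfc (fun y => y) (K * K)) +
      rtr (cfc (fun _ => 1) A * cfc (fun y => y ^ (ν + 1 / 2)) (K * K)) +
      rtr (cfc (fun x => -x ^ (ν + 1 / 2)) A * cfc (fun _ => 1) (K * K)) at hm
    rw [TraceConv.cfc_one hKK.1, TraceConv.cfc_one hAH, TraceConv.cfc_id hKK.1,
      TraceConv.cfc_neg hAH, TraceConv.cfc_neg hAH, Matrix.mul_one, Matrix.mul_one,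
      Matrix.one_mul, Matrix.neg_mul, rtr_neg, rtr_neg, hsum, Main.rtr_cfc_sq hν hK,
      ← TraceConv.cfc_mul_cfc hAH (fun x => x) g, TraceConv.cfc_id hAH, ← hCC,
      rtr_mul_comm (C * C) (K * K)] at hm
    linarith
  · -- the case `γ < 1`
    obtain ⟨δ, hδ0, hδ⟩ : ∃ δ : ℝ, 0 < δ ∧ N * δ ^ (ν + 1 / 2) < ε / 2 := by
      have h1 : Tendsto (fun δ : ℝ => N * δ ^ (ν + 1 / 2)) (𝓝[>] 0)
          (𝓝 (N * (0 : ℝ) ^ (ν + 1 / 2))) := by
        have hcont : Continuous fun δ : ℝ => (N : ℝ) * δ ^ (ν + 1 / 2) :=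
          continuous_const.mul (Real.continuous_rpow_const (by linarith))
        exact (hcont.tendsto 0).mono_left nhdsWithin_le_nhds
      rw [Real.zero_rpow (by linarith), mul_zero] at h1
      have h2 := (h1.eventually (gt_mem_nhds (half_pos hε))).and self_mem_nhdsWithin
      obtain ⟨δ, hδ⟩ := h2.exists
      exact ⟨δ, hδ.2, hδ.1⟩
    set g : ℝ → ℝ := fun y => (ν + 1 / 2) * (max y δ) ^ (ν - 1 / 2) with hg
    have hmax : ∀ y, 0 < max y δ := fun y => lt_max_of_lt_right hδ0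
    have hgnn : ∀ y, 0 ≤ g y := fun y => by
      have := hmax y
      rw [hg]
      positivity
    have hgc : Continuous g := by
      refine continuous_const.mul ?_
      exact (continuous_id.max continuous_const).rpow_const fun y => Or.inl (hmax y).ne'
    have hgle : ∀ y, g y ≤ (ν + 1 / 2) * δ ^ (ν - 1 / 2) := by
      intro y
      refine mul_le_mul_of_nonneg_left ?_ (by linarith)
      exact Real.rpow_le_rpow_of_nonpos hδ0 (le_max_right _ _) (by linarith)
    have hhc : Continuous fun y => √(g y) := Real.continuous_sqrt.comp hgc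
    obtain ⟨K, hK, hle⟩ := Main.core hν hν1 hW hWm hu hneg he hon
      (fun E => cfc (fun y => √(g y)) E)
      (Main.continuousOn_cfc (A := fun E : Mat N => E) continuousOn_id (fun E hE => hE) hhc)
      (fun E hE => Main.isHermitian_cfc hE _)
      (M := √((ν + 1 / 2) * δ ^ (ν - 1 / 2)))
      (fun E _ => Main.norm_cfc_le_const (Real.sqrt_nonneg _) (fun x => by
        rw [abs_of_nonneg (Real.sqrt_nonneg _)]
        exact Real.sqrt_le_sqrt (hgle x)) E) (half_pos hε)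
    have hKK := Main.psd_sq hK.1
    refine ⟨cfc (fun y => √(g y)) (K * K), Main.isHermitian_cfc hKK.1 _, le_trans ?_ hle⟩
    have hCC : cfc (fun y => √(g y)) (K * K) * cfc (fun y => √(g y)) (K * K) = cfc g (K * K) := by
      rw [TraceConv.cfc_mul_cfc hKK.1]
      congr 1
      funext y
      exact Real.mul_self_sqrt (hgnn y)
    rw [hCC]
    have hm := sum_rtr_nonneg (Finset.univ : Finset (Fin 5))
      ![fun x => x, fun _ => 1, fun _ => 1, fun x => -x ^ (ν + 1 / 2), fun _ => 1]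
      ![g, fun y => -(y * g y), fun y => y ^ (ν + 1 / 2), fun _ => 1,
        fun _ => δ ^ (ν + 1 / 2)] hAH hKK.1 (by
        intro x hx y hy
        simp only [Fin.sum_univ_five]
        change 0 ≤ x * g y + 1 * -(y * g y) + 1 * y ^ (ν + 1 / 2) + -x ^ (ν + 1 / 2) * 1 +
          1 * δ ^ (ν + 1 / 2)
        have h1 := alg_le hν hcase.le hδ0 (Main.spectrum_dg_pos hlam hx)
          (Main.spectrum_nonneg hKK hy)
        have h2 : x * g y = (ν + 1 / 2) * (max y δ) ^ (ν - 1 / 2) * x := by rw [hg]; ring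
        have h3 : y * g y = (ν + 1 / 2) * (max y δ) ^ (ν - 1 / 2) * y := by rw [hg]; ring
        linarith)
    simp only [Fin.sum_univ_five] at hm
    change 0 ≤ rtr (cfc (fun x => x) A * cfc g (K * K)) +
      rtr (cfc (fun _ => 1) A * cfc (fun y => -(y * g y)) (K * K)) +
      rtr (cfc (fun _ => 1) A * cfc (fun y => y ^ (ν + 1 / 2)) (K * K)) +
      rtr (cfc (fun x => -x ^ (ν + 1 / 2)) A * cfc (fun _ => 1) (K * K)) +
      rtr (cfc (fun _ => 1) A * cfc (fun _ => δ ^ (ν + 1 / 2)) (K * K)) at hm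
    have hconst : rtr (cfc (fun _ : ℝ => δ ^ (ν + 1 / 2)) (K * K)) = N * δ ^ (ν + 1 / 2) := by
      rw [rtr_cfc hKK.1]
      simp
    rw [TraceConv.cfc_one hKK.1, TraceConv.cfc_one hAH, TraceConv.cfc_id hAH,
      TraceConv.cfc_neg hKK.1, TraceConv.cfc_neg hAH, Matrix.mul_one,
      Matrix.one_mul, Matrix.one_mul, Matrix.one_mul, rtr_neg, rtr_neg, hsum,
      Main.rtr_cfc_sq hν hK, ← TraceConv.cfc_mul_cfc hKK.1 (fun y => y) g,
      TraceConv.cfc_id hKK.1, hconst] at hm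
    linarith

/-- The sharp upper bound. -/
theorem LT_le {ν : ℝ} (hν : 0 < ν) (hν1 : ν < 1) (m : ℕ) :
    LT (ν + 1 / 2) m ≤ ENNReal.ofReal (Lone (ν + 1 / 2)) := by
  unfold LT
  refine iSup_le fun W => iSup_le fun hW => iSup_le fun h0 => ?_
  refine ENNReal.div_le_of_le_mul ?_
  unfold negMoment
  refine iSup_le fun N => iSup_le fun lam => iSup_le fun u => iSup_le fun hON => ?_
  obtain ⟨hneg, heig, hon⟩ := hON
  choose u' hu he using heig
  rw [← ENNReal.ofReal_sum_of_nonneg fun j _ => by positivity]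
  have habs : ∑ j, |lam j| ^ (ν + 1 / 2) = ∑ j, (-lam j) ^ (ν + 1 / 2) :=
    Finset.sum_congr rfl fun j _ => by rw [abs_of_neg (hneg j)]
  rw [habs]
  refine ENNReal.le_of_forall_pos_le_add fun ε hε _ => ?_
  have hε' : (0 : ℝ) < ε := by exact_mod_cast hε
  obtain ⟨C, hC, hle⟩ := exists_Jf hν hν1 hW.posSemidef hW.measurable hu hneg he hon hε'
  have hint := (eigen_identity hW.posSemidef hW.measurable hu hneg he hon hC).1
  have h1 := Jf_le hν hW.posSemidef hu hint
  calc ENNReal.ofReal (∑ j, (-lam j) ^ (ν + 1 / 2))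
      ≤ ENNReal.ofReal (Jf ν W u C + ε) := ENNReal.ofReal_le_ofReal (by linarith)
    _ ≤ ENNReal.ofReal (Jf ν W u C) + ENNReal.ofReal ε := ENNReal.ofReal_add_le
    _ = ENNReal.ofReal (Jf ν W u C) + ε := by rw [ENNReal.ofReal_coe_nnreal]
    _ ≤ _ := add_le_add h1 le_rfl

end Vale.Agent.P371.Full
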